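import Vale.Agent.P048.Basic

namespace Vale.Agent.P048
open Finset

variable {V : Type}

theorem per_mul {β : Type} {X : ℤ → β} {p : ℤ} (h : ∀ i, X (i + p) = X i) (n : ℤ) (i : ℤ) :
    X (i + n * p) = X i :=
  Function.Periodic.int_mul (f := X) (c := p) h n i

theorem window {β : Type} {X Y : ℤ → β} {p a : ℤ} (hp : 0 < p) (hX : ∀ i, X (i + p) = X i)
    (hY : ∀ i, Y (i + p) = Y i) (h : ∀ i, a ≤ i → i < a + p → X i = Y i) (i : ℤ) : X i = Y i := by
  have e : i = (a + (i - a) % p) + ((i - a) / p) * p := by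
    have := Int.emod_add_mul_ediv (i - a) p
    linarith
  have h1 := Int.emod_nonneg (i - a) hp.ne'
  have h2 := Int.emod_lt_of_pos (i - a) hp
  rw [e, per_mul hX, per_mul hY]
  exact h _ (by omega) (by omega)

structure Cyc (G : SimpleGraph V) (K : Set V) (c : ℤ) (cyc : ℤ → V) : Prop where
  per : ∀ i, cyc (i + c) = cyc i
  adj : ∀ i, G.Adj (cyc i) (cyc (i + 1))
  inj : ∀ i j, i < j → j < i + c → cyc i ≠ cyc j
  mem : ∀ i, cyc i ∈ K

def NoBi (G : SimpleGraph V) (K : Set V) (χ : V → ZMod 2) (l : ℕ) : Prop :=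
  ∀ g : ℕ → V, (∀ i ≤ l, g i ∈ K) → (∀ i ≤ l, ∀ j ≤ l, g i = g j → i = j) →
    (∀ i < l, G.Adj (g i) (g (i + 1))) → χ (g 0) = χ (g l)

variable {G : SimpleGraph V} {K : Set V} {c r : ℤ} {cyc : ℤ → V} {χ : V → ZMod 2} {l : ℕ}

theorem Cyc.mirror (h : Cyc G K c cyc) : Cyc G K c (fun i => cyc (-i)) where
  per i := by
    have := h.per (-(i + c))
    beta_reduce
    rw [← this]; congr 1; ring
  adj i := by
    have := (h.adj (-(i + 1))).symm
    beta_reduce
    convert this using 2; ring
  inj i j h1 h2 := fun e => h.inj (-j) (-i) (by omega) (by omega) e.symm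
  mem i := h.mem _

theorem Cyc.shift (h : Cyc G K c cyc) (a : ℤ) : Cyc G K c (fun i => cyc (i + a)) where
  per i := by
    have := h.per (i + a)
    beta_reduce
    rw [← this]; congr 1; ring
  adj i := by
    have := h.adj (i + a)
    beta_reduce
    convert this using 2; ring
  inj i j h1 h2 := h.inj (i + a) (j + a) (by omega) (by omega)
  mem i := h.mem _

theorem Cyc.mirror_chord (h : Cyc G K c cyc) (hr : G.Adj (cyc 0) (cyc r)) :
    G.Adj ((fun i => cyc (-i)) 0) ((fun i => cyc (-i)) (c - r)) := by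
  have := h.per (-(c - r))
  simp only [neg_zero]
  rw [← this]
  convert hr using 2; ring

theorem Cyc.inj' (h : Cyc G K c cyc) {lo i j : ℤ} (h1 : lo ≤ i) (h2 : i < lo + c) (h3 : lo ≤ j)
    (h4 : j < lo + c) (e : cyc i = cyc j) : i = j := by
  rcases lt_trichotomy i j with hh | hh | hh
  · exact absurd e (h.inj i j hh (by omega))
  · exact hh
  · exact absurd e.symm (h.inj j i hh (by omega))

theorem Cyc.path (h : Cyc G K c cyc) (hb : NoBi G K χ l) (hr : G.Adj (cyc 0) (cyc r))
    (φ : ℕ → ℤ) (lo : ℤ) (hw : ∀ i ≤ l, lo ≤ φ i ∧ φ i < lo + c)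
    (hi : ∀ i ≤ l, ∀ j ≤ l, φ i = φ j → i = j)
    (hs : ∀ i < l, φ (i + 1) = φ i + 1 ∨ φ i = φ (i + 1) + 1 ∨ (φ i = 0 ∧ φ (i + 1) = r)) :
    χ (cyc (φ 0)) = χ (cyc (φ l)) := by
  refine hb (fun i => cyc (φ i)) (fun i _ => h.mem _) ?_ ?_
  · intro i hi' j hj e
    exact hi i hi' j hj (h.inj' (hw i hi').1 (hw i hi').2 (hw j hj).1 (hw j hj).2 e)
  · intro i hi'
    beta_reduce
    rcases hs i hi' with e | e | ⟨e1, e2⟩
    · rw [e]; exact h.adj _
    · rw [e]; exact (h.adj _).symm
    · rw [e1, e2]; exact hr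

theorem Cyc.P0 (h : Cyc G K c cyc) (hb : NoBi G K χ l) (hl : (l : ℤ) < c) (i : ℤ) :
    χ (cyc (i + l)) = χ (cyc i) := by
  have := h.path hb (r := 0 + 1) (h.adj 0) (fun n => i + n) i (by intro n hn; constructor <;> omega)
    (by intro a _ b _ e; omega) (by intro n _; left; push_cast; ring)
  simpa using this.symm

theorem Cyc.P1 (h : Cyc G K c cyc) (hb : NoBi G K χ l) (hl : (l : ℤ) < c)
    (hr : G.Adj (cyc 0) (cyc r)) (j : ℤ) (h0 : 0 ≤ j) (h1 : j ≤ r - 1) (h2 : j ≤ l - 1)
    (h3 : r + l - j - 1 ≤ c - 1) : χ (cyc j) = χ (cyc (r - 1 - j)) := by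
  have := h.path hb hr (fun n => if (n : ℤ) ≤ j then j - n else r + n - j - 1) 0
    (by intro n hn; beta_reduce; split_ifs <;> constructor <;> omega)
    (by intro a _ b _ e; beta_reduce at e; split_ifs at e <;> omega)
    (by intro n _; beta_reduce; push_cast; split_ifs <;> omega)
  simp only [Nat.cast_zero, h0, if_true, sub_zero] at this
  rw [if_neg (by omega)] at this
  rw [this, ← h.P0 hb hl (r - 1 - j)]
  congr 2; ring

theorem Cyc.P3 (h : Cyc G K c cyc) (hb : NoBi G K χ l) (hl0 : 0 < l) (hr0 : 1 ≤ r)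
    (hr : G.Adj (cyc 0) (cyc r)) (h3 : r + l ≤ c) (i : ℤ) :
    χ (cyc (i + (r - 1))) = χ (cyc i) := by
  have hl : (l : ℤ) < c := by omega
  refine window (X := fun i => χ (cyc (i + (r - 1)))) (Y := fun i => χ (cyc i)) (p := l)
    (a := 1 - l) (by omega) ?_ (h.P0 hb hl) ?_ i
  · intro i
    beta_reduce
    rw [← h.P0 hb hl (i + (r - 1))]; congr 2; ring
  · intro j h0 h1
    have := h.path hb hr (fun n => if (n : ℤ) ≤ -j then j + n else r + n + j - 1) j
      (by intro n hn; beta_reduce; split_ifs <;> constructor <;> omega)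
      (by intro a _ b _ e; beta_reduce at e; split_ifs at e <;> omega)
      (by intro n _; beta_reduce; push_cast; split_ifs <;> omega)
    simp only [Nat.cast_zero, add_zero] at this
    rw [if_pos (by omega), if_neg (by omega)] at this
    beta_reduce
    rw [this, ← h.P0 hb hl (j + (r - 1))]
    congr 2; ring

theorem Cyc.P2 (h : Cyc G K c cyc) (hb : NoBi G K χ l) (hl : (l : ℤ) < c)
    (hr : G.Adj (cyc 0) (cyc r)) (j : ℤ) (h0 : 0 ≤ j) (h1 : j ≤ c - r - 1) (h2 : j ≤ l - 1)
    (h3 : l - j ≤ r) : χ (cyc (-j)) = χ (cyc (r + 1 + j)) := by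
  have := h.mirror.P1 hb hl (h.mirror_chord hr) j h0 h1 h2 (by omega)
  beta_reduce at this
  rw [this, ← h.per]
  congr 2; ring

theorem refl_two {β : Type} {X : ℤ → β} {p a b r : ℤ} (hp : 0 < p) (hX : ∀ i, X (i + p) = X i)
    (h1 : ∀ i, a ≤ i → i < a + p → X i = X (r - 1 - i))
    (h2 : ∀ i, b ≤ i → i < b + p → X i = X (r + 1 - i)) (i : ℤ) : X (i + 2) = X i := by
  have e1 := window (X := X) (Y := fun i => X (r - 1 - i)) hp hX (by
    intro i
    beta_reduce
    rw [← hX (r - 1 - (i + p))]; congr 1; ring) h1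
  have e2 := window (X := X) (Y := fun i => X (r + 1 - i)) hp hX (by
    intro i
    beta_reduce
    rw [← hX (r + 1 - (i + p))]; congr 1; ring) h2
  rw [e2 (i + 2), e1 i]
  congr 1; ring

theorem Cyc.short (h : Cyc G K c cyc) (hb : NoBi G K χ l) (hl : (l : ℤ) < c)
    (hr : G.Adj (cyc 0) (cyc r)) (hr2 : 2 ≤ r) (hrc : r ≤ c - 2) (hrl : r < l) (i : ℤ) :
    χ (cyc (i + 2)) = χ (cyc i) := by
  by_cases h3 : r + l ≤ c
  · refine refl_two (X := fun i => χ (cyc i)) (p := r - 1) (a := 0) (b := 1 - l) (r := r)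
      (by omega) (h.P3 hb (by omega) (by omega) hr h3) ?_ ?_ i
    · intro j h0 h1
      exact h.P1 hb hl hr j h0 (by omega) (by omega) (by omega)
    · intro j h0 h1
      have := h.P2 hb hl hr (-j) (by omega) (by omega) (by omega) (by omega)
      simpa [sub_eq_add_neg] using this
  · refine refl_two (X := fun i => χ (cyc i)) (p := c - l) (a := r + l - c) (b := r + 1 - c)
      (r := r) (by omega) ?_ ?_ ?_ i
    · intro j
      beta_reduce
      rw [← h.P0 hb hl (j + (c - l)), ← h.per j]
      congr 2; ring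
    · intro j h0 h1
      exact h.P1 hb hl hr j (by omega) (by omega) (by omega) (by omega)
    · intro j h0 h1
      have := h.P2 hb hl hr (-j) (by omega) (by omega) (by omega) (by omega)
      simpa [sub_eq_add_neg] using this

theorem Cyc.two (h : Cyc G K c cyc) (hb : NoBi G K χ l) (hl0 : 0 < l) (hl : (l : ℤ) < c)
    (hr : G.Adj (cyc 0) (cyc r)) (hr2 : 2 ≤ r) (hrc : r ≤ c - 2) (i : ℤ) :
    χ (cyc (i + 2)) = χ (cyc i) := by
  by_cases h1 : r < l
  · exact h.short hb hl hr hr2 hrc h1 i
  by_cases h2 : c - r < l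
  · have := h.mirror.short hb hl (h.mirror_chord hr) (by omega) (by omega) h2 (-(i + 2))
    beta_reduce at this
    rw [neg_neg] at this
    rw [← this]; congr 2; ring
  · have e1 := h.P3 hb hl0 (by omega) hr (by omega)
    have e2 := h.mirror.P3 hb hl0 (by omega) (h.mirror_chord hr) (by omega)
    beta_reduce at e2
    have e3 := e2 (-(i + 2 + (r - 1) + (c - r - 1)))
    rw [← e1 (i + 2), ← h.per i]
    rw [neg_neg] at e3
    rw [show i + c = i + 2 + (r - 1) + (c - r - 1) by ring, ← e3]
    congr 2; ring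

theorem zmod2_self (a : ZMod 2) : a + a = 0 := by
  revert a; decide

theorem Cyc.eps (h2 : ∀ i, χ (cyc (i + 2)) = χ (cyc i)) (i : ℤ) :
    χ (cyc (i + 1)) = χ (cyc i) + (χ (cyc 0) + χ (cyc 1)) := by
  have := window (X := fun i => χ (cyc (i + 1)))
    (Y := fun i => χ (cyc i) + (χ (cyc 0) + χ (cyc 1))) (p := 2) (a := 0) (by omega)
    (by intro i; beta_reduce; rw [← h2 (i + 1)]; congr 2; ring)
    (by intro i; beta_reduce; rw [h2]) (by
      intro i h0 h1
      have : i = 0 ∨ i = 1 := by omega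
      rcases this with rfl | rfl
      · simp only [zero_add]
        rw [← add_assoc, zmod2_self, zero_add]
      · beta_reduce
        rw [show (1 : ℤ) + 1 = 0 + 2 by ring, h2, add_comm (χ (cyc 0)), ← add_assoc, zmod2_self,
          zero_add]) i
  exact this

theorem eps_int {X : ℤ → ZMod 2} {e : ZMod 2} (h : ∀ i, X (i + 1) = X i + e) (i : ℤ) :
    X i = X 0 + (i : ZMod 2) * e := by
  induction i using Int.induction_on with
  | zero => simp
  | succ n ih => rw [h, ih]; push_cast; ring
  | pred n ih =>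
    have := h (-(n : ℤ) - 1)
    rw [sub_add_cancel, ih] at this
    push_cast at this ⊢
    linear_combination -this

/-- every edge between two vertices of the cycle respects the parity -/
theorem Cyc.chord (h : Cyc G K c cyc) (hb : NoBi G K χ l) (hl0 : 0 < l) (hl : (l : ℤ) < c)
    {e : ZMod 2} (he : ∀ i, χ (cyc (i + 1)) = χ (cyc i) + e) (a b : ℤ)
    (hab : G.Adj (cyc a) (cyc b)) : χ (cyc b) = χ (cyc a) + e := by
  have hc : 0 < c := by omega
  have h' := h.shift a
  set r := (b - a) % c with hr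
  have hb' : cyc b = cyc (r + a) := by
    have := per_mul h.per ((b - a) / c) (r + a)
    rw [← this]; congr 1
    have := Int.emod_add_mul_ediv (b - a) c
    linarith
  have h1 := Int.emod_nonneg (b - a) hc.ne'
  have h2 := Int.emod_lt_of_pos (b - a) hc
  have hr0 : r ≠ 0 := by
    intro h0
    rw [hb', h0, zero_add] at hab
    exact G.irrefl hab
  have hadj : G.Adj ((fun i => cyc (i + a)) 0) ((fun i => cyc (i + a)) r) := by
    simp only [zero_add]; rw [← hb']; exact hab
  have := h'.P1 hb hl hadj (min (r - 1) (l - 1)) (by omega) (by omega) (by omega) (by omega)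
  have hX := eps_int (X := fun i => χ (cyc (i + a))) (e := e) (by
    intro i; beta_reduce; rw [← he]; congr 2; ring)
  beta_reduce at this hX
  rw [hX, hX (r - 1 - _)] at this
  rw [hb', hX r]
  simp only [zero_add]
  generalize min (r - 1) ((l : ℤ) - 1) = j at this
  push_cast at this
  have h2 := zmod2_self ((j : ZMod 2) * e)
  linear_combination -this + h2

/-- the parity condition spreads to all of the connected set `K` -/
theorem Cyc.spread [Fintype V] (h : Cyc G K c cyc) (hb : NoBi G K χ l) (hl0 : 0 < l)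
    (hl : (l : ℤ) < c) {e : ZMod 2} (he : ∀ i, χ (cyc (i + 1)) = χ (cyc i) + e)
    (hK : ∀ w ∈ K, Relation.ReflTransGen (fun a b => G.Adj a b ∧ b ∈ K) (cyc 0) w) :
    ∀ u ∈ K, ∀ v ∈ K, G.Adj u v → χ v = χ u + e := by
  classical
  have hle : (l : ZMod 2) * e = 0 := by
    have h1 := eps_int (X := fun i => χ (cyc i)) he l
    have h2 := h.P0 hb hl 0
    simp only [zero_add] at h1 h2
    rw [h2] at h1
    push_cast at h1
    linear_combination -h1
  let Good : Finset V → Prop := fun S => (∀ w ∈ S, w ∈ K) ∧ (∀ i, cyc i ∈ S) ∧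
    (∀ u ∈ S, ∀ v ∈ S, G.Adj u v → χ v = χ u + e) ∧
    ∀ w ∈ S, ∃ g : ℕ → V, g 0 = w ∧ (∀ i < l, g i ∈ S) ∧ (∀ i < l, ∀ j < l, g i = g j → i = j) ∧
      ∀ i, i + 1 < l → G.Adj (g i) (g (i + 1))
  have h0 : Good (univ.filter (fun w => ∃ i, cyc i = w)) := by
    refine ⟨?_, ?_, ?_, ?_⟩
    · intro w hw
      obtain ⟨i, rfl⟩ := (mem_filter.1 hw).2
      exact h.mem i
    · intro i; simp
    · intro u hu v hv huv
      obtain ⟨i, rfl⟩ := (mem_filter.1 hu).2
      obtain ⟨j, rfl⟩ := (mem_filter.1 hv).2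
      exact h.chord hb hl0 hl he i j huv
    · intro w hw
      obtain ⟨i, rfl⟩ := (mem_filter.1 hw).2
      refine ⟨fun n => cyc (i + n), by simp, by intro n _; simp, ?_, ?_⟩
      · intro a ha b hb' e
        have := h.inj' (lo := i) (by omega) (by omega) (by omega) (by omega) e
        omega
      · intro n _
        have := h.adj (i + n)
        beta_reduce
        convert this using 2; push_cast; ring
  obtain ⟨S, hS, hmax⟩ := exists_max_image (univ.filter Good) card ⟨_, mem_filter.2 ⟨mem_univ _, h0⟩⟩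
  obtain ⟨g1, g2, g3, g4⟩ := (mem_filter.1 hS).2
  have hclosed : ∀ u ∈ S, ∀ v ∈ K, G.Adj u v → v ∈ S := by
    intro u hu v hv huv
    by_contra hvS
    have ext : ∀ u ∈ S, G.Adj u v → ∃ g : ℕ → V, g 0 = v ∧ g 1 = u ∧
        (∀ i, 0 < i → i ≤ l → g i ∈ S) ∧ (∀ i ≤ l, ∀ j ≤ l, g i = g j → i = j) ∧
        ∀ i < l, G.Adj (g i) (g (i + 1)) := by
      intro u hu huv
      obtain ⟨g, q0, q1, q2, q3⟩ := g4 u hu
      refine ⟨fun n => if n = 0 then v else g (n - 1), by simp, by simp [q0], ?_, ?_, ?_⟩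
      · intro i hi hil
        simp only [if_neg hi.ne']
        exact q1 _ (by omega)
      · intro i hi j hj e
        beta_reduce at e
        split_ifs at e with a b b
        · omega
        · exact absurd (e ▸ q1 _ (by omega)) hvS
        · exact absurd (e ▸ q1 _ (by omega)) hvS
        · have := q2 _ (by omega) _ (by omega) e
          omega
      · intro i hi
        rcases Nat.eq_zero_or_pos i with rfl | hp
        · simpa [q0] using huv.symm
        · simp only [if_neg hp.ne', Nat.add_sub_cancel, Nat.succ_ne_zero, if_false]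
          have := q3 (i - 1) (by omega)
          rwa [Nat.sub_add_cancel hp] at this
    have key : ∀ u ∈ S, G.Adj u v → χ v = χ u + e := by
      intro u hu huv
      obtain ⟨g, q0, q1, q2, q3, q4⟩ := ext u hu huv
      have h1 := hb g (by
        intro i hi
        rcases Nat.eq_zero_or_pos i with rfl | hp
        · rw [q0]; exact hv
        · exact g1 _ (q2 i hp hi)) q3 q4
      have h2 : ∀ i, i + 1 ≤ l → χ (g (i + 1)) = χ u + (i : ZMod 2) * e := by
        intro i
        induction i with
        | zero => intro _; simp [q1]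
        | succ n ih =>
          intro hn
          rw [g3 _ (q2 (n + 1) (by omega) (by omega)) _ (q2 (n + 1 + 1) (by omega) hn)
            (q4 _ (by omega)), ih (by omega)]
          push_cast; ring
      have h3 := h2 (l - 1) (by omega)
      rw [Nat.sub_add_cancel hl0, ← h1, q0, Nat.cast_sub hl0] at h3
      have h4 := zmod2_self e
      push_cast at h3
      linear_combination h3 + hle - h4
    have hG : Good (insert v S) := by
      refine ⟨?_, fun i => mem_insert_of_mem (g2 i), ?_, ?_⟩
      · intro w hw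
        rcases mem_insert.1 hw with rfl | hw
        · exact hv
        · exact g1 w hw
      · intro a ha b hb' hab
        rcases mem_insert.1 ha with rfl | ha' <;> rcases mem_insert.1 hb' with rfl | hb''
        · exact absurd hab G.irrefl
        · have := key b hb'' hab.symm
          have h4 := zmod2_self e
          linear_combination -this - h4
        · exact key a ha' hab
        · exact g3 a ha' b hb'' hab
      · intro w hw
        rcases mem_insert.1 hw with rfl | hw
        · obtain ⟨g, q0, q1, q2, q3, q4⟩ := ext u hu huv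
          refine ⟨g, q0, ?_, fun i hi j hj => q3 i hi.le j hj.le, fun i hi => q4 i (by omega)⟩
          intro i hi
          rcases Nat.eq_zero_or_pos i with rfl | hp
          · rw [q0]; exact mem_insert_self _ _
          · exact mem_insert_of_mem (q2 i hp hi.le)
        · obtain ⟨g, q0, q1, q2, q3⟩ := g4 w hw
          exact ⟨g, q0, fun i hi => mem_insert_of_mem (q1 i hi), q2, q3⟩
    have := hmax _ (mem_filter.2 ⟨mem_univ _, hG⟩)
    rw [card_insert_of_notMem hvS] at this
    omega
  have hall : ∀ w ∈ K, w ∈ S := by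
    intro w hw
    have := hK w hw
    clear hw
    induction this with
    | refl => exact g2 0
    | tail _ hbc ih => exact hclosed _ ih _ hbc.2 hbc.1
  intro u hu v hv huv
  exact g3 u (hall u hu) v (hall v hv) huv

end Vale.Agent.P048
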