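import Mathlib

namespace Vale.Agent.P048
open Finset

variable {V : Type}

/-- a cycle on exactly `m` vertices, given as a sequence -/
def HasCycle (G : SimpleGraph V) (m : ℕ) : Prop :=
  ∃ g : ℕ → V, (∀ i < m, ∀ j < m, g i = g j → i = j) ∧
    (∀ i, i + 1 < m → G.Adj (g i) (g (i + 1))) ∧ G.Adj (g (m - 1)) (g 0)

def Ind (G : SimpleGraph V) (I : Finset V) : Prop := ∀ u ∈ I, ∀ v ∈ I, ¬ G.Adj u v

def Clq (G : SimpleGraph V) (S : Finset V) : Prop := ∀ u ∈ S, ∀ v ∈ S, u ≠ v → G.Adj u v

open Classical in
noncomputable def nb [Fintype V] (G : SimpleGraph V) (v : V) : Finset V := univ.filter (G.Adj v)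

open Classical in
noncomputable def cnb [Fintype V] (G : SimpleGraph V) (I : Finset V) : Finset V :=
  univ.filter (fun v => v ∈ I ∨ ∃ u ∈ I, G.Adj u v)

@[simp] theorem mem_nb [Fintype V] {G : SimpleGraph V} {v w : V} : w ∈ nb G v ↔ G.Adj v w := by
  simp [nb]

@[simp] theorem mem_cnb [Fintype V] {G : SimpleGraph V} {I : Finset V} {v : V} :
    v ∈ cnb G I ↔ v ∈ I ∨ ∃ u ∈ I, G.Adj u v := by
  simp [cnb]

theorem hasCycle_of_list {G : SimpleGraph V} {x : V} {l : List V} (hn : (x :: l).Nodup)
    (hc : List.IsChain G.Adj (x :: (l ++ [x]))) : HasCycle G (l.length + 1) := by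
  refine ⟨fun i => (x :: (l ++ [x])).getD i x, ?_, ?_, ?_⟩
  · intro i hi j hj h
    have e : ∀ i (hi : i < l.length + 1),
        (x :: (l ++ [x])).getD i x = (x :: l)[i]'(by simpa using hi) := by
      intro i hi
      rw [← List.cons_append, List.getD_append _ _ _ _ (by simpa using hi),
        List.getD_eq_getElem _ _ (by simpa using hi)]
    simp only [e i hi, e j hj] at h
    exact (List.Nodup.getElem_inj_iff hn).1 h
  · intro i hi
    have := List.isChain_iff_getElem.1 hc i (by simp; omega)
    simp only
    rw [List.getD_eq_getElem _ _ (by simp; omega), List.getD_eq_getElem _ _ (by simp; omega)]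
    exact this
  · have := List.isChain_iff_getElem.1 hc l.length (by simp)
    simp only [Nat.add_sub_cancel]
    rw [List.getD_eq_getElem _ _ (by simp)]
    simpa using this

theorem contained_of_hasCycle {G : SimpleGraph V} {m : ℕ} (h : HasCycle G m) :
    SimpleGraph.IsContained (SimpleGraph.cycleGraph m) G := by
  obtain ⟨g, hi, ha, hc⟩ := h
  have key : ∀ u v : Fin m, (u - v).val = 1 → G.Adj (g v) (g u) := by
    intro u v h
    have hu := u.2
    have hv := v.2
    rw [Fin.sub_def] at h
    simp only at h
    by_cases hvu : v.val ≤ u.val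
    · have e : m - v.val + u.val = (u.val - v.val) + m := by omega
      rw [e, Nat.add_mod_right, Nat.mod_eq_of_lt (by omega)] at h
      have : u.val = v.val + 1 := by omega
      rw [this]
      exact ha _ (by omega)
    · rw [Nat.mod_eq_of_lt (by omega)] at h
      have h1 : u.val = 0 := by omega
      have h2 : v.val = m - 1 := by omega
      rw [h1, h2]
      exact hc
  refine ⟨⟨⟨fun i => g i, ?_⟩, ?_⟩⟩
  · intro u v h
    rcases SimpleGraph.cycleGraph_adj'.1 h with h | h
    · exact (key u v h).symm
    · exact key v u h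
  · intro u v h
    exact Fin.ext (hi _ u.2 _ v.2 h)

/-- hypotheses of the core statement -/
structure Core [Fintype V] (G : SimpleGraph V) (k : ℕ) : Prop where
  nocyc : ¬ HasCycle G (k + 1)
  ind : ∀ I : Finset V, Ind G I → I.card ≤ k
  ex : ∀ I : Finset V, Ind G I → I.Nonempty → k * I.card + 1 ≤ (cnb G I).card

theorem Core.deg [Fintype V] {G : SimpleGraph V} {k : ℕ} (h : Core G k) (v : V) :
    k ≤ (nb G v).card := by
  classical
  have h1 := h.ex {v} (by intro u hu w hw; simp at hu hw; subst hu hw; simp) (by simp)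
  have h2 : cnb G {v} ⊆ insert v (nb G v) := by
    intro w hw
    simpa using hw
  have h3 := card_le_card h2
  have h4 := card_insert_le v (nb G v)
  simp at h1
  omega

theorem reduction (k : ℕ)
    (hcore : ∀ (W : Type) [Fintype W] (G : SimpleGraph W), Nonempty W → Core G k → False) :
    ∀ a ≤ k, ∀ (W : Type) [Fintype W] (G : SimpleGraph W), ¬ HasCycle G (k + 1) →
      (∀ I : Finset W, Ind G I → I.card ≤ a) → Fintype.card W ≤ k * a := by
  intro a
  induction a using Nat.strong_induction_on with
  | _ a ih =>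
  intro hak W _ G hc hi
  classical
  by_contra hlt
  push Not at hlt
  refine hcore W G (Fintype.card_pos_iff.1 (by omega)) ⟨hc, fun I hI => (hi I hI).trans hak, ?_⟩
  intro I hI hne
  have hIa := hi I hI
  have hpos := hne.card_pos
  let s : Set W := {v | v ∉ cnb G I}
  have h1 := ih (a - I.card) (by omega) (by omega) s (G.induce s) ?_ ?_
  · have h2 : Fintype.card s = Fintype.card W - (cnb G I).card := by
      rw [Fintype.card_subtype]
      have : univ.filter (fun x => x ∈ s) = (cnb G I)ᶜ := by
        ext x; simp [s]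
      rw [this, card_compl]
    have h3 : k * a = k * (a - I.card) + k * I.card := by
      rw [← Nat.mul_add]; congr 1; omega
    have h4 := card_le_univ (cnb G I)
    omega
  · rintro ⟨g, g1, g2, g3⟩
    exact hc ⟨fun i => (g i).1, fun i hi j hj h => g1 i hi j hj (Subtype.ext h),
      fun i hi => g2 i hi, g3⟩
  · intro J hJ
    have hd : Disjoint I (J.map (Function.Embedding.subtype _)) := by
      rw [disjoint_left]
      intro x hx hx'
      simp only [mem_map, Function.Embedding.coe_subtype] at hx'
      obtain ⟨y, -, rfl⟩ := hx'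
      exact y.2 (mem_cnb.2 (Or.inl hx))
    have := hi (I ∪ J.map (Function.Embedding.subtype _)) (by
      intro u hu v hv
      simp only [mem_union, mem_map, Function.Embedding.coe_subtype] at hu hv
      rcases hu with hu | ⟨u, hu, rfl⟩ <;> rcases hv with hv | ⟨v, hv, rfl⟩
      · exact hI _ hu _ hv
      · exact fun h => v.2 (mem_cnb.2 (Or.inr ⟨_, hu, h⟩))
      · exact fun h => u.2 (mem_cnb.2 (Or.inr ⟨_, hv, h.symm⟩))
      · exact hJ _ hu _ hv)
    rw [card_union_of_disjoint hd, card_map] at this
    omega

theorem two_nonadj {G : SimpleGraph V} {t : ℕ} (hcl : ∀ S : Finset V, Clq G S → S.card ≤ t)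
    {x : V} {S : Finset V} (hx : ∀ u ∈ S, G.Adj x u) (hS : t ≤ S.card) :
    ∃ u ∈ S, ∃ v ∈ S, u ≠ v ∧ ¬ G.Adj u v := by
  classical
  by_contra hno
  push Not at hno
  have hxS : x ∉ S := fun h => G.irrefl (hx x h)
  have := hcl (insert x S) (by
    intro u hu v hv huv
    rcases mem_insert.1 hu with rfl | hu' <;> rcases mem_insert.1 hv with rfl | hv'
    · exact absurd rfl huv
    · exact hx _ hv'
    · exact (hx _ hu').symm
    · exact hno _ hu' _ hv' huv)
  rw [card_insert_of_notMem hxS] at this
  omega

theorem ind_pair {G : SimpleGraph V} [DecidableEq V] {u v : V} (h : ¬ G.Adj u v) :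
    Ind G {u, v} := by
  intro a ha b hb
  simp only [mem_insert, mem_singleton] at ha hb
  rcases ha with rfl | rfl <;> rcases hb with rfl | rfl
  · simp
  · exact h
  · exact fun h' => h h'.symm
  · simp

theorem ind_single {G : SimpleGraph V} {u : V} : Ind G {u} := by
  intro a ha b hb
  simp only [mem_singleton] at ha hb
  subst ha hb
  simp

end Vale.Agent.P048
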