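import Vale.Agent.P048.Cert0
import Vale.Agent.P048.Cert1
import Vale.Agent.P048.Cert2
import Vale.Agent.P048.Cert3
import Vale.Agent.P048.Cert4
import Vale.Agent.P048.Cert5
import Vale.Agent.P048.Cert6

namespace Vale.Agent.P048

noncomputable def tabs : List (List ((ℕ × ℕ × List ℕ) × Cert)) :=
  [tab0, tab1, tab2, tab3, tab4, tab5, tab6, tab7, tab8, tab9, tab10, tab11, tab12, tab13, tab14, tab15, tab16, tab17, tab18, tab19, tab20, tab21, tab22, tab23, tab24, tab25, tab26, tab27, tab28, tab29, tab30]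

theorem tabs_ok : tabs.all tabOK = true := by
  simp only [tabs, List.all_cons, List.all_nil, Bool.and_self,
    tab0_ok, tab1_ok, tab2_ok, tab3_ok, tab4_ok, tab5_ok, tab6_ok, tab7_ok, tab8_ok, tab9_ok, tab10_ok, tab11_ok, tab12_ok, tab13_ok, tab14_ok, tab15_ok, tab16_ok, tab17_ok, tab18_ok, tab19_ok, tab20_ok, tab21_ok, tab22_ok, tab23_ok, tab24_ok, tab25_ok, tab26_ok, tab27_ok, tab28_ok, tab29_ok, tab30_ok]

theorem keys_eq : keys = tabs.flatten.map Prod.fst := by decide +kernel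

theorem keys_ok : ∀ x ∈ keys, ∃ c, top x.1 x.2.1 x.2.2 c = true := by
  intro x hx
  rw [keys_eq] at hx
  obtain ⟨p, hp, rfl⟩ := List.mem_map.1 hx
  obtain ⟨l, hl, hp⟩ := List.mem_flatten.1 hp
  exact ⟨p.2, List.all_eq_true.1 (List.all_eq_true.1 tabs_ok l hl) p hp⟩

end Vale.Agent.P048
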