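import Vale.Agent.P048.Layer

namespace Vale.Agent.P048
open Finset

variable {V : Type} [Fintype V] {G : SimpleGraph V}

theorem greedy [DecidableEq V] {L : Finset V} {s e : ℕ}
    (h : ∀ H ⊆ L, H.Nonempty → ∃ J ⊆ H, J.Nonempty ∧ Ind G J ∧
      (cnb G J ∩ H).card + e ≤ s * J.card) :
    ∀ H ⊆ L, H.Nonempty → ∃ J ⊆ H, Ind G J ∧ H.card + e ≤ s * J.card := by
  intro H
  induction H using Finset.strongInduction with
  | H H ih =>
  intro hL hne
  obtain ⟨J, hJH, hJne, hJ, hc⟩ := h H hL hne
  have hsum := card_sdiff_add_card_inter H (cnb G J)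
  rw [inter_comm] at hsum
  rcases (H \ cnb G J).eq_empty_or_nonempty with h0 | h0
  · refine ⟨J, hJH, hJ, ?_⟩
    rw [h0] at hsum
    simp at hsum
    omega
  · obtain ⟨x, hx⟩ := hJne
    obtain ⟨J', h1, h2, h3⟩ := ih (H \ cnb G J)
      ⟨sdiff_subset, fun hh => (mem_sdiff.1 (hh (hJH hx))).2 (mem_cnb.2 (Or.inl hx))⟩
      (sdiff_subset.trans hL) h0
    have hd : Disjoint J J' := by
      rw [disjoint_left]
      intro a ha ha'
      exact (mem_sdiff.1 (h1 ha')).2 (mem_cnb.2 (Or.inl ha))
    refine ⟨J ∪ J', union_subset hJH (h1.trans sdiff_subset), ?_, ?_⟩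
    · intro u hu v hv
      rcases mem_union.1 hu with hu | hu <;> rcases mem_union.1 hv with hv | hv
      · exact hJ _ hu _ hv
      · exact fun h => (mem_sdiff.1 (h1 hv)).2 (mem_cnb.2 (Or.inr ⟨_, hu, h⟩))
      · exact fun h => (mem_sdiff.1 (h1 hu)).2 (mem_cnb.2 (Or.inr ⟨_, hv, h.symm⟩))
      · exact h2 _ hu _ hv
    · rw [card_union_of_disjoint hd, Nat.mul_add]
      omega

theorem lay_of_mem [DecidableEq V] {v0 v : V} {i : ℕ}
    (h : v ∈ ball G v0 (i + 1) \ ball G v0 i) : Lay G v0 (i + 1) v :=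
  ⟨(mem_sdiff.1 h).1, fun _ hj h' => (mem_sdiff.1 h).2 (ball_mono (by omega) h')⟩

theorem clique_lb {k : ℕ} (hk : 4 ≤ k) (hC : Core G k) (v0 : V)
    (hcl : ∀ S : Finset V, Clq G S → S.card ≤ k / 2) : False := by
  classical
  obtain ⟨s, hs⟩ : ∃ s, s = k / 2 := ⟨_, rfl⟩
  rw [← hs] at hcl
  have arith : ∀ i (A B : Finset V), Ind G B → B ⊆ ball G v0 i → 1 ≤ B.card →
      (ball G v0 (i + 1)).card + (2 * s + 1 - k) + s ≤ 1 + s * (A.card + B.card) →
      B.card + 2 ≤ A.card ∧ (k = 2 * s + 1 → 2 * s ≤ B.card + 1 → B.card + 3 ≤ A.card) := by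
    intro i A B hB hBi h1 h2
    have h3 := hC.ex B hB (card_pos.1 h1)
    have h4 : cnb G B ⊆ ball G v0 (i + 1) := by
      intro v hv
      rcases mem_cnb.1 hv with h | ⟨u, hu, h⟩
      · exact mem_cnb.2 (Or.inl (hBi h))
      · exact mem_cnb.2 (Or.inr ⟨u, hBi hu, h⟩)
    have h5 := card_le_card h4
    generalize A.card = a at *
    generalize B.card = b at *
    have hk' : k = 2 * s ∨ k = 2 * s + 1 := by omega
    constructor
    · by_contra hlt
      have := Nat.mul_le_mul_left s (show a ≤ b + 1 by omega)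
      rcases hk' with rfl | rfl
      · rw [show 2 * s + 1 - 2 * s = 1 by omega] at h2
        nlinarith
      · nlinarith
    · rintro rfl h6
      by_contra hlt
      have := Nat.mul_le_mul_left s (show a ≤ b + 2 by omega)
      have h7 : b ≤ s := by nlinarith
      omega
  have inv : ∀ i, i + 1 ≤ s → ∃ A B : Finset V, Ind G A ∧ Ind G B ∧ A ⊆ ball G v0 (i + 1) ∧
      B ⊆ ball G v0 i ∧ 2 * i + 1 ≤ B.card ∧
      (ball G v0 (i + 1)).card + (2 * s + 1 - k) + s ≤ 1 + s * (A.card + B.card) := by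
    intro i
    induction i with
    | zero =>
      intro _
      have hne : (ball G v0 1 \ ball G v0 0).Nonempty := by
        obtain ⟨w, hw⟩ := card_pos.1 (lt_of_lt_of_le (by omega) (hC.deg v0))
        rw [mem_nb] at hw
        exact ⟨w, by simp [ball, hw, hw.ne.symm]⟩
      obtain ⟨J, h1, h2, h3⟩ := greedy (G := G) (L := ball G v0 1 \ ball G v0 0) (s := s)
        (e := 2 * s + 1 - k)
        (fun H hH hne => first_layer hk hs hcl hC.nocyc (fun v hv => lay_of_mem (hH hv)) hne)
        _ Subset.rfl hne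
      refine ⟨J, {v0}, h2, ind_single, h1.trans sdiff_subset, by simp [ball], by simp, ?_⟩
      rw [card_sdiff_of_subset (ball_mono (by omega))] at h3
      have : (ball G v0 0).card = 1 := by simp [ball]
      have h4 := card_le_card (ball_mono (G := G) (v0 := v0) (show 0 ≤ 1 by omega))
      simp only [card_singleton, Nat.mul_add, zero_add]
      omega
    | succ i ih =>
      intro hi
      obtain ⟨A, B, hA, hB, hA', hB', h1, h2⟩ := ih (by omega)
      have h3 := (arith i A B hB hB' (by omega) h2).1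
      have : ∃ J ⊆ ball G v0 (i + 1 + 1) \ ball G v0 (i + 1), Ind G J ∧
          (ball G v0 (i + 1 + 1) \ ball G v0 (i + 1)).card + 0 ≤ s * J.card := by
        rcases (ball G v0 (i + 1 + 1) \ ball G v0 (i + 1)).eq_empty_or_nonempty with h0 | h0
        · exact ⟨∅, by simp, by simp [Ind], by simp [h0]⟩
        · exact greedy (G := G) (L := ball G v0 (i + 1 + 1) \ ball G v0 (i + 1))
            (fun H hH hne => key_layer hk hs hcl hC.nocyc hi (fun v hv => lay_of_mem (hH hv)) hne)
            _ Subset.rfl h0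
      obtain ⟨J, j1, j2, j3⟩ := this
      have hd : Disjoint J B := by
        rw [disjoint_left]
        intro a ha ha'
        exact (mem_sdiff.1 (j1 ha)).2 (ball_mono (by omega) (hB' ha'))
      refine ⟨J ∪ B, A, ?_, hA, union_subset (j1.trans sdiff_subset)
        (hB'.trans (ball_mono (by omega))), hA', by omega, ?_⟩
      · intro u hu v hv
        rcases mem_union.1 hu with hu | hu <;> rcases mem_union.1 hv with hv | hv
        · exact j2 _ hu _ hv
        · exact fun h => (mem_sdiff.1 (j1 hu)).2 (mem_cnb.2 (Or.inr ⟨_, hB' hv, h.symm⟩))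
        · exact fun h => (mem_sdiff.1 (j1 hv)).2 (mem_cnb.2 (Or.inr ⟨_, hB' hu, h⟩))
        · exact hB _ hu _ hv
      · rw [card_sdiff_of_subset (ball_mono (by omega))] at j3
        have h4 := card_le_card (ball_mono (G := G) (v0 := v0) (show i + 1 ≤ i + 1 + 1 by omega))
        rw [card_union_of_disjoint hd]
        simp only [Nat.mul_add] at h2 ⊢
        omega
  obtain ⟨A, B, hA, hB, hA', hB', h1, h2⟩ := inv (s - 1) (by omega)
  have h3 := arith _ A B hB hB' (by omega) h2
  have h4 := hC.ind A hA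
  omega

end Vale.Agent.P048
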