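import Vale.Agent.P048.Relink

namespace Vale.Agent.P048
open Finset

variable {V : Type} [DecidableEq V] {G : SimpleGraph V} {Q U : Finset V}

omit [DecidableEq V] in
theorem shortcut {b : V} : ∀ (w : List V) (a : V), w ≠ [] → List.IsChain G.Adj (a :: (w ++ [b])) →
    ∃ w' : List V, w' ≠ [] ∧ w'.length ≤ w.length ∧ w'.Nodup ∧ (∀ x ∈ w', x ∈ w) ∧
      List.IsChain G.Adj (a :: (w' ++ [b]))
  | [], _, h, _ => absurd rfl h
  | [x], _, _, h => ⟨[x], by simp, le_rfl, by simp, by simp, h⟩
  | x :: y :: l, a, _, h => by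
    rw [List.cons_append, List.isChain_cons_cons] at h
    obtain ⟨r, r1, r2, r3, r4, r5⟩ := shortcut (y :: l) x (by simp) h.2
    by_cases hx : x ∈ r
    · obtain ⟨l1, l2, rfl⟩ := List.append_of_mem hx
      refine ⟨x :: l2, by simp, by simp at r2 ⊢; omega, (List.nodup_append.1 r3).2.1, ?_, ?_⟩
      · intro z hz
        exact List.mem_cons_of_mem _ (r4 z (List.mem_append_right _ hz))
      · rw [List.cons_append, List.isChain_cons_cons]
        refine ⟨h.1, ?_⟩
        rw [List.append_assoc, ← List.cons_append] at r5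
        exact r5.right_of_append
    · refine ⟨x :: r, by simp, by simp at r2 ⊢; omega, List.nodup_cons.2 ⟨hx, r3⟩, ?_, ?_⟩
      · intro z hz
        rcases List.mem_cons.1 hz with rfl | hz
        · simp
        · exact List.mem_cons_of_mem _ (r4 z hz)
      · rw [List.cons_append, List.isChain_cons_cons]
        exact ⟨h.1, r5⟩

omit [DecidableEq V] in
theorem no_walk {a b : V} {n : ℕ} (h : ∀ j, 1 ≤ j → j ≤ n → NP G U a b j) (w : List V)
    (h0 : w ≠ []) (h1 : w.length ≤ n) (h2 : ∀ x ∈ w, x ∉ U) :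
    ¬ List.IsChain G.Adj (a :: (w ++ [b])) := by
  intro hc
  obtain ⟨w', a1, a2, a3, a4, a5⟩ := shortcut w a h0 hc
  exact h _ (List.length_pos_iff.2 a1) (by omega) w' rfl a3 (fun x hx => h2 x (a4 x hx)) a5

def Near (G : SimpleGraph V) (U : Finset V) (a : V) (n : ℕ) (u : V) : Prop :=
  u = a ∨ (u ∉ U ∧ 1 ≤ n ∧ G.Adj a u) ∨ (u ∉ U ∧ 2 ≤ n ∧ ∃ x, x ∉ U ∧ G.Adj a x ∧ G.Adj x u)

omit [DecidableEq V] in
theorem cross {a b u v : V} {n n' : ℕ} (ha : a ∈ U) (hb : b ∈ U) (hab : a ≠ b)
    (h : ∀ j, 1 ≤ j → j ≤ n + n' → NP G U a b j) (hu : Near G U a n u) (hv : Near G U b n' v)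
    (hs : u ∉ U ∨ v ∉ U ∨ ¬ G.Adj a b) : u ≠ v ∧ ¬ G.Adj u v := by
  have W := no_walk h
  rcases hu with rfl | ⟨u1, u2, u3⟩ | ⟨u1, u2, x, x1, x2, x3⟩ <;>
    rcases hv with rfl | ⟨v1, v2, v3⟩ | ⟨v1, v2, y, y1, y2, y3⟩
  · exact ⟨hab, by tauto⟩
  · exact ⟨fun e => v1 (e ▸ ha), fun e =>
      W [v] (by simp) (by simp; omega) (by simp [*]) (by simp [e, v3.symm])⟩
  · exact ⟨fun e => v1 (e ▸ ha), fun e =>
      W [v, y] (by simp) (by simp; omega) (by simp [*]) (by simp [e, y2.symm, y3.symm])⟩
  · exact ⟨fun e => u1 (e ▸ hb), fun e =>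
      W [u] (by simp) (by simp; omega) (by simp [*]) (by simp [e, u3])⟩
  · refine ⟨fun e => ?_, fun e =>
      W [u, v] (by simp) (by simp; omega) (by simp [*]) (by simp [e, u3, v3.symm])⟩
    subst e
    exact W [u] (by simp) (by simp; omega) (by simp [*]) (by simp [u3, v3.symm])
  · refine ⟨fun e => ?_, fun e => W [u, v, y] (by simp) (by simp; omega) (by simp [*])
      (by simp [e, u3, y2.symm, y3.symm])⟩
    subst e
    exact W [u, y] (by simp) (by simp; omega) (by simp [*]) (by simp [u3, y2.symm, y3.symm])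
  · exact ⟨fun e => u1 (e ▸ hb), fun e =>
      W [x, u] (by simp) (by simp; omega) (by simp [*]) (by simp [e, x2, x3])⟩
  · refine ⟨fun e => ?_, fun e => W [x, u, v] (by simp) (by simp; omega) (by simp [*])
      (by simp [e, x2, x3, v3.symm])⟩
    subst e
    exact W [x, u] (by simp) (by simp; omega) (by simp [*]) (by simp [x2, x3, v3.symm])
  · refine ⟨fun e => ?_, fun e => W [x, u, v, y] (by simp) (by simp; omega) (by simp [*])
      (by simp [e, x2, x3, y2.symm, y3.symm])⟩
    subst e
    exact W [x, u, y] (by simp) (by simp; omega) (by simp [*])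
      (by simp [x2, x3, y2.symm, y3.symm])

theorem combine {ι : Type} {k : ℕ} (hind : ∀ I : Finset V, Ind G I → I.card ≤ k) (s : Finset ι)
    (J : ι → Finset V) (h1 : ∀ i ∈ s, Ind G (J i))
    (h2 : ∀ i ∈ s, ∀ j ∈ s, i ≠ j → ∀ u ∈ J i, ∀ v ∈ J j, u ≠ v ∧ ¬ G.Adj u v) :
    ∑ i ∈ s, (J i).card ≤ k := by
  rw [← card_biUnion]
  · apply hind
    intro u hu v hv
    obtain ⟨i, hi, hu⟩ := mem_biUnion.1 hu
    obtain ⟨j, hj, hv⟩ := mem_biUnion.1 hv
    by_cases e : i = j
    · subst e
      exact h1 i hi u hu v hv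
    · exact (h2 i hi j hj e u hu v hv).2
  · intro i hi j hj e
    rw [Function.onFun, disjoint_left]
    intro u hu hv
    exact (h2 i hi j hj e u hu u hv).1 rfl

def Reg (G : SimpleGraph V) (U : Finset V) (a : V) (n w : ℕ) (strict : Prop) : Prop :=
  ∃ J : Finset V, Ind G J ∧ w ≤ J.card ∧ ∀ u ∈ J, Near G U a n u ∧ (strict → u ∉ U)

variable [Fintype V] {k t : ℕ}

theorem Ctx.split (hC : Ctx G k t Q) (U : Finset V) (x : V) :
    k ≤ (nb G x ∩ U).card + (nb G x \ U).card := by
  have := card_sdiff_add_card_inter (nb G x) U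
  have := hC.deg x
  omega

theorem Ctx.ynb (hC : Ctx G k t Q) {a : V} (h : (nb G a ∩ U).card < k) :
    ∃ x, x ∉ U ∧ G.Adj a x := by
  have := hC.split U a
  obtain ⟨x, hx⟩ := card_pos.1 (show 0 < (nb G a \ U).card by omega)
  rw [mem_sdiff, mem_nb] at hx
  exact ⟨x, hx.2, hx.1⟩

omit [DecidableEq V] [Fintype V] in
theorem reg0 (a : V) : Reg G U a 0 1 False :=
  ⟨{a}, ind_single, by simp, by simp [Near]⟩

omit [DecidableEq V] [Fintype V] in
theorem reg1 {a x : V} {n : ℕ} (hn : 1 ≤ n) (hx : x ∉ U) (hax : G.Adj a x) : Reg G U a n 1 True :=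
  ⟨{x}, ind_single, by simp, by simp [Near, *]⟩

theorem Ctx.reg2 (hC : Ctx G k t Q) {a x : V} (hx : x ∉ U) (hax : G.Adj a x)
    (h : (nb G x ∩ U).card + t ≤ k) : Reg G U a 2 2 True := by
  have := hC.split U x
  obtain ⟨u, hu, v, hv, huv, hn⟩ := two_nonadj hC.cl (x := x) (S := nb G x \ U)
    (fun u hu => mem_nb.1 (mem_sdiff.1 hu).1) (by omega)
  rw [mem_sdiff, mem_nb] at hu hv
  refine ⟨{u, v}, ind_pair hn, by rw [card_pair huv], ?_⟩
  intro w hw
  simp only [mem_insert, mem_singleton] at hw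
  rcases hw with rfl | rfl
  · exact ⟨Or.inr (Or.inr ⟨hu.2, le_rfl, x, hx, hax, hu.1⟩), fun _ => hu.2⟩
  · exact ⟨Or.inr (Or.inr ⟨hv.2, le_rfl, x, hx, hax, hv.1⟩), fun _ => hv.2⟩

theorem Ctx.reg3 (hC : Ctx G k t Q) {a : V} (h : (nb G a ∩ U).card + t ≤ k) :
    Reg G U a 1 2 True := by
  have := hC.split U a
  obtain ⟨u, hu, v, hv, huv, hn⟩ := two_nonadj hC.cl (x := a) (S := nb G a \ U)
    (fun u hu => mem_nb.1 (mem_sdiff.1 hu).1) (by omega)
  rw [mem_sdiff, mem_nb] at hu hv
  refine ⟨{u, v}, ind_pair hn, by rw [card_pair huv], ?_⟩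
  intro w hw
  simp only [mem_insert, mem_singleton] at hw
  rcases hw with rfl | rfl
  · exact ⟨Or.inr (Or.inl ⟨hu.2, le_rfl, hu.1⟩), fun _ => hu.2⟩
  · exact ⟨Or.inr (Or.inl ⟨hv.2, le_rfl, hv.1⟩), fun _ => hv.2⟩

theorem Ctx.reg4 (hC : Ctx G k t Q) {a x : V} (ha : a ∈ U) (hx : x ∉ U) (hax : G.Adj a x)
    (h : (nb G x ∩ U).card + t ≤ k + 1) : Reg G U a 2 2 False := by
  have := hC.split U x
  obtain ⟨u, hu, v, hv, huv, hn⟩ := two_nonadj hC.cl (x := x) (S := insert a (nb G x \ U))
    (fun u hu => by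
      rcases mem_insert.1 hu with rfl | hu
      · exact hax.symm
      · exact mem_nb.1 (mem_sdiff.1 hu).1)
    (by rw [card_insert_of_notMem (by simp [ha])]; omega)
  have key : ∀ u ∈ insert a (nb G x \ U), Near G U a 2 u := by
    intro u hu
    rcases mem_insert.1 hu with rfl | hu
    · exact Or.inl rfl
    · rw [mem_sdiff, mem_nb] at hu
      exact Or.inr (Or.inr ⟨hu.2, le_rfl, x, hx, hax, hu.1⟩)
  refine ⟨{u, v}, ind_pair hn, by rw [card_pair huv], ?_⟩
  intro w hw
  simp only [mem_insert, mem_singleton] at hw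
  rcases hw with rfl | rfl
  · exact ⟨key _ hu, False.elim⟩
  · exact ⟨key _ hv, False.elim⟩

variable {σ : ℕ → V} {I : ℕ → List V}

omit [DecidableEq V] [Fintype V] in
theorem rep_cases (σ : ℕ → V) (I : ℕ → List V) (r : ℕ) :
    (I r = [] ∧ rep σ I r = σ r) ∨ ∃ l, I r = rep σ I r :: l := by
  unfold rep
  cases I r <;> simp

omit [Fintype V] in
theorem Sys.rep_mem (h : Sys G Q t σ I) {r : ℕ} (hr : r < t) : rep σ I r ∈ uset Q I t := by
  rw [h.mem_uset]
  rcases rep_cases σ I r with ⟨-, e⟩ | ⟨l, e⟩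
  · exact Or.inl (e ▸ h.sq r hr)
  · exact Or.inr ⟨r, by rw [e]; simp⟩

omit [DecidableEq V] [Fintype V] in
theorem Sys.rep_inj (h : Sys G Q t σ I) {r r' : ℕ} (hr : r < t) (hr' : r' < t)
    (e : rep σ I r = rep σ I r') : r = r' := by
  rcases rep_cases σ I r with ⟨-, e1⟩ | ⟨l, e1⟩ <;> rcases rep_cases σ I r' with ⟨-, e2⟩ | ⟨l', e2⟩
  · exact h.inj r hr r' hr' (by rw [← e1, ← e2, e])
  · exact absurd (h.sq r hr) (h.ou r' _ (by rw [e2, ← e1, e]; simp))
  · exact absurd (h.sq r' hr') (h.ou r _ (by rw [e1, ← e2, e]; simp))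
  · exact h.dis r r' (rep σ I r) (by rw [e1]; simp) (by rw [e2, e]; simp)

omit [Fintype V] in
theorem Sys.one_nb (hQ : Clq G Q) (h : Sys G Q t σ I) {q : ℕ}
    (hO : Opt G Q k (∑ r ∈ range t, (I r).length) q) (hL : ∑ r ∈ range t, (I r).length + t ≤ k)
    {x : V} (hx : x ∉ uset Q I t) {a b : ℕ} (ha : a < t) (hb : b < t)
    (h1 : G.Adj (rep σ I a) x) (h2 : G.Adj (rep σ I b) x) : a = b := by
  rcases lt_trichotomy a b with c | c | c
  · exact absurd (by simp [h1, h2.symm]) (h.np_of_forb hQ hO c hb le_rfl (forb_one hL a b) [x] rfl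
      (by simp) (by simpa using hx))
  · exact c
  · exact absurd (by simp [h2, h1.symm]) (h.np_of_forb hQ hO c ha le_rfl (forb_one hL b a) [x] rfl
      (by simp) (by simpa using hx))

def X1 (t : ℕ) (z : ℕ → ℕ) (p p' : ℕ) : Prop :=
  (∀ r, z r ≠ 1) ∧ (∀ r < t, r ≠ p → r ≠ p' → 0 < z r ∨ 0 < z (r + 1)) ∧
    z p = 0 ∧ z (p + 1) = 0 ∧ z p' = 0 ∧ z (p' + 1) = 0

theorem Sys.bound (hC : Ctx G k t Q) (h : Sys G Q t σ I) {q : ℕ}
    (hO : Opt G Q k (∑ r ∈ range t, (I r).length) q) (hL : ∑ r ∈ range t, (I r).length + t ≤ k) :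
    ∃ B ⊆ range t,
      (∀ r < t, (0 < (I r).length ∨ 0 < (I (r + 1)).length) → (I r).length ≠ 1 → r ∈ B) ∧
      ∀ r < t, ∀ x, x ∉ uset Q I t → G.Adj (rep σ I r) x →
        (nb G x ∩ uset Q I t).card + B.card ≤
          ∑ r ∈ range t, (I r).length + if r ∈ B then 2 else 1 := by
  have h' := h.rev
  have hU : uset Q (fun r => (I (t - r)).reverse) t = uset Q I t := by
    ext x
    rw [h.mem_uset, h'.mem_uset]
    refine or_congr_right ⟨fun ⟨r, hr⟩ => ⟨_, List.mem_reverse.1 hr⟩, fun ⟨r, hr⟩ => ⟨t - r, ?_⟩⟩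
    have : r ≤ t := by
      by_contra hlt
      rw [h.it r (by omega)] at hr
      simp at hr
    rwa [show t - (t - r) = r by omega, List.mem_reverse]
  have o1 := fun x hx a b => h.one_nb hC.qcl hO hL (x := x) hx (a := a) (b := b)
  have o2 := fun x hx a b => h'.one_nb hC.qcl (by rw [h.rev_sum]; exact hO)
    (by rw [h.rev_sum]; exact hL) (x := x) hx (a := a) (b := b)
  have m2 := fun r => h'.rep_mem (r := r)
  rw [hU] at o2 m2
  set ρ := rep (fun r => σ (t - 1 - r)) (fun r => (I (t - r)).reverse) with hρ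
  let R := (range t).image (rep σ I)
  let R' := (range t).image ρ
  refine ⟨(range t).filter (fun r => rep σ I r ∉ R'), filter_subset _ _, ?_, ?_⟩
  · intro r hr h1 h2
    refine mem_filter.2 ⟨mem_range.2 hr, fun hm => ?_⟩
    obtain ⟨s, hs, e⟩ := mem_image.1 hm
    rw [mem_range] at hs
    rcases rep_cases σ I r with ⟨e0, e1⟩ | ⟨l, e1⟩ <;>
      rcases rep_cases (fun r => σ (t - 1 - r)) (fun r => (I (t - s)).reverse) s with
        ⟨e2, e3⟩ | ⟨l', e3⟩
    · have e4 : ρ s = σ (t - 1 - s) := e3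
      have := h.inj _ hr (t - 1 - s) (by omega) (by rw [← e1, ← e, e4])
      rw [List.reverse_eq_nil_iff, show t - s = r + 1 by omega] at e2
      simp [e0, e2] at h1
    · have e4 : (I (t - s)).reverse = ρ s :: l' := e3
      exact h.ou (t - s) (ρ s) (by rw [← List.mem_reverse, e4]; simp)
        (by rw [e, e1]; exact h.sq r hr)
    · have e4 : ρ s = σ (t - 1 - s) := e3
      exact h.ou r (ρ s) (by rw [e1, e]; simp) (by rw [e4]; exact h.sq _ (by omega))
    · have e4 : (I (t - s)).reverse = ρ s :: l' := e3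
      have := h.dis r (t - s) (ρ s) (by rw [e1, e]; simp) (by rw [← List.mem_reverse, e4]; simp)
      rw [← this, e] at e4
      have hn := h.nd r
      generalize rep σ I r = a at e1 e4
      rw [e1] at h2 e4 hn
      rcases l with _ | ⟨b, l⟩
      · exact h2 rfl
      · have : a ∈ (b :: l).reverse := by
          rw [List.reverse_cons] at e4
          have hne : (b :: l).reverse ≠ [] := by simp
          obtain ⟨c, l2, e5⟩ := List.exists_cons_of_ne_nil hne
          rw [e5] at e4 ⊢
          simp only [List.cons_append, List.cons.injEq] at e4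
          simp [e4.1]
        exact (List.nodup_cons.1 hn).1 (List.mem_reverse.1 this)
  · intro r hr x hx hadj
    have cR' : R'.card = t := by
      rw [card_image_of_injOn (fun a ha b hb e => h'.rep_inj (by simpa using ha) (by simpa using hb) e)]
      simp
    have cB : (R \ R').card = ((range t).filter (fun r => rep σ I r ∉ R')).card := by
      rw [← card_image_of_injOn (f := rep σ I) (s := (range t).filter (fun r => rep σ I r ∉ R'))
        (fun a ha b hb e => h.rep_inj (mem_range.1 (mem_filter.1 ha).1)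
          (mem_range.1 (mem_filter.1 hb).1) e)]
      congr 1
      ext y
      simp only [R, mem_sdiff, mem_image, mem_filter]
      constructor
      · rintro ⟨⟨a, ha, rfl⟩, h⟩
        exact ⟨a, ⟨ha, h⟩, rfl⟩
      · rintro ⟨a, ⟨ha, h⟩, rfl⟩
        exact ⟨⟨a, ha, rfl⟩, h⟩
    have hsub : R ∪ R' ⊆ uset Q I t := by
      intro y hy
      rcases mem_union.1 hy with hy | hy <;> obtain ⟨a, ha, rfl⟩ := mem_image.1 hy
      · exact h.rep_mem (mem_range.1 ha)
      · exact m2 a (mem_range.1 ha)
    have c1 := card_sdiff_add_card R R'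
    have c2 := card_sdiff_add_card_eq_card hsub
    have c3 := card_uset Q I t
    have c4 : (nb G x ∩ R').card ≤ 1 := by
      rw [card_le_one]
      intro a ha b hb
      rw [mem_inter, mem_nb] at ha hb
      obtain ⟨a, ha', rfl⟩ := mem_image.1 ha.2
      obtain ⟨b, hb', rfl⟩ := mem_image.1 hb.2
      rw [o2 x hx a b (mem_range.1 ha') (mem_range.1 hb') ha.1.symm hb.1.symm]
    have c5 : nb G x ∩ uset Q I t ⊆ (uset Q I t \ (R ∪ R')) ∪ insert (rep σ I r) (nb G x ∩ R') := by
      intro y hy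
      rw [mem_inter, mem_nb] at hy
      simp only [mem_union, mem_sdiff, mem_insert, mem_inter, mem_nb, hy, true_and]
      by_cases hyR : y ∈ R
      · obtain ⟨a, ha, rfl⟩ := mem_image.1 hyR
        rw [o1 x hx a r (mem_range.1 ha) hr hy.1.symm hadj]
        simp
      · tauto
    have c6 := (card_le_card c5).trans (card_union_le _ _)
    rw [hC.qcard] at c3
    split_ifs with c
    · have := card_insert_le (rep σ I r) (nb G x ∩ R')
      omega
    · rw [insert_eq_of_mem (s := nb G x ∩ R') (by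
        simp only [mem_filter, mem_range, hr, true_and, not_not] at c
        exact mem_inter.2 ⟨mem_nb.2 hadj.symm, c⟩)] at c6
      omega

theorem Sys.close (hC : Ctx G k t Q) (h : Sys G Q t σ I) {q : ℕ}
    (hO : Opt G Q k (∑ r ∈ range t, (I r).length) q) (hL : ∑ r ∈ range t, (I r).length + t ≤ k)
    (ht : k + 1 ≤ 2 * t) (ht6 : 6 ≤ t)
    (hN : ∀ p p', p < p' → p' < t → ∀ j, 1 ≤ j → j ≤ 4 →
      NP G (uset Q I t) (rep σ I p) (rep σ I p') j ∨ (j = 2 ∧ X1 t (fun r => (I r).length) p p')) :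
    False := by
  obtain ⟨B, hB, b1, b2⟩ := h.bound hC hO hL
  have hy : ∀ r, ∃ x, r < t → x ∉ uset Q I t ∧ G.Adj (rep σ I r) x := by
    intro r
    by_cases hr : r < t
    · obtain ⟨x, hx⟩ := hC.ynb (U := uset Q I t) (a := rep σ I r) (by
        have c3 := card_uset Q I t
        have c1 : nb G (rep σ I r) ∩ uset Q I t ⊆ (uset Q I t).erase (rep σ I r) := by
          intro y hy
          rw [mem_inter, mem_nb] at hy
          exact mem_erase.2 ⟨hy.1.ne.symm, hy.2⟩
        have c2 := card_le_card c1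
        rw [card_erase_of_mem (h.rep_mem hr)] at c2
        rw [hC.qcard] at c3
        omega)
      exact ⟨x, fun _ => hx⟩
    · exact ⟨σ 0, fun h => absurd h hr⟩
  choose x hx using hy
  by_cases hX : ∃ p p', p < p' ∧ p' < t ∧ X1 t (fun r => (I r).length) p p'
  · obtain ⟨p, p', hpp, hp', hX⟩ := hX
    have hBc : t ≤ B.card + 2 := by
      have : ((range t).erase p).erase p' ⊆ B := by
        intro r hr
        simp only [mem_erase, mem_range] at hr
        exact b1 r hr.2.2 (hX.2.1 r hr.2.2 hr.2.1 hr.1) (hX.1 r)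
      have h1 := card_le_card this
      have a1 := pred_card_le_card_erase (s := range t) (a := p)
      have a2 := pred_card_le_card_erase (s := (range t).erase p) (a := p')
      rw [card_range] at a1
      omega
    have hJ : ∀ r, ∃ J : Finset V, r < t → Ind G J ∧ 2 ≤ J.card ∧
        ∀ u ∈ J, u ∉ uset Q I t ∧ G.Adj (x r) u ∧ u ≠ x p ∧ u ≠ x p' := by
      intro r
      by_cases hr : r < t
      · have c1 := b2 r hr _ (hx r hr).1 (hx r hr).2
        have c2 := hC.split (uset Q I t) (x r)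
        have a1 := pred_card_le_card_erase (s := nb G (x r) \ uset Q I t) (a := x p)
        have a2 := pred_card_le_card_erase (s := (nb G (x r) \ uset Q I t).erase (x p)) (a := x p')
        obtain ⟨u, hu, v, hv, huv, hn⟩ := two_nonadj hC.cl (x := x r)
          (S := ((nb G (x r) \ uset Q I t).erase (x p)).erase (x p'))
          (fun u hu => mem_nb.1 (mem_sdiff.1 (mem_of_mem_erase (mem_of_mem_erase hu))).1)
          (by split_ifs at c1 <;> omega)
        simp only [mem_erase, mem_sdiff, mem_nb] at hu hv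
        refine ⟨{u, v}, fun _ => ⟨ind_pair hn, by rw [card_pair huv], ?_⟩⟩
        intro w hw
        simp only [mem_insert, mem_singleton] at hw
        rcases hw with rfl | rfl <;> tauto
      · exact ⟨∅, fun h => absurd h hr⟩
    choose J hJ using hJ
    have key : ∀ a b, a < b → b < t → ∀ u ∈ J a, ∀ v ∈ J b, u ≠ v ∧ ¬ G.Adj u v := by
      intro a b hab hb u hu v hv
      have ha : a < t := by omega
      obtain ⟨u1, u2, u3, u4⟩ := (hJ a ha).2.2 u hu
      obtain ⟨v1, v2, v3, v4⟩ := (hJ b hb).2.2 v hv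
      have xa := hx a ha
      have xb := hx b hb
      rcases hN a b hab hb 2 (by omega) (by omega) with h2 | ⟨-, h2⟩
      · refine cross (n := 2) (n' := 2) (h.rep_mem ha) (h.rep_mem hb)
          (fun e => by have := h.rep_inj ha hb e; omega) ?_
          (Or.inr (Or.inr ⟨u1, le_rfl, _, xa.1, xa.2, u2⟩))
          (Or.inr (Or.inr ⟨v1, le_rfl, _, xb.1, xb.2, v2⟩)) (Or.inl u1)
        intro j j1 j2
        rcases hN a b hab hb j j1 j2 with h3 | ⟨rfl, -⟩
        · exact h3
        · exact h2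
      · have e1 : a = p ∨ a = p' := by
          by_contra hno
          have := hX.2.1 a ha (by omega) (by omega)
          have a1 := h2.2.2.1
          have a2 := h2.2.2.2.1
          omega
        have e2 : b = p ∨ b = p' := by
          by_contra hno
          have := hX.2.1 b hb (by omega) (by omega)
          have a1 := h2.2.2.2.2.1
          have a2 := h2.2.2.2.2.2
          omega
        have e3 : a = p := by omega
        have e4 : b = p' := by omega
        subst e3 e4
        have n1 : x a ≠ x b := by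
          intro e
          have := h.one_nb hC.qcl hO hL xa.1 ha hb xa.2 (e ▸ xb.2)
          omega
        have N3 := (hN a b hab hb 3 (by omega) (by omega)).resolve_right (by omega)
        have N4 := (hN a b hab hb 4 (by omega) (by omega)).resolve_right (by omega)
        constructor
        · rintro rfl
          exact N3 [x a, u, x b] rfl (by simp [n1, u3.symm, u4]) (by simp [xa.1, xb.1, u1])
            (by simp [xa.2, xb.2.symm, u2, v2.symm])
        · intro e
          exact N4 [x a, u, v, x b] rfl (by simp [n1, u3.symm, u4, v3.symm, v4, e.ne])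
            (by simp [xa.1, xb.1, u1, v1]) (by simp [xa.2, xb.2.symm, u2, v2.symm, e])
    have := combine hC.ind (range t) J (fun i hi => (hJ i (mem_range.1 hi)).1) (by
      intro i hi j hj hij u hu v hv
      rw [mem_range] at hi hj
      rcases lt_or_gt_of_ne hij with c | c
      · exact key i j c hj u hu v hv
      · have := key j i c hi v hv u hu
        exact ⟨this.1.symm, fun e => this.2 e.symm⟩)
    have h2 := card_nsmul_le_sum (range t) (fun i => (J i).card) 2
      (fun i hi => (hJ i (mem_range.1 hi)).2.1)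
    simp only [card_range, smul_eq_mul] at h2
    omega
  · have hN' : ∀ p p', p < t → p' < t → p ≠ p' → ∀ j, 1 ≤ j → j ≤ 4 →
        NP G (uset Q I t) (rep σ I p) (rep σ I p') j := by
      intro p p' hp hp' hne j j1 j2
      rcases lt_or_gt_of_ne hne with c | c
      · exact (hN p p' c hp' j j1 j2).resolve_right (fun h => hX ⟨p, p', c, hp', h.2⟩)
      · exact ((hN p' p c hp j j1 j2).resolve_right (fun h => hX ⟨p', p, c, hp, h.2⟩)).symm
    obtain ⟨a0, ha0, ha0B⟩ : ∃ a0 < t, B.card = 1 → ∀ r ∈ B, r = a0 := by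
      by_cases h1 : B.card = 1
      · obtain ⟨a, rfl⟩ := card_eq_one.1 h1
        exact ⟨a, mem_range.1 (hB (by simp)), by simp⟩
      · exact ⟨0, by omega, fun h => absurd h h1⟩
    obtain ⟨w, hw2, hw, hreg⟩ : ∃ w ≤ 2, k + 1 ≤ t * w + (2 - w) ∧
        ∀ r < t, r ≠ a0 → Reg G (uset Q I t) (rep σ I r) 2 w True := by
      by_cases c : ∑ r ∈ range t, (I r).length + t < k ∨ 0 < B.card
      · refine ⟨2, le_rfl, by omega, fun r hr hne => hC.reg2 (hx r hr).1 (hx r hr).2 ?_⟩
        have c1 := b2 r hr _ (hx r hr).1 (hx r hr).2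
        split_ifs at c1 with c2
        · have := card_pos.2 ⟨r, c2⟩
          have : B.card ≠ 1 := fun e => hne (ha0B e r c2)
          omega
        · omega
      · refine ⟨1, by omega, ?_, fun r hr _ => reg1 (by omega) (hx r hr).1 (hx r hr).2⟩
        have hB0 : B = ∅ := card_eq_zero.1 (by omega)
        have hz : ∀ r, (I r).length = 0 := by
          intro r
          induction r with
          | zero => simp [h.i0]
          | succ r ih =>
            by_contra hne
            have : r < t := by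
              by_contra hlt
              rw [h.it _ (by omega)] at hne
              exact hne rfl
            have := b1 r this (by omega) (by omega)
            simp [hB0] at this
        simp only [hz, sum_const_zero] at c
        omega
    have hJ : ∀ r, ∃ J : Finset V, r < t → Ind G J ∧ w + (if r = a0 then 2 - w else 0) ≤ J.card ∧
        ∀ u ∈ J, Near G (uset Q I t) (rep σ I r) 2 u ∧ (r ≠ a0 → u ∉ uset Q I t) := by
      intro r
      by_cases hr : r < t
      · by_cases e : r = a0
        · have c1 := b2 r hr _ (hx r hr).1 (hx r hr).2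
          obtain ⟨J, j1, j2, j3⟩ := hC.reg4 (h.rep_mem hr) (hx r hr).1 (hx r hr).2 (by
            split_ifs at c1 with c2
            · have := card_pos.2 ⟨r, c2⟩
              omega
            · omega)
          exact ⟨J, fun _ => ⟨j1, by rw [if_pos e]; omega,
            fun u hu => ⟨(j3 u hu).1, fun h => absurd e h⟩⟩⟩
        · obtain ⟨J, j1, j2, j3⟩ := hreg r hr e
          exact ⟨J, fun _ => ⟨j1, by rw [if_neg e]; omega,
            fun u hu => ⟨(j3 u hu).1, fun _ => (j3 u hu).2 trivial⟩⟩⟩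
      · exact ⟨∅, fun h => absurd h hr⟩
    choose J hJ using hJ
    have := combine hC.ind (range t) J (fun i hi => (hJ i (mem_range.1 hi)).1) (by
      intro i hi j hj hij u hu v hv
      rw [mem_range] at hi hj
      have u1 := (hJ i hi).2.2 u hu
      have v1 := (hJ j hj).2.2 v hv
      refine cross (n := 2) (n' := 2) (h.rep_mem hi) (h.rep_mem hj)
        (fun e => hij (h.rep_inj hi hj e)) (hN' i j hi hj hij) u1.1 v1.1 ?_
      by_cases e : i = a0
      · exact Or.inr (Or.inl (v1.2 (by omega)))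
      · exact Or.inl (u1.2 e))
    have h2 := sum_le_sum (s := range t) (fun i hi => (hJ i (mem_range.1 hi)).2.1)
    rw [sum_add_distrib, sum_ite_eq', if_pos (mem_range.2 ha0)] at h2
    simp only [sum_const, card_range, smul_eq_mul] at h2
    omega

end Vale.Agent.P048
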