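import Vale.Agent.P048.Close

namespace Vale.Agent.P048
open Finset

noncomputable section

def forceN (x : ℕ) (k : ℕ → Bool) : Bool := Nat.rec (k 0) (fun n _ => k n.succ) x

theorem forceN_eq (x : ℕ) (k : ℕ → Bool) : forceN x k = k x := by cases x <;> rfl

def bit (m i : ℕ) : Bool := Nat.beq (Nat.land 1 (Nat.shiftRight m i)) 1

theorem bit_eq (m i : ℕ) : bit m i = m.testBit i := by
  have h1 : Nat.land 1 (Nat.shiftRight m i) = 1 &&& (m >>> i) := rfl
  rw [bit, Nat.testBit, h1, Nat.one_and_eq_mod_two]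
  rcases Nat.mod_two_eq_zero_or_one (m >>> i) with h | h <;> rw [h] <;> rfl

def setb (m i : ℕ) : ℕ := Nat.lor m (Nat.pow 2 i)

theorem bit_setb (m i j : ℕ) : bit (setb m i) j = true ↔ bit m j = true ∨ i = j := by
  have h1 : setb m i = m ||| 2 ^ i := rfl
  simp [bit_eq, h1, Nat.testBit_two_pow]

def eb (E a b : ℕ) : Bool := bit E (Nat.add (Nat.mul 32 a) b)

def fb (F a b j : ℕ) : Bool := bit F (Nat.add (Nat.mul (Nat.add (Nat.mul 32 a) b) 8) j)

def setE (E a b : ℕ) : ℕ := setb (setb E (Nat.add (Nat.mul 32 a) b)) (Nat.add (Nat.mul 32 b) a)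

def setF (F a b j : ℕ) : ℕ :=
  setb (setb F (Nat.add (Nat.mul (Nat.add (Nat.mul 32 a) b) 8) j))
    (Nat.add (Nat.mul (Nat.add (Nat.mul 32 b) a) 8) j)

theorem eb_setE {E a b x y : ℕ} (ha : a < 32) (hb : b < 32) (hy : y < 32)
    (h : eb (setE E a b) x y = true) : eb E x y = true ∨ (x = a ∧ y = b) ∨ (x = b ∧ y = a) := by
  simp only [eb, setE, bit_setb, Nat.add_eq, Nat.mul_eq] at h ⊢
  rcases h with (h | h) | h
  · exact Or.inl h
  · right; omega
  · right; omega

theorem fb_setF {F a b j x y i : ℕ} (ha : a < 32) (hb : b < 32) (hy : y < 32) (hj : j < 8)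
    (hi : i < 8) (h : fb (setF F a b j) x y i = true) :
    fb F x y i = true ∨ (i = j ∧ ((x = a ∧ y = b) ∨ (x = b ∧ y = a))) := by
  simp only [fb, setF, bit_setb, Nat.add_eq, Nat.mul_eq] at h ⊢
  rcases h with (h | h) | h
  · exact Or.inl h
  · right; omega
  · right; omega

def addCh : ℕ → ℕ → List ℕ → ℕ
  | E, _, [] => E
  | E, a, b :: l => addCh (setE E a b) b l

def addFs (a b : ℕ) : ℕ → List ℕ → ℕ
  | F, [] => F
  | F, j :: l => addFs a b (setF F a b j) l

def dec : ℕ → ℕ → List ℕ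
  | 0, _ => []
  | f + 1, n => cond (Nat.ble n 1) [] (Nat.mod n 32 :: dec f (Nat.div n 32))

def chainB (E : ℕ) : ℕ → List ℕ → Bool
  | _, [] => true
  | a, b :: l => eb E a b && chainB E b l

def nodupB (n : ℕ) : ℕ → List ℕ → Bool
  | _, [] => true
  | m, a :: l => Nat.blt a n && (!bit m a && nodupB n (setb m a) l)

def cnt (t : ℕ) : List ℕ → ℕ
  | [] => 0
  | a :: l => cond (Nat.blt a t) (cnt t l).succ (cnt t l)

def pairE (E : ℕ) : List ℕ → Bool
  | [] => true
  | a :: l => l.all (eb E a) && pairE E l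

def pathOK (k t L q E x y c len : ℕ) : Bool :=
  (Nat.blt x t && (Nat.blt y t && (Nat.ble len k.succ &&
    (Nat.blt (Nat.add L c) len || (Nat.beq (Nat.add L c) len && Nat.blt c q))))) ||
  (Nat.beq len k.succ && eb E x y)

def pathChk (k t L q n E jlo jhi : ℕ) : List ℕ → List ℕ → Bool
  | a :: A, b :: B => nodupB n 0 (a :: (A ++ b :: B)) && (chainB E a A && (chainB E b B &&
      (Nat.blt jhi 8 && (List.range' jlo (jhi.succ - jlo)).all (fun j =>
        pathOK k t L q E (A.getLastD a) (B.getLastD b) (cnt t (a :: (A ++ b :: B)))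
          (Nat.add (a :: (A ++ b :: B)).length j)))))
  | _, _ => false

def factChk (k t L q n E : ℕ) : List ℕ → Bool
  | 0 :: jlo :: jhi :: la :: r => pathChk k t L q n E jlo jhi (r.take la) (r.drop la)
  | _ :: a :: b :: C => nodupB n 0 (a :: b :: C) && (Nat.beq C.length.succ t &&
      (pairE E (a :: C) && C.all (eb E b)))
  | _ => false

def factF (F : ℕ) : List ℕ → ℕ
  | 0 :: jlo :: jhi :: la :: r =>
      addFs ((r.take la).headD 0) ((r.drop la).headD 0) F (List.range' jlo (jhi.succ - jlo))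
  | _ :: a :: b :: _ => setF F a b 0
  | _ => F

def facts (k t L q n E : ℕ) (c : ℕ → Bool) : List ℕ → ℕ → Bool
  | [], F => c F
  | x :: l, F => factChk k t L q n E (dec 40 x) && forceN (factF F (dec 40 x)) (facts k t L q n E c l)

def pos (n F v : ℕ) : ℕ := (List.range n).countP (fun b => !(Nat.beq b v || fb F v b 0))

def cover (n F v g : ℕ) (col : List ℕ) : Bool :=
  (List.range n).all (fun b => Nat.beq b v || cond (Nat.blt (col.getD b 31) g)
    ((List.range b).all (fun a => !Nat.beq (col.getD a 31) (col.getD b 31) || fb F a b 1))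
    (fb F v b 1))

def reach (ty : ℕ) : ℕ := [0, 1, 2, 1, 2].getD ty 0

def wt (ty : ℕ) : ℕ := [1, 1, 2, 2, 2].getD ty 0

def strict (ty : ℕ) : Bool := [false, true, true, true, false].getD ty false

def itemOK (k t n F : ℕ) : List ℕ → Bool
  | v :: ty :: col => Nat.blt v n && (Nat.beq ty 0 || (Nat.beq ty 1 && Nat.blt (pos n F v) k) ||
      (Nat.beq ty 2 && (Nat.blt (pos n F v) k && (Nat.blt t k && cover n F v (k - t - 1) col))) ||
      (Nat.beq ty 3 && Nat.ble (Nat.add (pos n F v) t) k) ||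
      (Nat.beq ty 4 && (Nat.blt (pos n F v) k && (Nat.ble t k && cover n F v (k - t) col))))
  | _ => false

def iv (x : List ℕ) : ℕ := x.headD 0

def ity (x : List ℕ) : ℕ := x.tail.headD 0

def pairOK (F : ℕ) (x y : List ℕ) : Bool :=
  !Nat.beq (iv x) (iv y) &&
    ((List.range' 1 (Nat.add (reach (ity x)) (reach (ity y)))).all (fb F (iv x) (iv y)) &&
      (strict (ity x) || strict (ity y) || fb F (iv x) (iv y) 0))

def closeChk (k t n F : ℕ) : ℕ → List (List ℕ) → Bool
  | w, [] => Nat.blt k w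
  | w, x :: l => itemOK k t n F x && (l.all (pairOK F x) && closeChk k t n F (Nat.add w (wt (ity x))) l)

inductive Cert where
  | facts : List ℕ → Cert → Cert
  | split : ℕ → ℕ → ℕ → Cert → Cert → Cert
  | close : List ℕ → Cert

def check (k t L q : ℕ) : Cert → ℕ → ℕ → ℕ → Bool
  | .facts l c, n, E, F => facts k t L q n E (check k t L q c n E) l F
  | .split a b j y c, n, E, F => Nat.blt a n && (Nat.blt b n && (Nat.blt j 8 &&
      (Nat.ble (Nat.add n j) 32 &&
      (forceN (addCh E a (List.range' n j ++ [b])) (fun E' => forceN (Nat.add n j)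
        (fun n' => check k t L q y n' E' F)) &&
      forceN (setF F a b j) (check k t L q c n E)))))
  | .close l, n, _, F => closeChk k t n F 0 (l.map (dec 40))

def initE : ℕ → ℕ
  | 0 => 0
  | a + 1 => (List.range a).foldl (fun E b => setE E a b) (initE a)

def ears (t : ℕ) (z : ℕ → ℕ) : ℕ → ℕ × ℕ
  | 0 => (t, initE t)
  | r + 1 => cond (Nat.ble (Nat.add (ears t z r).1 (z (r + 1))) 32)
      (Nat.add (ears t z r).1 (z (r + 1)),
        addCh (ears t z r).2 r (List.range' (ears t z r).1 (z (r + 1)) ++ [r + 1]))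
      (ears t z r)

def zf (l : List ℕ) (r : ℕ) : ℕ := (0 :: l).getD r 0

def top (k t : ℕ) (l : List ℕ) (c : Cert) : Bool :=
  forceN (∑ r ∈ range t, zf l r) fun L => forceN (ess t (zf l)) fun q =>
    forceN (ears t (zf l) (t - 1)).1 fun n => forceN (ears t (zf l) (t - 1)).2 fun E =>
      check k t L q c n E 0

def comps : ℕ → ℕ → List (List ℕ)
  | 0, _ => [[]]
  | n + 1, L => (List.range (L + 1)).flatMap (fun a => (comps n (L - a)).map (a :: ·))

def keys : List (ℕ × ℕ × List ℕ) :=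
  (List.range' 2 6).flatMap fun t => (List.range' (max 3 t) (2 * t - max 3 t)).flatMap fun k =>
    ((comps (t - 1) (k - t)).filter
      (fun z => (List.range t).all (fun r => r < ess t (zf z) || zf z r = 0))).map fun z => (k, t, z)

def tabOK (l : List ((ℕ × ℕ × List ℕ) × Cert)) : Bool :=
  l.all (fun p => top p.1.1 p.1.2.1 p.1.2.2 p.2)

end

end Vale.Agent.P048
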