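import Vale.Agent.P048.Basic

namespace Vale.Agent.P048
open Finset

variable {V : Type}

def IsP (G : SimpleGraph V) (H : Finset V) (f : ℕ → V) (n : ℕ) : Prop :=
  (∀ i ≤ n, f i ∈ H) ∧ (∀ i ≤ n, ∀ j ≤ n, f i = f j → i = j) ∧ ∀ i < n, G.Adj (f i) (f (i + 1))

theorem IsP.le_card {G : SimpleGraph V} {H : Finset V} {f : ℕ → V} {n : ℕ} (h : IsP G H f n) :
    n + 1 ≤ H.card := by
  have := card_le_card_of_injOn (s := range (n + 1)) (t := H) f
    (fun i hi => h.1 i (by simpa [Nat.lt_succ_iff] using hi))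
    (fun i hi j hj e => h.2.1 i (by simpa [Nat.lt_succ_iff] using hi) j
      (by simpa [Nat.lt_succ_iff] using hj) e)
  simpa using this

theorem IsP.rot {G : SimpleGraph V} {H : Finset V} {f : ℕ → V} {n b : ℕ} (h : IsP G H f n)
    (hb : b < n) (hadj : G.Adj (f n) (f b)) :
    IsP G H (fun i => if i ≤ b then f i else f (n + b + 1 - i)) n := by
  refine ⟨?_, ?_, ?_⟩
  · intro i hi
    beta_reduce
    split_ifs
    · exact h.1 _ hi
    · exact h.1 _ (by omega)
  · intro i hi j hj e
    beta_reduce at e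
    split_ifs at e
    · exact h.2.1 _ hi _ hj e
    · have := h.2.1 _ hi _ (by omega) e; omega
    · have := h.2.1 _ (by omega) _ hj e; omega
    · have := h.2.1 _ (by omega) _ (by omega) e; omega
  · intro i hi
    beta_reduce
    split_ifs with h1 h2 h2
    · exact h.2.2 i hi
    · have e1 : i = b := by omega
      have e2 : n + b + 1 - (i + 1) = n := by omega
      rw [e2, e1]; exact hadj.symm
    · omega
    · have := (h.2.2 (n + b + 1 - (i + 1)) (by omega)).symm
      rwa [show n + b + 1 - (i + 1) + 1 = n + b + 1 - i by omega] at this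

theorem posa [Fintype V] [DecidableEq V] {G : SimpleGraph V} {H : Finset V} {s : ℕ} (hs : 1 ≤ s)
    (hne : H.Nonempty) (hdeg : ∀ y ∈ H, s ≤ (nb G y ∩ H).card)
    (hcl : ∀ S ⊆ H, Clq G S → S.card ≤ s) :
    ∃ (f : ℕ → V) (n : ℕ), 1 ≤ n ∧ IsP G H f n ∧ G.Adj (f n) (f 0) ∧
      (∀ w ∈ H, G.Adj (f n) w → ∃ i < n, w = f i) ∧
      ∃ i ≤ n, ∃ j ≤ n, f i ≠ f j ∧ ¬ G.Adj (f i) (f j) ∧
        (∀ w ∈ H, G.Adj (f i) w → ∃ x ≤ n, w = f x) ∧
        (∀ w ∈ H, G.Adj (f j) w → ∃ x ≤ n, w = f x) := by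
  classical
  obtain ⟨y0, hy0⟩ := hne
  obtain ⟨n, hn, hmax⟩ := exists_max_image ((range H.card).filter (fun n => ∃ f, IsP G H f n)) id
    ⟨0, mem_filter.2 ⟨mem_range.2 (card_pos.2 ⟨y0, hy0⟩), fun _ => y0, fun _ _ => hy0,
      by intro i hi j hj _; omega, by intro i hi; omega⟩⟩
  have hmax' : ∀ f, ¬ IsP G H f (n + 1) := by
    intro f hf
    have := hmax (n + 1) (mem_filter.2 ⟨mem_range.2 hf.le_card, f, hf⟩)
    simp at this
  have hend : ∀ f, IsP G H f n → ∀ w ∈ H, G.Adj (f n) w → ∃ i < n, w = f i := by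
    intro f hf w hw hadj
    by_contra hno
    push Not at hno
    have hno' : ∀ i ≤ n, w ≠ f i := by
      intro i hi
      rcases hi.lt_or_eq with h | rfl
      · exact hno i h
      · exact hadj.ne.symm
    refine hmax' (fun i => if i ≤ n then f i else w) ⟨?_, ?_, ?_⟩
    · intro i hi
      beta_reduce
      split_ifs with h
      · exact hf.1 i h
      · exact hw
    · intro i hi j hj e
      beta_reduce at e
      split_ifs at e with h1 h2 h2
      · exact hf.2.1 _ h1 _ h2 e
      · exact absurd e.symm (hno' _ h1)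
      · exact absurd e (hno' _ h2)
      · omega
    · intro i hi
      beta_reduce
      split_ifs with h1 h2 h2
      · exact hf.2.2 i (by omega)
      · rwa [show i = n by omega]
      · omega
      · omega
  have hex : ∃ a, ∃ f, IsP G H f n ∧ a < n ∧ G.Adj (f n) (f a) := by
    obtain ⟨f, hf⟩ := (mem_filter.1 hn).2
    have := hdeg (f n) (hf.1 n le_rfl)
    obtain ⟨w, hw⟩ := card_pos.1 (lt_of_lt_of_le hs this)
    rw [mem_inter, mem_nb] at hw
    obtain ⟨i, hi, rfl⟩ := hend f hf w hw.2 hw.1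
    exact ⟨i, f, hf, hi, hw.1⟩
  obtain ⟨f, hf, han, hadj⟩ := Nat.find_spec hex
  set a := Nat.find hex with ha
  have hend' : ∀ f, IsP G H f n → ∀ w ∈ H, G.Adj (f n) w → ∃ i, a ≤ i ∧ i < n ∧ w = f i := by
    intro f hf w hw hadj
    obtain ⟨i, hi, rfl⟩ := hend f hf w hw hadj
    exact ⟨i, Nat.find_min' hex ⟨f, hf, hi, hadj⟩, hi, rfl⟩
  have hrot : ∀ b, a ≤ b → b < n → G.Adj (f n) (f b) → ∀ w ∈ H, G.Adj (f (b + 1)) w →
      ∃ x, a ≤ x ∧ x ≤ n ∧ w = f x := by
    intro b hab hb hadj w hw hw'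
    obtain ⟨i, h1, h2, h3⟩ := hend' _ (hf.rot hb hadj) w hw (by
      rw [if_neg (by omega), show n + b + 1 - n = b + 1 by omega]; exact hw')
    split_ifs at h3
    · exact ⟨i, h1, h2.le, h3⟩
    · exact ⟨_, by omega, by omega, h3⟩
  have hpair : ∃ b, a ≤ b ∧ b < n ∧ G.Adj (f n) (f b) ∧ ∃ b', a ≤ b' ∧ b' < n ∧
      G.Adj (f n) (f b') ∧ f (b + 1) ≠ f (b' + 1) ∧ ¬ G.Adj (f (b + 1)) (f (b' + 1)) := by
    by_contra hno
    push Not at hno
    have hlast : G.Adj (f n) (f (n - 1)) := by
      have := (hf.2.2 (n - 1) (by omega)).symm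
      rwa [Nat.sub_add_cancel (by omega)] at this
    have hall : ∀ d, a + d < n → G.Adj (f n) (f (a + d)) := by
      intro d
      induction d with
      | zero => intro _; exact hadj
      | succ d ih =>
        intro hd
        have := hno (n - 1) (by omega) (by omega) hlast (a + d) (by omega) (by omega) (ih (by omega))
        rw [Nat.sub_add_cancel (by omega)] at this
        exact this (fun e => by have := hf.2.1 _ le_rfl _ (by omega) e; omega)
    have hall' : ∀ b, a ≤ b → b < n → G.Adj (f n) (f b) := by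
      intro b h1 h2
      have := hall (b - a) (by omega)
      rwa [show a + (b - a) = b by omega] at this
    have hW : ∀ i j, a < i → i ≤ n → a < j → j ≤ n → f i ≠ f j → G.Adj (f i) (f j) := by
      intro i j h1 h2 h3 h4 e
      have := hno (i - 1) (by omega) (by omega) (hall' _ (by omega) (by omega)) (j - 1) (by omega)
        (by omega) (hall' _ (by omega) (by omega))
      rw [Nat.sub_add_cancel (by omega), Nat.sub_add_cancel (by omega)] at this
      exact this e
    have hinj : ∀ S : Finset ℕ, (∀ i ∈ S, i ≤ n) → (S.image f).card = S.card := by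
      intro S hS
      exact card_image_of_injOn (fun i hi j hj e => hf.2.1 i (hS i hi) j (hS j hj) e)
    have h1 : n - a ≤ s := by
      have := hcl ((Ioc a n).image f) (by
        intro x hx
        obtain ⟨i, hi, rfl⟩ := mem_image.1 hx
        exact hf.1 i (mem_Ioc.1 hi).2) (by
        intro x hx y hy hxy
        obtain ⟨i, hi, rfl⟩ := mem_image.1 hx
        obtain ⟨j, hj, rfl⟩ := mem_image.1 hy
        rw [mem_Ioc] at hi hj
        exact hW i j hi.1 hi.2 hj.1 hj.2 hxy)
      rw [hinj _ (fun i hi => (mem_Ioc.1 hi).2)] at this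
      simpa using this
    have h2 : ∀ i, a < i → i ≤ n → G.Adj (f i) (f a) ∧ s ≤ n - a := by
      intro i hi1 hi2
      have hsub : nb G (f i) ∩ H ⊆ ((Icc a n).erase i).image f := by
        intro w hw
        rw [mem_inter, mem_nb] at hw
        obtain ⟨x, x1, x2, rfl⟩ := hrot (i - 1) (by omega) (by omega)
          (hall' _ (by omega) (by omega)) w hw.2 (by rw [Nat.sub_add_cancel (by omega)]; exact hw.1)
        refine mem_image_of_mem _ (mem_erase.2 ⟨?_, mem_Icc.2 ⟨x1, x2⟩⟩)
        rintro rfl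
        exact G.irrefl hw.1
      have hc : (((Icc a n).erase i).image f).card = n - a := by
        rw [hinj _ (fun i hi => (mem_Icc.1 (mem_of_mem_erase hi)).2),
          card_erase_of_mem (mem_Icc.2 ⟨hi1.le, hi2⟩)]
        simp; omega
      have hd := hdeg (f i) (hf.1 i hi2)
      have hle := card_le_card hsub
      have heq := eq_of_subset_of_card_le hsub (by omega)
      have : f a ∈ nb G (f i) ∩ H := by
        rw [heq]
        exact mem_image_of_mem _ (mem_erase.2 ⟨by omega, mem_Icc.2 ⟨le_rfl, han.le⟩⟩)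
      exact ⟨mem_nb.1 (mem_inter.1 this).1, by omega⟩
    have := hcl ((Icc a n).image f) (by
      intro x hx
      obtain ⟨i, hi, rfl⟩ := mem_image.1 hx
      exact hf.1 i (mem_Icc.1 hi).2) (by
      intro x hx y hy hxy
      obtain ⟨i, hi, rfl⟩ := mem_image.1 hx
      obtain ⟨j, hj, rfl⟩ := mem_image.1 hy
      rw [mem_Icc] at hi hj
      rcases hi.1.lt_or_eq with hi' | rfl <;> rcases hj.1.lt_or_eq with hj' | rfl
      · exact hW i j hi' hi.2 hj' hj.2 hxy
      · exact (h2 i hi' hi.2).1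
      · exact (h2 j hj' hj.2).1.symm
      · exact absurd rfl hxy)
    rw [hinj _ (fun i hi => (mem_Icc.1 hi).2)] at this
    have h3 := (h2 n han le_rfl).2
    simp at this
    omega
  obtain ⟨b, b1, b2, b3, b', b4, b5, b6, b7, b8⟩ := hpair
  have en : a + (n - a) = n := by omega
  refine ⟨fun i => f (a + i), n - a, by omega, ⟨fun i hi => hf.1 _ (by omega), ?_,
    fun i hi => hf.2.2 (a + i) (by omega)⟩, ?_, ?_, b + 1 - a, by omega, b' + 1 - a, by omega, ?_⟩
  · intro i hi j hj e
    have := hf.2.1 _ (by omega) _ (by omega) e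
    omega
  · beta_reduce
    rw [en]; exact hadj
  · intro w hw h
    beta_reduce at h ⊢
    rw [en] at h
    obtain ⟨i, h1, h2, h3⟩ := hend' f hf w hw h
    exact ⟨i - a, by omega, by rw [h3]; congr 1; omega⟩
  · beta_reduce
    rw [show a + (b + 1 - a) = b + 1 by omega, show a + (b' + 1 - a) = b' + 1 by omega]
    refine ⟨b7, b8, ?_, ?_⟩
    · intro w hw h
      obtain ⟨i, h1, h2, h3⟩ := hrot b b1 b2 b3 w hw h
      exact ⟨i - a, by omega, by rw [h3]; congr 1; omega⟩
    · intro w hw h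
      obtain ⟨i, h1, h2, h3⟩ := hrot b' b4 b5 b6 w hw h
      exact ⟨i - a, by omega, by rw [h3]; congr 1; omega⟩

end Vale.Agent.P048
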