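import Vale.Agent.P048.AB
import Vale.Agent.P048.Posa

namespace Vale.Agent.P048
open Finset

variable {V : Type} [Fintype V]

noncomputable def ball (G : SimpleGraph V) (v0 : V) : ℕ → Finset V
  | 0 => {v0}
  | i + 1 => cnb G (ball G v0 i)

def Lay (G : SimpleGraph V) (v0 : V) (i : ℕ) (v : V) : Prop :=
  v ∈ ball G v0 i ∧ ∀ j < i, v ∉ ball G v0 j

variable {G : SimpleGraph V} {v0 : V}

theorem ball_mono {i j : ℕ} (h : i ≤ j) : ball G v0 i ⊆ ball G v0 j := by
  induction h with
  | refl => exact Subset.rfl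
  | step _ ih => exact fun v hv => mem_cnb.2 (Or.inl (ih hv))

theorem Lay.unique {i j : ℕ} {v : V} (h1 : Lay G v0 i v) (h2 : Lay G v0 j v) : i = j := by
  rcases lt_trichotomy i j with h | h | h
  · exact absurd h1.1 (h2.2 i h)
  · exact h
  · exact absurd h2.1 (h1.2 j h)

theorem Lay.zero {v : V} (h : Lay G v0 0 v) : v = v0 := by
  simpa [ball] using h.1

theorem exists_par (G : SimpleGraph V) (v0 : V) :
    ∃ par : V → V, ∀ i v, Lay G v0 (i + 1) v → G.Adj (par v) v ∧ Lay G v0 i (par v) := by
  have : ∀ v, ∃ u, ∀ i, Lay G v0 (i + 1) v → G.Adj u v ∧ Lay G v0 i u := by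
    intro v
    by_cases h : ∃ i, Lay G v0 (i + 1) v
    · obtain ⟨i, hi⟩ := h
      rcases mem_cnb.1 hi.1 with h | ⟨u, hu, huv⟩
      · exact absurd h (hi.2 i (by omega))
      · refine ⟨u, fun j hj => ?_⟩
        have : j = i := by have := hi.unique hj; omega
        subst this
        exact ⟨huv, hu, fun a ha h => hi.2 (a + 1) (by omega) (mem_cnb.2 (Or.inr ⟨u, h, huv⟩))⟩
    · exact ⟨v, fun i hi => absurd ⟨i, hi⟩ h⟩
  choose par hpar using this
  exact ⟨par, fun i v => hpar v i⟩

section
variable {par : V → V}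
  (hpar : ∀ i v, Lay G v0 (i + 1) v → G.Adj (par v) v ∧ Lay G v0 i (par v))
include hpar

theorem par_iter {i : ℕ} {v : V} (hv : Lay G v0 i v) : ∀ a ≤ i, Lay G v0 (i - a) (par^[a] v) := by
  intro a
  induction a with
  | zero => intro _; simpa using hv
  | succ a ih =>
    intro ha
    have := ih (by omega)
    rw [show i - a = i - (a + 1) + 1 by omega] at this
    rw [Function.iterate_succ_apply']
    exact (hpar _ _ this).2

theorem par_adj {i : ℕ} {v : V} (hv : Lay G v0 i v) (a : ℕ) (ha : a < i) :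
    G.Adj (par^[a + 1] v) (par^[a] v) := by
  have := par_iter hpar hv a ha.le
  rw [show i - a = i - (a + 1) + 1 by omega] at this
  rw [Function.iterate_succ_apply']
  exact (hpar _ _ this).1

theorem cycle_of_layer {i l h : ℕ} {g : ℕ → V} (hg : ∀ n ≤ l, Lay G v0 i (g n))
    (hinj : ∀ a ≤ l, ∀ b ≤ l, g a = g b → a = b) (hadj : ∀ a < l, G.Adj (g a) (g (a + 1)))
    (h1 : 1 ≤ h) (hi : h ≤ i) (he : par^[h] (g 0) = par^[h] (g l))
    (hne : par^[h - 1] (g 0) ≠ par^[h - 1] (g l)) : HasCycle G (l + 2 * h) := by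
  have L0 := par_iter hpar (hg 0 (by omega))
  have Ll := par_iter hpar (hg l le_rfl)
  have A0 := par_adj hpar (hg 0 (by omega))
  have Al := par_adj hpar (hg l le_rfl)
  have key : ∀ a b, a ≤ h → b < h → par^[a] (g l) ≠ par^[b] (g 0) := by
    intro a b ha hb e
    have := (Ll a (by omega)).unique (e ▸ L0 b (by omega))
    have : a = b := by omega
    subst this
    apply hne
    rw [show h - 1 = (h - 1 - a) + a by omega, Function.iterate_add_apply,
      Function.iterate_add_apply, e]
  refine ⟨fun n => if n ≤ l then g n else if n ≤ l + h then par^[n - l] (g l)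
    else par^[l + 2 * h - n] (g 0), ?_, ?_, ?_⟩
  · intro a ha b hb e
    beta_reduce at e
    split_ifs at e with c1 c2 c3 c4 c5 c6 c7 c8
    · exact hinj _ c1 _ c2 e
    · have := (hg a c1).unique (e ▸ Ll (b - l) (by omega)); omega
    · have := (hg a c1).unique (e ▸ L0 (l + 2 * h - b) (by omega)); omega
    · have := (hg b c5).unique (e ▸ Ll (a - l) (by omega)); omega
    · have := (Ll (b - l) (by omega)).unique (e ▸ Ll (a - l) (by omega)); omega
    · exact absurd e (key _ _ (by omega) (by omega))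
    · have := (hg b c7).unique (e ▸ L0 (l + 2 * h - a) (by omega)); omega
    · exact absurd e.symm (key _ _ (by omega) (by omega))
    · have := (L0 (l + 2 * h - b) (by omega)).unique (e ▸ L0 (l + 2 * h - a) (by omega)); omega
  · intro a ha
    beta_reduce
    split_ifs with c1 c2 c3 c4 c5 c6 c7 c8
    · exact hadj a (by omega)
    · have e1 : a = l := by omega
      subst e1
      have := (Al 0 (by omega)).symm
      simpa using this
    · omega
    · omega
    · have := (Al (a - l) (by omega)).symm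
      rwa [show a - l + 1 = a + 1 - l by omega] at this
    · have := A0 (h - 1) (by omega)
      rw [Nat.sub_add_cancel h1, he] at this
      rwa [show a - l = h by omega, show l + 2 * h - (a + 1) = h - 1 by omega]
    · omega
    · omega
    · have := A0 (l + 2 * h - (a + 1)) (by omega)
      rwa [show l + 2 * h - (a + 1) + 1 = l + 2 * h - a by omega] at this
  · beta_reduce
    rw [if_pos (Nat.zero_le l), if_neg (by omega)]
    have := A0 0 (by omega)
    split_ifs with c1
    · have e1 : h = 1 := by omega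
      subst e1
      rw [show l + 2 * 1 - 1 - l = 1 by omega, ← he]
      simpa using this
    · rw [show l + 2 * h - (l + 2 * h - 1) = 1 by omega]
      simpa using this

end

theorem cnb_single [DecidableEq V] {H : Finset V} (y : V) :
    (cnb G {y} ∩ H).card ≤ (nb G y ∩ H).card + 1 := by
  refine le_trans (card_le_card ?_) (card_insert_le y (nb G y ∩ H))
  intro w hw
  simp only [mem_inter, mem_cnb, mem_singleton, exists_eq_left, mem_insert, mem_nb] at hw ⊢
  tauto

theorem cnb_pair [DecidableEq V] {H : Finset V} {f : ℕ → V} {n i j : ℕ} (hi : i ≤ n) (hj : j ≤ n)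
    (h1 : ∀ w ∈ H, G.Adj (f i) w → ∃ x ≤ n, w = f x)
    (h2 : ∀ w ∈ H, G.Adj (f j) w → ∃ x ≤ n, w = f x) :
    (cnb G {f i, f j} ∩ H).card ≤ n + 1 := by
  have : cnb G {f i, f j} ∩ H ⊆ (range (n + 1)).image f := by
    intro w hw
    simp only [mem_inter, mem_cnb, mem_insert, mem_singleton, exists_eq_or_imp,
      exists_eq_left] at hw
    simp only [mem_image, mem_range, Nat.lt_succ_iff]
    rcases hw with ⟨(rfl | rfl) | h | h, hH⟩
    · exact ⟨i, hi, rfl⟩
    · exact ⟨j, hj, rfl⟩
    · obtain ⟨x, hx, rfl⟩ := h1 w hH h; exact ⟨x, hx, rfl⟩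
    · obtain ⟨x, hx, rfl⟩ := h2 w hH h; exact ⟨x, hx, rfl⟩
  refine (card_le_card this).trans (card_image_le.trans (by simp))

theorem first_layer [DecidableEq V] {k s : ℕ} (hk : 4 ≤ k) (hs : s = k / 2)
    (hcl : ∀ S : Finset V, Clq G S → S.card ≤ s) (hc : ¬ HasCycle G (k + 1)) {H : Finset V}
    (hH : ∀ v ∈ H, Lay G v0 1 v) (hne : H.Nonempty) :
    ∃ J ⊆ H, J.Nonempty ∧ Ind G J ∧ (cnb G J ∩ H).card + (2 * s + 1 - k) ≤ s * J.card := by
  obtain ⟨par, hpar⟩ := exists_par G v0
  by_cases hd : ∃ y ∈ H, (nb G y ∩ H).card < s - 1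
  · obtain ⟨y, hy, hd⟩ := hd
    refine ⟨{y}, by simpa using hy, by simp, ind_single, ?_⟩
    have := cnb_single (G := G) (H := H) y
    simp only [card_singleton]
    omega
  push Not at hd
  have hp : ∀ v ∈ H, par v = v0 ∧ G.Adj v0 v := by
    intro v hv
    have := hpar 0 v (hH v hv)
    have e := this.2.zero
    exact ⟨e, e ▸ this.1⟩
  obtain ⟨f, n, hn, hf, -, -, i, hi, j, hj, hij, hna, h1, h2⟩ := posa (s := s - 1) (by omega) hne hd
    (by
      intro S hS hcS
      have hv : v0 ∉ S := fun h => G.irrefl (hp _ (hS h)).2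
      have := hcl (insert v0 S) (by
        intro u hu v hv huv
        rcases mem_insert.1 hu with rfl | hu' <;> rcases mem_insert.1 hv with rfl | hv'
        · exact absurd rfl huv
        · exact (hp _ (hS hv')).2
        · exact (hp _ (hS hu')).2.symm
        · exact hcS _ hu' _ hv' huv)
      rw [card_insert_of_notMem hv] at this
      omega)
  refine ⟨{f i, f j}, ?_, by simp, ind_pair hna, ?_⟩
  · intro x hx
    simp only [mem_insert, mem_singleton] at hx
    rcases hx with rfl | rfl
    · exact hf.1 _ hi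
    · exact hf.1 _ hj
  have h3 := cnb_pair hi hj h1 h2
  rw [card_pair hij]
  have : n + 1 < k := by
    by_contra hlt
    apply hc
    have := cycle_of_layer hpar (i := 1) (l := k - 1) (h := 1) (g := f)
      (fun a ha => hH _ (hf.1 a (by omega))) (fun a ha b hb => hf.2.1 a (by omega) b (by omega))
      (fun a ha => hf.2.2 a (by omega)) le_rfl le_rfl
      (by simp [(hp _ (hf.1 0 (by omega))).1, (hp _ (hf.1 (k - 1) (by omega))).1])
      (by
        intro e
        have := hf.2.1 0 (by omega) (k - 1) (by omega) e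
        omega)
    rwa [show k - 1 + 2 * 1 = k + 1 by omega] at this
  omega

theorem cyc_of_path {H : Finset V} {K : Set V} {f : ℕ → V} {n : ℕ} (hf : IsP G H f n)
    (hadj : G.Adj (f n) (f 0)) (hK : ∀ i ≤ n, f i ∈ K) :
    Cyc G K (n + 1) (fun i => f ((i - 1) % (n + 1)).toNat) where
  per i := by
    rw [show i + ((n : ℤ) + 1) - 1 = (i - 1) + (n + 1) by ring, Int.add_emod_right]
  adj i := by
    have h1 := Int.emod_nonneg (i - 1) (b := (n : ℤ) + 1) (by omega)
    have h2 := Int.emod_lt_of_pos (i - 1) (b := (n : ℤ) + 1) (by omega)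
    have h3 : (i + 1 - 1) % ((n : ℤ) + 1) = ((i - 1) % (n + 1) + 1) % (n + 1) := by
      rw [Int.emod_add_emod]; congr 1; ring
    rw [h3]
    generalize (i - 1) % ((n : ℤ) + 1) = x at h1 h2
    by_cases hx : x = n
    · subst hx
      simpa using hadj
    · rw [Int.emod_eq_of_lt (by omega) (by omega)]
      have := hf.2.2 x.toNat (by omega)
      rwa [show (x + 1).toNat = x.toNat + 1 by omega]
  inj i j h1 h2 e := by
    have a1 := Int.emod_nonneg (i - 1) (b := (n : ℤ) + 1) (by omega)
    have a2 := Int.emod_lt_of_pos (i - 1) (b := (n : ℤ) + 1) (by omega)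
    have a3 := Int.emod_nonneg (j - 1) (b := (n : ℤ) + 1) (by omega)
    have a4 := Int.emod_lt_of_pos (j - 1) (b := (n : ℤ) + 1) (by omega)
    have := hf.2.1 _ (by omega) _ (by omega) e
    have e2 : (i - 1) % ((n : ℤ) + 1) = (j - 1) % (n + 1) := by omega
    have := Int.le_of_dvd (by omega) (Int.ModEq.dvd e2)
    omega
  mem i := by
    have a1 := Int.emod_nonneg (i - 1) (b := (n : ℤ) + 1) (by omega)
    have a2 := Int.emod_lt_of_pos (i - 1) (b := (n : ℤ) + 1) (by omega)
    exact hK _ (by omega)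

theorem zmod2_cases (a : ZMod 2) : a = 0 ∨ a = 1 := by
  revert a; decide

theorem key_layer [DecidableEq V] {k s i : ℕ} (hk : 4 ≤ k) (hs : s = k / 2)
    (hcl : ∀ S : Finset V, Clq G S → S.card ≤ s) (hc : ¬ HasCycle G (k + 1)) (his : i ≤ s)
    {H : Finset V} (hH : ∀ v ∈ H, Lay G v0 i v) (hne : H.Nonempty) :
    ∃ J ⊆ H, J.Nonempty ∧ Ind G J ∧ (cnb G J ∩ H).card ≤ s * J.card := by
  classical
  obtain ⟨par, hpar⟩ := exists_par G v0
  by_cases hd : ∃ y ∈ H, (nb G y ∩ H).card < s
  · obtain ⟨y, hy, hd⟩ := hd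
    refine ⟨{y}, by simpa using hy, by simp, ind_single, ?_⟩
    have := cnb_single (G := G) (H := H) y
    simp only [card_singleton]
    omega
  push Not at hd
  obtain ⟨f, n, hn, hf, hcl0, hy, a, ha, b, hb, hab, hna, h1, h2⟩ := posa (s := s) (by omega) hne hd
    (fun S _ => hcl S)
  by_cases hn2 : n + 1 ≤ 2 * s
  · refine ⟨{f a, f b}, ?_, by simp, ind_pair hna, ?_⟩
    · intro x hx
      simp only [mem_insert, mem_singleton] at hx
      rcases hx with rfl | rfl
      · exact hf.1 _ ha
      · exact hf.1 _ hb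
    have h3 := cnb_pair ha hb h1 h2
    rw [card_pair hab]
    omega
  clear h1 h2 hna hab ha hb a b
  let K : Set V := {w | w ∈ H ∧ Relation.ReflTransGen (fun a b => G.Adj a b ∧ b ∈ H) (f n) w}
  have hKH : ∀ w ∈ K, w ∈ H := fun w hw => hw.1
  have hKcl : ∀ u ∈ K, ∀ v ∈ H, G.Adj u v → v ∈ K := fun u hu v hv huv =>
    ⟨hv, hu.2.tail ⟨huv, hv⟩⟩
  have hyK : f n ∈ K := ⟨hf.1 n le_rfl, .refl⟩
  have hfK : ∀ a ≤ n, f a ∈ K := by
    intro a
    induction a with
    | zero => intro h; exact hKcl _ hyK _ (hf.1 0 h) hcl0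
    | succ a ih => intro h; exact hKcl _ (ih (by omega)) _ (hf.1 _ h) (hf.2.2 a (by omega))
  have hKK : ∀ w ∈ K, Relation.ReflTransGen (fun a b => G.Adj a b ∧ b ∈ K) (f n) w := by
    intro w hw
    have := hw.2
    clear hw
    induction this with
    | refl => exact .refl
    | tail hab hbc ih => exact ih.tail ⟨hbc.1, hbc.2, hab.tail hbc⟩
  have hex : ∃ h, ∀ w ∈ K, par^[h] w = par^[h] (f n) := by
    refine ⟨i, fun w hw => ?_⟩
    have e1 := par_iter hpar (hH _ (hKH _ hw)) i le_rfl
    have e2 := par_iter hpar (hH _ (hKH _ hyK)) i le_rfl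
    have e3 : ∀ w ∈ K, par^[i] w = v0 := fun w hw => by
      have := par_iter hpar (hH _ (hKH _ hw)) i le_rfl
      rw [Nat.sub_self] at this
      exact this.zero
    rw [e3 _ hw, e3 _ hyK]
  have hhi : Nat.find hex ≤ i := Nat.find_min' hex (fun w hw => by
    have e3 : ∀ w ∈ K, par^[i] w = v0 := fun w hw => by
      have := par_iter hpar (hH _ (hKH _ hw)) i le_rfl
      rw [Nat.sub_self] at this
      exact this.zero
    rw [e3 _ hw, e3 _ hyK])
  have hh := Nat.find_spec hex
  have hmin := fun m => Nat.find_min hex (m := m)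
  generalize Nat.find hex = h at hhi hh hmin
  have h0 : h ≠ 0 := by
    rintro rfl
    have := hf.2.1 0 (by omega) n le_rfl (hh _ (hfK 0 (by omega)))
    omega
  have h1 : h ≠ 1 := by
    rintro rfl
    apply hc
    have := cycle_of_layer hpar (i := i) (l := k - 1) (h := 1) (g := f)
      (fun a ha => hH _ (hf.1 a (by omega))) (fun a ha b hb => hf.2.1 a (by omega) b (by omega))
      (fun a ha => hf.2.2 a (by omega)) le_rfl hhi
      (by rw [hh _ (hfK 0 (by omega)), hh _ (hfK (k - 1) (by omega))])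
      (by
        intro e
        have := hf.2.1 0 (by omega) (k - 1) (by omega) e
        omega)
    rwa [show k - 1 + 2 * 1 = k + 1 by omega] at this
  obtain ⟨l, hl⟩ : ∃ l, l + 2 * h = k + 1 := ⟨k + 1 - 2 * h, by omega⟩
  let χ : V → ZMod 2 := fun w => if par^[h - 1] w = par^[h - 1] (f n) then 1 else 0
  have hb : NoBi G K χ l := by
    intro g g1 g2 g3
    by_contra hne
    apply hc
    rw [← hl]
    refine cycle_of_layer hpar (i := i) (fun a ha => hH _ (hKH _ (g1 a ha))) g2 g3 (by omega) hhi
      (by rw [hh _ (g1 0 (by omega)), hh _ (g1 l le_rfl)]) ?_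
    intro e
    apply hne
    simp only [χ, e]
  have hC := cyc_of_path hf hcl0 hfK
  have hc0 : f (((0 : ℤ) - 1) % (n + 1)).toNat = f n := by
    rw [show (0 : ℤ) - 1 = n + (-1) * (n + 1) by ring, Int.add_mul_emod_self_right,
      Int.emod_eq_of_lt (by omega) (by omega)]
    simp
  have hlc : (l : ℤ) < n + 1 := by omega
  have htwo : ∀ x : ℤ, χ (f ((x + 2 - 1) % (n + 1)).toNat) = χ (f ((x - 1) % (n + 1)).toNat) := by
    by_cases hl1 : l = 1
    · subst hl1
      intro x
      have e1 := hC.P0 hb hlc x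
      have e2 := hC.P0 hb hlc (x + 1)
      rw [← e1, show x + 2 = x + 1 + (1 : ℕ) by push_cast; ring, e2]
      simp
    by_cases hl2 : l = 2
    · subst hl2
      exact hC.P0 hb hlc
    have h3 := hd _ (hf.1 n le_rfl)
    have h4 : 0 < (((nb G (f n) ∩ H).erase (f 0)).erase (f (n - 1))).card := by
      have a1 := pred_card_le_card_erase (s := nb G (f n) ∩ H) (a := f 0)
      have a2 := pred_card_le_card_erase (s := (nb G (f n) ∩ H).erase (f 0)) (a := f (n - 1))
      omega
    obtain ⟨w, hw⟩ := card_pos.1 h4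
    simp only [mem_erase, mem_inter, mem_nb] at hw
    obtain ⟨b, hb1, rfl⟩ := hy w hw.2.2.2 hw.2.2.1
    have b0 : b ≠ 0 := by rintro rfl; exact hw.2.1 rfl
    have b1 : b ≠ n - 1 := by rintro rfl; exact hw.1 rfl
    refine hC.two (r := b + 1) hb (by omega) hlc ?_ (by omega) (by omega)
    rw [hc0, add_sub_cancel_right, Int.emod_eq_of_lt (by omega) (by omega)]
    exact hw.2.2.1
  have heps := Cyc.eps (cyc := fun x => f ((x - 1) % (n + 1)).toNat) (χ := χ) htwo
  have hsp := hC.spread hb (by omega) hlc heps (by rw [hc0]; exact hKK)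
  generalize χ (f (((0 : ℤ) - 1) % (n + 1)).toNat) + χ (f (((1 : ℤ) - 1) % (n + 1)).toNat) = e
    at hsp
  rcases zmod2_cases e with rfl | rfl
  · exfalso
    apply hmin (h - 1) (by omega)
    intro w hw
    have : χ w = χ (f n) ∧ w ∈ K := by
      have := hKK w hw
      clear hw
      induction this with
      | refl => exact ⟨rfl, hyK⟩
      | tail hab hbc ih => exact ⟨by rw [hsp _ ih.2 _ hbc.2 hbc.1, ih.1, add_zero], hbc.2⟩
    have h5 := this.1
    simp only [χ, if_true] at h5
    by_contra hne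
    rw [if_neg hne] at h5
    exact zero_ne_one h5
  · have main : ∀ x : ZMod 2, (univ.filter (· ∈ K)).card ≤
        2 * ((univ.filter (· ∈ K)).filter (fun w => χ w = x)).card →
        ∃ J ⊆ H, J.Nonempty ∧ Ind G J ∧ (cnb G J ∩ H).card ≤ s * J.card := by
      intro x hx
      have hpos : 0 < (univ.filter (· ∈ K)).card := card_pos.2 ⟨f n, by simpa using hyK⟩
      refine ⟨(univ.filter (· ∈ K)).filter (fun w => χ w = x), ?_, card_pos.1 (by omega), ?_, ?_⟩
      · intro w hw
        simp only [mem_filter, mem_univ, true_and] at hw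
        exact hKH _ hw.1
      · intro u hu v hv huv
        simp only [mem_filter, mem_univ, true_and] at hu hv
        have := hsp u hu.1 v hv.1 huv
        rw [hu.2, hv.2] at this
        simp at this
      · refine le_trans (card_le_card ?_) (hx.trans (Nat.mul_le_mul_right _ (by omega)))
        intro w hw
        simp only [mem_inter, mem_cnb, mem_filter, mem_univ, true_and] at hw ⊢
        rcases hw with ⟨h | ⟨u, hu, huw⟩, hwH⟩
        · exact h.1
        · exact hKcl u hu.1 w hwH huw
    have hsum := card_filter_add_card_filter_not (s := univ.filter (· ∈ K)) (fun w => χ w = 0)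
    have e : (univ.filter (· ∈ K)).filter (fun w => ¬ χ w = 0) =
        (univ.filter (· ∈ K)).filter (fun w => χ w = 1) := by
      refine filter_congr (fun w _ => ?_)
      rcases zmod2_cases (χ w) with h | h <;> simp [h]
    rw [e] at hsum
    by_cases hh : (univ.filter (· ∈ K)).card ≤
        2 * ((univ.filter (· ∈ K)).filter (fun w => χ w = 0)).card
    · exact main 0 hh
    · exact main 1 (by omega)

end Vale.Agent.P048
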