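import Vale.Agent.P048.Close

namespace Vale.Agent.P048
open Finset

def fr (z : ℕ → ℕ) (p p' r : ℕ) : ℕ :=
  (if 0 < z (r + 1) ∧ r + 1 ≠ p ∧ r + 1 ≠ p' then 0 else 1) +
    (if r - 1 = p ∨ r - 1 = p' ∨ 0 < z (r - 1) then 0 else 1)

def free (t : ℕ) (z : ℕ → ℕ) (p p' : ℕ) : Finset ℕ :=
  (range t).filter (fun r => 0 < z r ∧ r ≠ p ∧ r ≠ p')

theorem fr_le (z : ℕ → ℕ) (p p' r : ℕ) : fr z p p' r ≤ 2 := by
  unfold fr; split_ifs <;> omega

variable {k t : ℕ} {z : ℕ → ℕ} {p p' j : ℕ}

theorem ess2_drop (D : Finset ℕ) :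
    ess2 t (fun r => if r ∈ D then 0 else z r) p p' ≤ ess2 t z p p' := by
  refine card_le_card (fun r hr => ?_)
  simp only [mem_filter] at hr ⊢
  refine ⟨hr.1, ?_⟩
  have := hr.2
  split_ifs at this <;> omega

theorem ess2_drop_fr (z0 : z 0 = 0) (D : Finset ℕ) {r : ℕ} (hr : r ∈ free t z p p') (hD : r ∈ D) :
    ess2 t (fun r => if r ∈ D then 0 else z r) p p' + fr z p p' r ≤ ess2 t z p p' := by
  simp only [free, mem_filter, mem_range] at hr
  have hr0 : r ≠ 0 := by rintro rfl; omega
  obtain ⟨s, rfl⟩ : ∃ s, r = s + 1 := ⟨r - 1, by omega⟩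
  simp only [ess2, card_filter]
  have e : fr z p p' (s + 1) = ∑ x ∈ range t,
      ((if x = s + 1 then (if 0 < z (s + 1 + 1) ∧ s + 1 + 1 ≠ p ∧ s + 1 + 1 ≠ p' then 0 else 1) else 0) +
      (if x = s then (if s = p ∨ s = p' ∨ 0 < z s then 0 else 1) else 0)) := by
    rw [sum_add_distrib, sum_ite_eq', sum_ite_eq', if_pos (mem_range.2 hr.1),
      if_pos (mem_range.2 (by omega))]
    simp [fr]
  rw [e, ← sum_add_distrib]
  refine sum_le_sum (fun x _ => ?_)
  by_cases c1 : x = s + 1
  · subst c1
    simp only [hD, if_true]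
    split_ifs <;> omega
  by_cases c2 : x = s
  · subst c2
    simp only [hD, if_true]
    split_ifs <;> omega
  · split_ifs <;> omega

theorem count_fr (zt : ∀ r, t ≤ r → z r = 0) (z0 : z 0 = 0) :
    2 * ess2 t z p p' ≤ 4 + ∑ r ∈ free t z p p', (2 + fr z p p' r) := by
  have e1 : ∑ r ∈ free t z p p', (2 + fr z p p' r) =
      ∑ r ∈ range t, (if 0 < z r ∧ r ≠ p ∧ r ≠ p' then
        1 + (if 0 < z (r + 1) ∧ r + 1 ≠ p ∧ r + 1 ≠ p' then 0 else 1) else 0) +
      ∑ r ∈ range t, (if 0 < z r ∧ r ≠ p ∧ r ≠ p' then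
        1 + (if r - 1 = p ∨ r - 1 = p' ∨ 0 < z (r - 1) then 0 else 1) else 0) := by
    rw [← sum_add_distrib, free, sum_filter]
    refine sum_congr rfl (fun r _ => ?_)
    unfold fr
    split_ifs <;> omega
  have e2 : ∑ r ∈ range t, (if 0 < z r ∧ r ≠ p ∧ r ≠ p' then
        1 + (if r - 1 = p ∨ r - 1 = p' ∨ 0 < z (r - 1) then 0 else 1) else 0) =
      ∑ r ∈ range t, (if 0 < z (r + 1) ∧ r + 1 ≠ p ∧ r + 1 ≠ p' then
        1 + (if r = p ∨ r = p' ∨ 0 < z r then 0 else 1) else 0) := by
    have a1 := sum_range_succ (fun r => if 0 < z r ∧ r ≠ p ∧ r ≠ p' then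
        1 + (if r - 1 = p ∨ r - 1 = p' ∨ 0 < z (r - 1) then 0 else 1) else 0) t
    rw [sum_range_succ'] at a1
    simp only [zt t le_rfl, z0, lt_self_iff_false, false_and, if_false, add_zero,
      Nat.add_sub_cancel] at a1
    exact a1.symm
  have e3 : ∑ r ∈ range t, ((if r = p then 2 else 0) + (if r = p' then 2 else 0)) ≤ 4 := by
    rw [sum_add_distrib, sum_ite_eq', sum_ite_eq']
    split_ifs <;> omega
  rw [e1, e2]
  refine le_trans ?_ (Nat.add_le_add_right e3 _)
  rw [← sum_add_distrib, ← sum_add_distrib, ess2, card_filter, mul_sum]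
  refine sum_le_sum (fun r _ => ?_)
  split_ifs <;> omega

theorem ess2_le_ess : ess2 t z p p' ≤ ess t z + (if z p = 0 ∧ z (p + 1) = 0 then 1 else 0) +
    (if z p' = 0 ∧ z (p' + 1) = 0 then 1 else 0) := by
  have e3 : ∑ r ∈ range t, ((if r = p then (if z p = 0 ∧ z (p + 1) = 0 then 1 else 0) else 0) +
      (if r = p' then (if z p' = 0 ∧ z (p' + 1) = 0 then 1 else 0) else 0)) ≤
      (if z p = 0 ∧ z (p + 1) = 0 then 1 else 0) + (if z p' = 0 ∧ z (p' + 1) = 0 then 1 else 0) := by
    rw [sum_add_distrib, sum_ite_eq', sum_ite_eq']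
    split_ifs <;> omega
  rw [add_assoc]
  refine le_trans ?_ (Nat.add_le_add_left e3 _)
  rw [ess2, ess, card_filter, card_filter, ← sum_add_distrib]
  refine sum_le_sum (fun r _ => ?_)
  by_cases c1 : r = p
  · subst c1
    split_ifs <;> omega
  by_cases c2 : r = p'
  · subst c2
    split_ifs <;> omega
  · split_ifs <;> omega

theorem NL (z0 : z 0 = 0) (zt : ∀ r, t ≤ r → z r = 0) (hL : ∑ r ∈ range t, z r + t ≤ k)
    (ht : k + 1 ≤ 2 * t) (ht8 : 8 ≤ t) (hj1 : 1 ≤ j) (hj4 : j ≤ 4) :
    Forb k t (∑ r ∈ range t, z r) (ess t z) z p p' j ∨ (j = 2 ∧ X1 t z p p') := by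
  by_contra hno
  rw [not_or] at hno
  obtain ⟨hF, hX⟩ := hno
  have key : ∀ D ⊆ free t z p p', ∀ φ,
      ess2 t (fun r => if r ∈ D then 0 else z r) p p' + φ ≤ ess2 t z p p' →
      ¬ (∑ r ∈ range t, z r + j + ess2 t z p p' ≤ k + 1 + ∑ r ∈ D, z r + φ ∧
      (∑ r ∈ D, z r < j ∨ (∑ r ∈ D, z r = j ∧ ess2 t z p p' < ess t z + φ))) := by
    rintro D hD φ h1 ⟨h2, h3⟩
    apply hF
    have hs : ∑ r ∈ range t, (if r ∈ D then 0 else z r) + ∑ r ∈ D, z r = ∑ r ∈ range t, z r := by
      have : ∑ r ∈ D, z r = ∑ r ∈ range t, (if r ∈ D then z r else 0) := by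
        rw [← sum_filter]
        congr 1
        ext r
        simp only [mem_filter]
        exact ⟨fun h => ⟨(mem_filter.1 (hD h)).1, h⟩, fun h => h.2⟩
      rw [this, ← sum_add_distrib]
      refine sum_congr rfl (fun r _ => ?_)
      split_ifs <;> omega
    refine ⟨fun r => if r ∈ D then 0 else z r, ?_, ?_, ?_, by beta_reduce; omega,
      by beta_reduce; omega⟩
    · intro r
      by_cases h : r ∈ D <;> simp [h]
    · exact if_neg (fun h => (mem_filter.1 (hD h)).2.2.1 rfl)
    · exact if_neg (fun h => (mem_filter.1 (hD h)).2.2.2 rfl)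
  have D0 := key ∅ (empty_subset _) 0 (ess2_drop _)
  have D1 := fun r (hr : r ∈ free t z p p') => key {r} (by simpa using hr) _
    (ess2_drop_fr z0 _ hr (mem_singleton_self r))
  have D2 := fun r r' (hr : r ∈ free t z p p') (hr' : r' ∈ free t z p p') => key {r, r'}
    (by simp [insert_subset_iff, hr, hr']) _ (ess2_drop_fr z0 _ hr (mem_insert_self r _))
  have D3 := fun r r' r'' (hr : r ∈ free t z p p') (hr' : r' ∈ free t z p p')
    (hr'' : r'' ∈ free t z p p') => key {r, r', r''}
    (by simp [insert_subset_iff, hr, hr', hr'']) 0 (ess2_drop _)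
  simp only [sum_empty, sum_singleton] at D0 D1
  have C1 := count_fr (p := p) (p' := p') zt z0
  have C2 : ∑ r ∈ free t z p p', z r ≤ ∑ r ∈ range t, z r :=
    sum_le_sum_of_subset (filter_subset _ _)
  have C3 : ∑ r ∈ free t z p p', (2 + fr z p p' r) ≤ (free t z p p').card * 4 := by
    have := sum_le_card_nsmul (free t z p p') (fun r => 2 + fr z p p' r) 4
      (fun r _ => by have := fr_le z p p' r; omega)
    simpa using this
  have C4 := ess2_le_ess (t := t) (z := z) (p := p) (p' := p')
  have C5 := ess2_le t z p p'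
  have hpos : ∀ r ∈ free t z p p', 0 < z r := fun r hr => (mem_filter.1 hr).2.1
  have sumb : ∀ c e : ℕ, (∀ r ∈ free t z p p',
      2 + fr z p p' r + c ≤ 2 * z r + if z r = 1 then e else 0) →
      ∑ r ∈ free t z p p', (2 + fr z p p' r) + (free t z p p').card * c ≤
        2 * ∑ r ∈ free t z p p', z r + ((free t z p p').filter (fun r => z r = 1)).card * e := by
    intro c e h
    have := sum_le_sum h
    rw [sum_add_distrib, sum_add_distrib (f := fun r => 2 * z r), ← mul_sum, ← sum_filter] at this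
    simpa using this
  have two : ∀ r r', r ∈ free t z p p' → r' ∈ free t z p p' → r ≠ r' →
      ¬ (∑ r ∈ range t, z r + j + ess2 t z p p' ≤ k + 1 + (z r + z r') + fr z p p' r ∧
      z r + z r' < j) := by
    rintro r r' hr hr' hne ⟨h1, h2⟩
    have := D2 r r' hr hr'
    rw [sum_pair hne] at this
    exact this ⟨h1, Or.inl h2⟩
  have le1 : ∑ r ∈ range t, z r + j + ess2 t z p p' ≤ k + 1 + 2 → 2 < j →
      ((free t z p p').filter (fun r => z r = 1)).card ≤ 1 := by
    intro h1 h2
    rw [card_le_one]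
    intro a ha b hb
    rw [mem_filter] at ha hb
    by_contra hne
    exact two a b ha.1 hb.1 hne (by omega)
  obtain ⟨f, hf⟩ : ∃ f, ∑ r ∈ range t, z r + ess2 t z p p' + f = k + 1 :=
    ⟨k + 1 - (∑ r ∈ range t, z r + ess2 t z p p'), by omega⟩
  have hcase : (f = 1 ∧ j = 2) ∨ (f = 1 ∧ j = 3) ∨ (f = 1 ∧ j = 4) ∨ (f = 2 ∧ j = 3) ∨
      (f = 2 ∧ j = 4) ∨ (f = 3 ∧ j = 4) := by
    by_contra hc
    exact D0 (by omega)
  rcases hcase with ⟨rfl, rfl⟩ | ⟨rfl, rfl⟩ | ⟨rfl, rfl⟩ | ⟨rfl, rfl⟩ | ⟨rfl, rfl⟩ | ⟨rfl, rfl⟩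
  · have := sumb 1 0 (by
      intro r hr
      have h1 := D1 r hr
      have h2 := hpos r hr
      have h3 := fr_le z p p' r
      by_contra hc
      have h4 : z r = 2 ∧ fr z p p' r = 2 := by split_ifs at hc <;> omega
      have h5 : z p = 0 ∧ z (p + 1) = 0 ∧ z p' = 0 ∧ z (p' + 1) = 0 := by
        split_ifs at C4 <;> omega
      refine hX ⟨rfl, ?_, ?_, h5⟩
      · intro s hs
        have hs' : s ∈ free t z p p' := by
          refine mem_filter.2 ⟨mem_range.2 ?_, by omega, ?_, ?_⟩
          · by_contra hlt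
            have := zt s (by omega)
            omega
          · rintro rfl; omega
          · rintro rfl; omega
        exact D1 s hs' (by omega)
      · intro s hs h6 h7
        have : (range t).filter (fun r => r = p ∨ r = p' ∨ 0 < z r ∨
            (0 < z (r + 1) ∧ r + 1 ≠ p ∧ r + 1 ≠ p')) = range t :=
          eq_of_subset_of_card_le (filter_subset _ _) (by
            rw [card_range]; show t ≤ ess2 t z p p'; omega)
        have h8 := mem_range.2 hs
        rw [← this, mem_filter] at h8
        omega)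
    omega
  · have := sumb 2 2 (by
      intro r hr
      have h1 := D1 r hr
      have h2 := hpos r hr
      have h3 := fr_le z p p' r
      split_ifs <;> omega)
    have := le1 (by omega) (by omega)
    omega
  · have n2 : ((free t z p p').filter (fun r => z r = 1)).card ≤ 2 := by
      by_contra hc
      obtain ⟨a, ha, b, hb, c, hc, h1, h2, h3⟩ := two_lt_card.1 (not_le.1 hc)
      rw [mem_filter] at ha hb hc
      have := D3 a b c ha.1 hb.1 hc.1
      rw [sum_insert (by simp [h1, h2]), sum_pair h3] at this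
      omega
    by_cases c0 : ((free t z p p').filter (fun r => z r = 1)).card = 0
    · have := sumb 2 3 (by
        intro r hr
        have h1 := D1 r hr
        have h2 := hpos r hr
        have h3 := fr_le z p p' r
        split_ifs <;> omega)
      omega
    obtain ⟨a, ha⟩ := card_pos.1 (Nat.pos_of_ne_zero c0)
    rw [mem_filter] at ha
    by_cases c1 : ((free t z p p').filter (fun r => z r = 1)).card = 1
    · have := sumb 4 5 (by
        intro r hr
        have h1 := D1 r hr
        have h2 := hpos r hr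
        have h3 := fr_le z p p' r
        have h4 := two r a hr ha.1
        split_ifs with c
        · omega
        · have := h4 (by rintro rfl; exact c ha.2)
          omega)
      omega
    · have := sumb 4 4 (by
        intro r hr
        have h1 := D1 r hr
        have h2 := hpos r hr
        have h3 := fr_le z p p' r
        have h4 := two r a hr ha.1
        split_ifs with c
        · obtain ⟨b, hb, hne⟩ := exists_mem_ne
            (show 1 < ((free t z p p').filter (fun r => z r = 1)).card by omega) r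
          rw [mem_filter] at hb
          have := two r b hr hb.1 hne.symm
          omega
        · have := h4 (by rintro rfl; exact c ha.2)
          omega)
      omega
  · have := sumb 2 0 (by
      intro r hr
      have h1 := D1 r hr
      have h2 := hpos r hr
      have h3 := fr_le z p p' r
      split_ifs <;> omega)
    omega
  · have := sumb 4 4 (by
      intro r hr
      have h1 := D1 r hr
      have h2 := hpos r hr
      have h3 := fr_le z p p' r
      split_ifs <;> omega)
    have := le1 (by omega) (by omega)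
    omega
  · have := sumb 4 0 (by
      intro r hr
      have h1 := D1 r hr
      have h2 := hpos r hr
      have h3 := fr_le z p p' r
      split_ifs <;> omega)
    omega

theorem big_case {V : Type} [DecidableEq V] [Fintype V] {G : SimpleGraph V} {Q : Finset V}
    (hC : Ctx G k t Q) (ht : k + 1 ≤ 2 * t) (htk : t ≤ k) (ht8 : 8 ≤ t) : False := by
  obtain ⟨σ, I, hS, hO, hL, -⟩ := exists_sys hC (by omega) htk
  refine hS.close hC hO hL ht (by omega) (fun p p' hpp hp' j j1 j4 => ?_)
  exact (NL (z := fun r => (I r).length) (by simp [hS.i0]) (fun r hr => by simp [hS.it r hr]) hL ht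
    ht8 j1 j4).imp_left (hS.np_of_forb hC.qcl hO hpp hp' j1)

end Vale.Agent.P048
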