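import Vale.Agent.P048.Engine

namespace Vale.Agent.P048
open Finset

variable {V : Type} [DecidableEq V] {G : SimpleGraph V} {Q : Finset V}

structure Nm (Q : Finset V) (t n : ℕ) (nm : ℕ → V) : Prop where
  n32 : n ≤ 32
  inj : ∀ a < n, ∀ b < n, nm a = nm b → a = b
  q : ∀ a < n, (nm a ∈ Q ↔ a < t)
  qs : Q ⊆ (range n).image nm

def VE (G : SimpleGraph V) (n : ℕ) (nm : ℕ → V) (E : ℕ) : Prop :=
  ∀ x y, y < 32 → eb E x y = true → x < n ∧ y < n ∧ G.Adj (nm x) (nm y)

def VF (G : SimpleGraph V) (n : ℕ) (nm : ℕ → V) (F : ℕ) : Prop :=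
  ∀ x y i, y < 32 → i < 8 → fb F x y i = true →
    x < n ∧ y < n ∧ NP G ((range n).image nm) (nm x) (nm y) i

variable {k t L q n E F : ℕ} {nm : ℕ → V}

omit [DecidableEq V] in
theorem VE.set (h : VE G n nm E) (hn : n ≤ 32) {a b : ℕ} (ha : a < n) (hb : b < n)
    (hab : G.Adj (nm a) (nm b)) : VE G n nm (setE E a b) := by
  intro x y hy he
  rcases eb_setE (by omega) (by omega) hy he with h1 | ⟨rfl, rfl⟩ | ⟨rfl, rfl⟩
  · exact h x y hy h1
  · exact ⟨ha, hb, hab⟩
  · exact ⟨hb, ha, hab.symm⟩

theorem VF.set (h : VF G n nm F) (hn : n ≤ 32) {a b j : ℕ} (ha : a < n) (hb : b < n) (hj : j < 8)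
    (hab : NP G ((range n).image nm) (nm a) (nm b) j) : VF G n nm (setF F a b j) := by
  intro x y i hy hi he
  rcases fb_setF (by omega) (by omega) hy hj hi he with h1 | ⟨rfl, ⟨rfl, rfl⟩ | ⟨rfl, rfl⟩⟩
  · exact h x y i hy hi h1
  · exact ⟨ha, hb, hab⟩
  · exact ⟨hb, ha, hab.symm⟩

omit [DecidableEq V] in
theorem VE.addCh (hn : n ≤ 32) : ∀ (l : List ℕ) {E a : ℕ}, VE G n nm E → a < n → (∀ x ∈ l, x < n) →
    List.IsChain G.Adj (nm a :: l.map nm) → VE G n nm (addCh E a l)
  | [], _, _, h, _, _, _ => h
  | b :: l, _, _, h, ha, hl, hc => by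
    rw [List.map_cons, List.isChain_cons_cons] at hc
    exact VE.addCh hn l (h.set hn ha (hl b (by simp)) hc.1) (hl b (by simp))
      (fun x hx => hl x (by simp [hx])) hc.2

theorem VF.addFs (hn : n ≤ 32) {a b : ℕ} (ha : a < n) (hb : b < n) : ∀ (l : List ℕ) {F : ℕ},
    VF G n nm F → (∀ j ∈ l, j < 8 ∧ NP G ((range n).image nm) (nm a) (nm b) j) →
    VF G n nm (addFs a b F l)
  | [], _, h, _ => h
  | j :: l, _, h, hl => VF.addFs hn ha hb l
      (h.set hn ha hb (hl j (by simp)).1 (hl j (by simp)).2) (fun x hx => hl x (by simp [hx]))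

theorem extend (hN : Nm Q t n nm) (hE : VE G n nm E) (htn : t ≤ n) {a b : ℕ} (ha : a < n)
    (hb : b < n) {w : List V} (hn : n + w.length ≤ 32) (hw : w.Nodup)
    (hU : ∀ x ∈ w, x ∉ (range n).image nm) (hc : List.IsChain G.Adj (nm a :: (w ++ [nm b]))) :
    ∃ nm' : ℕ → V, Nm Q t (n + w.length) nm' ∧
      VE G (n + w.length) nm' (addCh E a (List.range' n w.length ++ [b])) ∧
      (∀ F, VF G n nm F → VF G (n + w.length) nm' F) ∧ (∀ x < n, nm' x = nm x) ∧
      ∀ x < n + w.length, x < n ∨ nm' x ∈ w := by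
  let nm' : ℕ → V := fun i => if i < n then nm i else w.getD (i - n) (nm 0)
  have e1 : ∀ x < n, nm' x = nm x := fun x hx => if_pos hx
  have e2 : ∀ x (h1 : n ≤ x) (h2 : x < n + w.length), nm' x = w[x - n]'(by omega) := by
    intro x h1 h2
    simp only [nm']
    rw [if_neg (by omega), List.getD_eq_getElem]
  have e3 : ∀ x < n + w.length, x < n ∨ nm' x ∈ w := by
    intro x hx
    by_cases h : x < n
    · exact Or.inl h
    · exact Or.inr (by rw [e2 x (by omega) hx]; exact List.getElem_mem _)
  have hsub : (range n).image nm ⊆ (range (n + w.length)).image nm' := by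
    intro x hx
    obtain ⟨i, hi, rfl⟩ := mem_image.1 hx
    rw [mem_range] at hi
    exact mem_image.2 ⟨i, mem_range.2 (by omega), e1 i hi⟩
  refine ⟨nm', ⟨hn, ?_, ?_, hN.qs.trans hsub⟩, ?_, ?_, e1, e3⟩
  · intro x hx y hy e
    by_cases c1 : x < n <;> by_cases c2 : y < n
    · exact hN.inj x c1 y c2 (by rwa [e1 x c1, e1 y c2] at e)
    · exact absurd (mem_image.2 ⟨x, mem_range.2 c1, by rw [← e, e1 x c1]⟩)
        (hU _ ((e3 y hy).resolve_left c2))
    · exact absurd (mem_image.2 ⟨y, mem_range.2 c2, by rw [e, e1 y c2]⟩)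
        (hU _ ((e3 x hx).resolve_left c1))
    · rw [e2 x (by omega) hx, e2 y (by omega) hy] at e
      have := (List.Nodup.getElem_inj_iff hw).1 e
      omega
  · intro x hx
    by_cases c1 : x < n
    · rw [e1 x c1]; exact hN.q x c1
    · exact ⟨fun h => absurd (hN.qs h) (hU _ ((e3 x hx).resolve_left c1)), fun h => by omega⟩
  · refine VE.addCh hn _ ?_ (by omega) ?_ ?_
    · intro x y hy he
      obtain ⟨h1, h2, h3⟩ := hE x y hy he
      exact ⟨by omega, by omega, by rwa [e1 x h1, e1 y h2]⟩
    · intro x hx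
      simp only [List.mem_append, List.mem_range'_1, List.mem_singleton] at hx
      omega
    · have : (List.range' n w.length).map nm' = w := by
        apply List.ext_getElem (by simp)
        intro i h1 h2
        simp only [List.getElem_map, List.getElem_range', one_mul]
        rw [e2 _ (by omega) (by omega)]
        simp
      rw [List.map_append, this, e1 a ha]
      simpa [e1 b hb] using hc
  · intro F hF x y i hy hi he
    obtain ⟨h1, h2, h3⟩ := hF x y i hy hi he
    exact ⟨by omega, by omega, by rw [e1 x h1, e1 y h2]; exact h3.mono hsub⟩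

theorem nodupB_spec : ∀ (l : List ℕ) (m : ℕ), nodupB n m l = true →
    l.Nodup ∧ ∀ x ∈ l, x < n ∧ bit m x = false
  | [], _, _ => by simp
  | a :: l, m, h => by
    simp only [nodupB, Bool.and_eq_true, Nat.blt_eq, Bool.not_eq_true'] at h
    obtain ⟨h1, h2⟩ := nodupB_spec l _ h.2.2
    have h3 : ∀ x ∈ l, bit m x = false ∧ a ≠ x := by
      intro x hx
      have := (h2 x hx).2
      rw [← Bool.not_eq_true, bit_setb] at this
      simpa using this
    refine ⟨List.nodup_cons.2 ⟨fun ha => (h3 a ha).2 rfl, h1⟩, ?_⟩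
    intro x hx
    rcases List.mem_cons.1 hx with rfl | hx
    · exact ⟨h.1, h.2.1⟩
    · exact ⟨(h2 x hx).1, (h3 x hx).1⟩

omit [DecidableEq V] in
theorem chainB_spec (hE : VE G n nm E) (hn : n ≤ 32) : ∀ (l : List ℕ) (a : ℕ), (∀ x ∈ l, x < n) →
    chainB E a l = true → List.IsChain G.Adj (nm a :: l.map nm)
  | [], _, _, _ => by simp
  | b :: l, a, hl, h => by
    simp only [chainB, Bool.and_eq_true] at h
    rw [List.map_cons, List.isChain_cons_cons]
    have := hl b (by simp)
    exact ⟨(hE a b (by omega) h.1).2.2, chainB_spec hE hn l b (fun x hx => hl x (by simp [hx])) h.2⟩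

theorem cnt_spec (hN : Nm Q t n nm) : ∀ (l : List ℕ), (∀ x ∈ l, x < n) →
    inn Q (l.map nm) = cnt t l
  | [], _ => rfl
  | a :: l, hl => by
    rw [List.map_cons, inn_cons, cnt_spec hN l (fun x hx => hl x (by simp [hx])), cnt]
    by_cases h : a < t
    · rw [if_pos ((hN.q a (hl a (by simp))).2 h), Nat.blt_eq.mpr h]; rfl
    · rw [if_neg (fun h' => h ((hN.q a (hl a (by simp))).1 h')),
        Bool.eq_false_iff.2 (fun h' => h (Nat.blt_eq.mp h'))]; rfl

omit [DecidableEq V] in
theorem pairE_spec (hE : VE G n nm E) (hn : n ≤ 32) : ∀ (l : List ℕ), (∀ x ∈ l, x < n) →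
    pairE E l = true → l.Pairwise (fun x y => G.Adj (nm x) (nm y))
  | [], _, _ => by simp
  | a :: l, hl, h => by
    simp only [pairE, Bool.and_eq_true, List.all_eq_true] at h
    refine List.pairwise_cons.2 ⟨fun y hy => ?_, pairE_spec hE hn l (fun x hx => hl x (by simp [hx])) h.2⟩
    have := hl y (by simp [hy])
    exact (hE a y (by omega) (h.1 y hy)).2.2

theorem Nm.nodup (hN : Nm Q t n nm) {l : List ℕ} (h : l.Nodup) (hl : ∀ x ∈ l, x < n) :
    (l.map nm).Nodup :=
  h.map_on (fun x hx y hy e => hN.inj x (hl x hx) y (hl y hy) e)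

omit [DecidableEq V] in
theorem getLast_map (nm : ℕ → V) (a : ℕ) (A : List ℕ) :
    (nm a :: A.map nm).getLast? = some (nm (A.getLastD a)) := by
  induction A generalizing a with
  | nil => simp
  | cons b A ih => rw [List.map_cons, List.getLast?_cons_cons, ih, List.getLastD_cons]

omit [DecidableEq V] in
theorem hasCycle_of_ends {P : List V} {x y : V} (hn : P.Nodup) (hc : List.IsChain G.Adj P)
    (hx : P.head? = some x) (hy : P.getLast? = some y) (h : G.Adj x y) : HasCycle G P.length := by
  match P, hx with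
  | a :: l, hx =>
    simp only [List.head?_cons, Option.some.injEq] at hx
    subst hx
    refine hasCycle_of_list hn ?_
    rw [← List.cons_append, List.isChain_append]
    refine ⟨hc, by simp, ?_⟩
    intro u hu v hv
    rw [hy] at hu
    simp only [Option.mem_def, Option.some.injEq, List.head?_cons] at hu hv
    subst hu hv
    exact h.symm

variable [Fintype V]

theorem path_sound (hC : Ctx G k t Q) (hO : Opt G Q k L q) (hN : Nm Q t n nm) (hE : VE G n nm E)
    {a b j : ℕ} {A B : List ℕ} (h1 : nodupB n 0 (a :: (A ++ b :: B)) = true)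
    (h2 : chainB E a A = true) (h3 : chainB E b B = true)
    (h4 : pathOK k t L q E (A.getLastD a) (B.getLastD b) (cnt t (a :: (A ++ b :: B)))
      (Nat.add (a :: (A ++ b :: B)).length j) = true) :
    NP G ((range n).image nm) (nm a) (nm b) j := by
  intro w w1 w2 w3 w4
  obtain ⟨d1, d2⟩ := nodupB_spec _ _ h1
  have d3 : ∀ x ∈ a :: (A ++ b :: B), x < n := fun x hx => (d2 x hx).1
  have c1 := chainB_spec hE hN.n32 A a (fun x hx => d3 x (by simp [hx])) h2
  have c2 := chainB_spec hE hN.n32 B b (fun x hx => d3 x (by simp [hx])) h3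
  have hperm : ((A.map nm).reverse ++ nm a :: (w ++ nm b :: B.map nm)).Perm
      (w ++ (a :: (A ++ b :: B)).map nm) := by
    rw [List.perm_iff_count]
    intro x
    simp only [List.count_append, List.count_cons, List.count_reverse, List.map_cons,
      List.map_append]
    omega
  have hnd : ((A.map nm).reverse ++ nm a :: (w ++ nm b :: B.map nm)).Nodup := by
    rw [hperm.nodup_iff, List.nodup_append]
    refine ⟨w2, hN.nodup d1 d3, ?_⟩
    rintro x hx y hy rfl
    obtain ⟨i, hi, rfl⟩ := List.mem_map.1 hy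
    exact w3 _ hx (mem_image_of_mem _ (mem_range.2 (d3 i hi)))
  have hch : List.IsChain G.Adj ((A.map nm).reverse ++ nm a :: (w ++ nm b :: B.map nm)) := by
    rw [List.isChain_split, List.isChain_cons_split]
    exact ⟨by simpa using chain_rev c1, w4, c2⟩
  have hhd : ((A.map nm).reverse ++ nm a :: (w ++ nm b :: B.map nm)).head? =
      some (nm (A.getLastD a)) := by
    rw [List.append_cons, ← List.reverse_cons, List.head?_append, List.head?_reverse, getLast_map]
    rfl
  have hla : ((A.map nm).reverse ++ nm a :: (w ++ nm b :: B.map nm)).getLast? =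
      some (nm (B.getLastD b)) := by
    rw [← List.cons_append, ← List.append_assoc, List.getLast?_append, getLast_map]
    rfl
  have hlen := hperm.length_eq
  have hinn : inn Q ((A.map nm).reverse ++ nm a :: (w ++ nm b :: B.map nm)) =
      cnt t (a :: (A ++ b :: B)) := by
    rw [← cnt_spec hN _ d3, inn, hperm.countP_eq, ← inn, inn_append,
      inn_eq_zero (fun x hx hq => w3 x hx (hN.qs hq)), zero_add]
  have hio := inn_add_out Q ((A.map nm).reverse ++ nm a :: (w ++ nm b :: B.map nm))
  have m1 : A.getLastD a < n := d3 _ (by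
    have := List.getLastD_mem_cons (l := A) (a := a)
    rw [← List.cons_append]
    exact List.mem_append_left _ this)
  have m2 : B.getLastD b < n := d3 _ (by
    have := List.getLastD_mem_cons (l := B) (a := b)
    rw [← List.cons_append]
    exact List.mem_append_right _ this)
  generalize (A.map nm).reverse ++ nm a :: (w ++ nm b :: B.map nm) = P at *
  rw [List.length_append, List.length_map, w1] at hlen
  simp only [pathOK, Bool.or_eq_true, Bool.and_eq_true, Nat.blt_eq, Nat.ble_eq, Nat.beq_eq,
    Nat.add_eq, Nat.succ_eq_add_one] at h4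
  rcases h4 with ⟨e1, e2, e3, e4⟩ | ⟨e1, e2⟩
  · have := hO P ⟨by rintro rfl; simp at hhd, hnd, hch,
      by rw [hhd]; simpa using (hN.q _ m1).2 e1, by rw [hla]; simpa using (hN.q _ m2).2 e2⟩
      (by omega)
    omega
  · have := hasCycle_of_ends hnd hch hhd hla (hE _ _ (by have := hN.n32; omega) e2).2.2
    rw [show P.length = k + 1 by omega] at this
    exact hC.nocyc this

theorem fact_sound (hC : Ctx G k t Q) (hO : Opt G Q k L q) (hN : Nm Q t n nm) (hE : VE G n nm E)
    (hF : VF G n nm F) (d : List ℕ) (h : factChk k t L q n E d = true) : VF G n nm (factF F d) := by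
  match d, h with
  | 0 :: jlo :: jhi :: la :: r, h =>
    simp only [factChk, factF] at h ⊢
    generalize r.take la = A at *
    generalize r.drop la = B at *
    match A, B, h with
    | a :: A, b :: B, h =>
      simp only [pathChk, Bool.and_eq_true, List.all_eq_true, Nat.blt_eq] at h
      obtain ⟨h1, h2, h3, h4, h5⟩ := h
      have d2 := (nodupB_spec _ _ h1).2
      refine VF.addFs hN.n32 (d2 a (by simp)).1 (d2 b (by simp)).1 _ hF (fun j hj => ⟨?_, ?_⟩)
      · rw [List.mem_range'_1] at hj
        omega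
      · exact path_sound hC hO hN hE h1 h2 h3 (h5 j hj)
  | [0, a, b], h =>
    simp only [factChk, factF, Bool.and_eq_true, List.all_eq_true, Nat.beq_eq] at h ⊢
    obtain ⟨h1, h2, h3, h4⟩ := h
    obtain ⟨d1, d2⟩ := nodupB_spec _ _ h1
    refine hF.set hN.n32 (d2 a (by simp)).1 (d2 b (by simp)).1 (by omega) ?_
    intro w w1 _ _ w4
    rw [List.length_eq_zero_iff.1 w1] at w4
    have w5 : G.Adj (nm a) (nm b) := by simpa using w4
    have := hC.cl {nm a, nm b} (by
      intro u hu v hv huv
      simp only [mem_insert, mem_singleton] at hu hv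
      rcases hu with rfl | rfl <;> rcases hv with rfl | rfl
      · exact absurd rfl huv
      · exact w5
      · exact w5.symm
      · exact absurd rfl huv)
    rw [card_pair w5.ne] at this
    simp at h2
    omega
  | (x + 1) :: a :: b :: C, h =>
    simp only [factChk, factF, Bool.and_eq_true, List.all_eq_true, Nat.beq_eq] at h ⊢
    obtain ⟨h1, h2, h3, h4⟩ := h
    obtain ⟨d1, d2⟩ := nodupB_spec _ _ h1
    have d3 : ∀ x ∈ a :: b :: C, x < n := fun x hx => (d2 x hx).1
    refine hF.set hN.n32 (d2 a (by simp)).1 (d2 b (by simp)).1 (by omega) ?_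
    intro w w1 _ _ w4
    rw [List.length_eq_zero_iff.1 w1] at w4
    have w5 : G.Adj (nm a) (nm b) := by simpa using w4
    have p1 := pairE_spec hE hN.n32 (a :: C) (fun x hx => d3 x (by
      simp only [List.mem_cons] at hx ⊢; tauto)) h3
    have p2 : (b :: a :: C).Pairwise (fun x y => G.Adj (nm x) (nm y)) := by
      refine List.pairwise_cons.2 ⟨fun y hy => ?_, p1⟩
      rcases List.mem_cons.1 hy with rfl | hy
      · exact w5.symm
      · have := d3 y (by simp [hy])
        exact (hE b y (by have := hN.n32; omega) (h4 y hy)).2.2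
    have p3 : ((b :: a :: C).map nm).Pairwise G.Adj := List.pairwise_map.2 p2
    have := hC.cl ((b :: a :: C).map nm).toFinset (by
      intro u hu v hv huv
      haveI : Std.Symm G.Adj := ⟨fun _ _ h => h.symm⟩
      exact p3.forall (List.mem_toFinset.1 hu) (List.mem_toFinset.1 hv) huv)
    rw [List.toFinset_card_of_nodup (p3.imp (fun h => h.ne))] at this
    simp at this h2
    omega

theorem facts_sound (hC : Ctx G k t Q) (hO : Opt G Q k L q) (hN : Nm Q t n nm) (hE : VE G n nm E)
    {c : ℕ → Bool} : ∀ (l : List ℕ) {F : ℕ}, VF G n nm F → facts k t L q n E c l F = true →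
      ∃ F', VF G n nm F' ∧ c F' = true
  | [], F, hF, h => ⟨F, hF, h⟩
  | x :: l, F, hF, h => by
    simp only [facts, forceN_eq, Bool.and_eq_true] at h
    exact facts_sound hC hO hN hE l (fact_sound hC hO hN hE hF _ h.1) h.2

theorem pos_spec (hN : Nm Q t n nm) (hF : VF G n nm F) (v : ℕ) :
    (nb G (nm v) ∩ (range n).image nm).card ≤ pos n F v := by
  have : nb G (nm v) ∩ (range n).image nm ⊆
      (((List.range n).filter (fun b => !(Nat.beq b v || fb F v b 0))).toFinset).image nm := by
    intro x hx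
    rw [mem_inter, mem_nb] at hx
    obtain ⟨b, hb, rfl⟩ := mem_image.1 hx.2
    rw [mem_range] at hb
    refine mem_image_of_mem _ ?_
    simp only [List.mem_toFinset, List.mem_filter, List.mem_range, hb, true_and, Bool.not_eq_true',
      Bool.or_eq_false_iff]
    constructor
    · rw [← Bool.not_eq_true, Nat.beq_eq]
      rintro rfl
      exact G.irrefl hx.1
    · rw [← Bool.not_eq_true]
      intro h
      exact (hF v b 0 (by have := hN.n32; omega) (by omega) h).2.2 [] rfl (by simp) (by simp)
        (by simpa using hx.1)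
  refine (card_le_card this).trans (card_image_le.trans ((List.toFinset_card_le _).trans ?_))
  rw [pos, List.countP_eq_length_filter]

theorem cover_spec (hN : Nm Q t n nm) (hF : VF G n nm F) {v g : ℕ} {col : List ℕ}
    (h : cover n F v g col = true) {x : V} (hx : x ∉ (range n).image nm) (hadj : G.Adj (nm v) x) :
    (nb G x ∩ (range n).image nm).card ≤ g + 1 := by
  classical
  have one : ∀ a b, b < n → fb F a b 1 = true → G.Adj (nm a) x → G.Adj x (nm b) → False := by
    intro a b hb h1 h2 h3
    exact (hF a b 1 (by have := hN.n32; omega) (by omega) h1).2.2 [x] rfl (by simp)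
      (by simpa using hx) (by simp [h2, h3])
  simp only [cover, List.all_eq_true, List.mem_range, Bool.or_eq_true, Nat.beq_eq] at h
  let S := (range n).filter (fun b => b ≠ v ∧ G.Adj x (nm b))
  have hS : ∀ b ∈ S, col.getD b 31 < g ∧
      ∀ a < b, col.getD a 31 = col.getD b 31 → fb F a b 1 = true := by
    intro b hb
    simp only [S, mem_filter, mem_range] at hb
    have := (h b hb.1).resolve_left hb.2.1
    by_cases c : col.getD b 31 < g
    · rw [Nat.blt_eq.mpr c, cond_true] at this
      simp only [List.all_eq_true, List.mem_range, Bool.or_eq_true, Bool.not_eq_true'] at this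
      refine ⟨c, fun a ha e => (this a ha).resolve_left ?_⟩
      rw [e]
      simp
    · rw [Bool.eq_false_iff.2 (fun h' => c (Nat.blt_eq.mp h')), cond_false] at this
      exact (one v b hb.1 this hadj hb.2.2).elim
  have h1 : S.card ≤ (range g).card := by
    refine card_le_card_of_injOn (fun b => col.getD b 31) (fun b hb => ?_) ?_
    · simpa using (hS b hb).1
    · intro a ha b hb e
      have ha' := mem_filter.1 (mem_coe.1 ha)
      have hb' := mem_filter.1 (mem_coe.1 hb)
      rcases lt_trichotomy a b with c | c | c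
      · exact (one a b (mem_range.1 hb'.1) ((hS b hb).2 a c e) ha'.2.2.symm hb'.2.2).elim
      · exact c
      · exact (one b a (mem_range.1 ha'.1) ((hS a ha).2 b c e.symm) hb'.2.2.symm ha'.2.2).elim
  have h2 : nb G x ∩ (range n).image nm ⊆ insert (nm v) (S.image nm) := by
    intro y hy
    rw [mem_inter, mem_nb] at hy
    obtain ⟨b, hb, rfl⟩ := mem_image.1 hy.2
    by_cases e : b = v
    · simp [e]
    · exact mem_insert_of_mem (mem_image_of_mem _ (mem_filter.2 ⟨hb, e, hy.1⟩))
  have h3 := (card_le_card h2).trans (card_insert_le _ _)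
  have h4 := card_image_le (s := S) (f := nm)
  rw [card_range] at h1
  omega

theorem item_sound (hC : Ctx G k t Q) (hN : Nm Q t n nm) (hF : VF G n nm F) (x : List ℕ)
    (h : itemOK k t n F x = true) : iv x < n ∧ reach (ity x) ≤ 2 ∧
      Reg G ((range n).image nm) (nm (iv x)) (reach (ity x)) (wt (ity x))
        (strict (ity x) = true) := by
  match x, h with
  | v :: ty :: col, h =>
    simp only [itemOK, Bool.or_eq_true, Bool.and_eq_true, Nat.blt_eq, Nat.ble_eq, Nat.beq_eq,
      Nat.add_eq] at h
    have hp := pos_spec hN hF v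
    have hv : nm v ∈ (range n).image nm := mem_image_of_mem _ (mem_range.2 h.1)
    refine ⟨h.1, ?_⟩
    show reach ty ≤ 2 ∧ Reg G _ (nm v) (reach ty) (wt ty) (strict ty = true)
    rcases h.2 with (((rfl | ⟨rfl, h1⟩) | ⟨rfl, h1, h2, h3⟩) | ⟨rfl, h1⟩) | ⟨rfl, h1, h2, h3⟩
    · exact ⟨by decide, by simpa [reach, wt, strict] using reg0 (nm v)⟩
    · obtain ⟨x, hx, hax⟩ := hC.ynb (lt_of_le_of_lt hp h1)
      exact ⟨by decide, by simpa [reach, wt, strict] using reg1 le_rfl hx hax⟩
    · obtain ⟨x, hx, hax⟩ := hC.ynb (lt_of_le_of_lt hp h1)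
      have := cover_spec hN hF h3 hx hax
      exact ⟨by decide, by simpa [reach, wt, strict] using hC.reg2 hx hax (by omega)⟩
    · exact ⟨by decide, by simpa [reach, wt, strict] using hC.reg3 (by omega)⟩
    · obtain ⟨x, hx, hax⟩ := hC.ynb (lt_of_le_of_lt hp h1)
      have := cover_spec hN hF h3 hx hax
      exact ⟨by decide, by simpa [reach, wt, strict] using hC.reg4 hv hx hax (by omega)⟩

theorem close_sound (hC : Ctx G k t Q) (hN : Nm Q t n nm) (hF : VF G n nm F) :
    ∀ (l : List (List ℕ)) (w : ℕ), closeChk k t n F w l = true →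
      ∃ I : Finset V, Ind G I ∧ k < w + I.card ∧ ∀ u ∈ I, ∃ x ∈ l, iv x < n ∧ reach (ity x) ≤ 2 ∧
        Near G ((range n).image nm) (nm (iv x)) (reach (ity x)) u ∧
          (strict (ity x) = true → u ∉ (range n).image nm)
  | [], w, h => ⟨∅, by simp [Ind], by simpa [closeChk] using h, by simp⟩
  | x :: l, w, h => by
    simp only [closeChk, Bool.and_eq_true, List.all_eq_true, Nat.add_eq] at h
    obtain ⟨I, i1, i2, i3⟩ := close_sound hC hN hF l _ h.2.2
    obtain ⟨x1, x2, J, j1, j2, j3⟩ := item_sound hC hN hF x h.1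
    have far : ∀ u ∈ J, ∀ v ∈ I, u ≠ v ∧ ¬ G.Adj u v := by
      intro u hu v hv
      obtain ⟨y, hy, y1, y2, y3, y4⟩ := i3 v hv
      have hp := h.2.1 y hy
      have y5 : iv y < 32 := by have := hN.n32; omega
      simp only [pairOK, Bool.and_eq_true, Bool.or_eq_true, List.all_eq_true, Bool.not_eq_true',
        List.mem_range'_1, Nat.add_eq] at hp
      refine cross (mem_image_of_mem _ (mem_range.2 x1)) (mem_image_of_mem _ (mem_range.2 y1)) ?_ ?_
        (j3 u hu).1 y3 ?_
      · intro e
        have := hN.inj _ x1 _ y1 e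
        rw [this] at hp
        simp at hp
      · intro j h1 h2
        exact (hF _ _ j y5 (by omega) (hp.2.1 j ⟨h1, by omega⟩)).2.2
      · rcases hp.2.2 with (h1 | h1) | h1
        · exact Or.inl ((j3 u hu).2 h1)
        · exact Or.inr (Or.inl (y4 h1))
        · exact Or.inr (Or.inr (fun e => (hF _ _ 0 y5 (by omega) h1).2.2 [] rfl (by simp) (by simp)
            (by simpa using e)))
    refine ⟨J ∪ I, ?_, ?_, ?_⟩
    · intro u hu v hv
      rcases mem_union.1 hu with hu | hu <;> rcases mem_union.1 hv with hv | hv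
      · exact j1 u hu v hv
      · exact (far u hu v hv).2
      · exact fun e => (far v hv u hu).2 e.symm
      · exact i1 u hu v hv
    · rw [card_union_of_disjoint (disjoint_left.2 (fun u hu hv => (far u hu u hv).1 rfl))]
      omega
    · intro u hu
      rcases mem_union.1 hu with hu | hu
      · exact ⟨x, by simp, x1, x2, j3 u hu⟩
      · obtain ⟨y, hy, h⟩ := i3 u hu
        exact ⟨y, by simp [hy], h⟩

theorem check_sound (hC : Ctx G k t Q) (hO : Opt G Q k L q) : ∀ (c : Cert) {n E F : ℕ}
    {nm : ℕ → V}, t ≤ n → Nm Q t n nm → VE G n nm E → VF G n nm F →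
      check k t L q c n E F = true → False
  | .facts l c, n, E, F, nm, htn, hN, hE, hF, h => by
    obtain ⟨F', h1, h2⟩ := facts_sound hC hO hN hE l hF h
    exact check_sound hC hO c htn hN hE h1 h2
  | .split a b j y c, n, E, F, nm, htn, hN, hE, hF, h => by
    simp only [check, forceN_eq, Bool.and_eq_true, Nat.blt_eq, Nat.ble_eq, Nat.add_eq] at h
    obtain ⟨h1, h2, h3, h4, h5, h6⟩ := h
    refine check_sound hC hO c htn hN hE (hF.set hN.n32 h1 h2 h3 ?_) h6
    rintro w rfl w2 w3 w4
    obtain ⟨nm', a1, a2, a3, -, -⟩ := extend hN hE htn h1 h2 h4 w2 w3 w4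
    exact check_sound hC hO y (by omega) a1 a2 (a3 F hF) h5
  | .close l, n, E, F, nm, _, hN, _, hF, h => by
    obtain ⟨I, i1, i2, -⟩ := close_sound hC hN hF _ 0 h
    have := hC.ind I i1
    omega

omit [Fintype V] [DecidableEq V] in
theorem initE_spec (hn : n ≤ 32) (h : ∀ a < n, ∀ b < a, G.Adj (nm a) (nm b)) :
    ∀ m ≤ n, VE G n nm (initE m) := by
  intro m
  induction m with
  | zero => intro _ x y _ he; simp [initE, eb, bit_eq] at he
  | succ m ih =>
    intro hm
    have : ∀ (l : List ℕ) (E : ℕ), (∀ b ∈ l, b < m) → VE G n nm E →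
        VE G n nm (l.foldl (fun E b => setE E m b) E) := by
      intro l
      induction l with
      | nil => intro E _ h; exact h
      | cons b l ih =>
        intro E hl hE
        have := hl b (by simp)
        exact ih _ (fun x hx => hl x (by simp [hx]))
          (hE.set hn (by omega) (by omega) (h m (by omega) b this))
    exact this _ _ (by simp) (ih (by omega))

theorem ears_spec (hC : Ctx G k t Q) {σ : ℕ → V} {I : ℕ → List V} (hS : Sys G Q t σ I)
    (ht : t ≤ 32) : ∀ r, r < t → ∃ nm : ℕ → V,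
      t ≤ (ears t (fun r => (I r).length) r).1 ∧ Nm Q t (ears t (fun r => (I r).length) r).1 nm ∧
      VE G (ears t (fun r => (I r).length) r).1 nm (ears t (fun r => (I r).length) r).2 ∧
      (∀ a < t, nm a = σ a) ∧
      ∀ a < (ears t (fun r => (I r).length) r).1, nm a ∈ Q ∨ ∃ s ≤ r, nm a ∈ I s := by
  intro r
  induction r with
  | zero =>
    intro _
    refine ⟨σ, le_rfl, ⟨ht, hS.inj, fun a ha => ⟨fun _ => ha, hS.sq a⟩, ?_⟩, ?_, fun _ _ => rfl,
      fun a ha => Or.inl (hS.sq a ha)⟩
    · refine (eq_of_subset_of_card_le (s := (range t).image σ) ?_ ?_).ge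
      · intro x hx
        obtain ⟨a, ha, rfl⟩ := mem_image.1 hx
        exact hS.sq a (mem_range.1 ha)
      · rw [card_image_of_injOn (fun a ha b hb e => hS.inj a (by simpa using ha) b
          (by simpa using hb) e), hC.qcard, card_range]
    · exact initE_spec ht (fun a ha b hb => hC.qcl _ (hS.sq a ha) _ (hS.sq b (by omega))
        (fun e => by have := hS.inj a ha b (by omega) e; omega)) t le_rfl
  | succ r ih =>
    intro hr
    obtain ⟨nm, h1, h2, h3, h4, h5⟩ := ih (by omega)
    rw [ears]
    generalize ears t (fun r => (I r).length) r = s at *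
    cases hc : Nat.ble (Nat.add s.1 (I (r + 1)).length) 32 with
    | false =>
      exact ⟨nm, h1, h2, h3, h4, fun a ha => (h5 a ha).imp id
        (fun ⟨s, h, h'⟩ => ⟨s, by omega, h'⟩)⟩
    | true =>
      rw [Nat.ble_eq, Nat.add_eq] at hc
      obtain ⟨nm', a1, a2, -, a4, a5⟩ := extend h2 h3 h1 (a := r) (b := r + 1) (by omega) (by omega)
        hc (hS.nd _) (by
          intro x hx hU
          obtain ⟨a, ha, rfl⟩ := mem_image.1 hU
          rcases h5 a (mem_range.1 ha) with h | ⟨s, h, h'⟩
          · exact hS.ou _ _ hx h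
          · have := hS.dis _ _ _ hx h'
            omega) (by rw [h4 r (by omega), h4 _ hr]; exact hS.ch r hr)
      refine ⟨nm', by simp only [cond_true, Nat.add_eq]; omega, a1, a2,
        fun a ha => by rw [a4 a (by omega), h4 a ha], fun a ha => ?_⟩
      rcases a5 a ha with h | h
      · rw [a4 a h]
        exact (h5 a h).imp id (fun ⟨s, h, h'⟩ => ⟨s, by omega, h'⟩)
      · exact Or.inr ⟨r + 1, le_rfl, h⟩

theorem mem_comps : ∀ (n L : ℕ) (l : List ℕ), l.length = n → l.sum ≤ L → l ∈ comps n L
  | 0, _, l, h, _ => by simp [comps, List.length_eq_zero_iff.1 h]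
  | n + 1, L, a :: l, h, h' => by
    simp only [List.length_cons, Nat.add_right_cancel_iff, List.sum_cons] at h h'
    simp only [comps, List.mem_flatMap, List.mem_range, List.mem_map]
    exact ⟨a, by omega, l, mem_comps n _ l h (by omega), rfl⟩

theorem small_case (hall : ∀ x ∈ keys, ∃ c, top x.1 x.2.1 x.2.2 c = true) (hC : Ctx G k t Q)
    (hk : 3 ≤ k) (ht : k + 1 ≤ 2 * t) (htk : t ≤ k) (ht8 : t < 8) : False := by
  obtain ⟨σ, I, hS, hO, hL, hz⟩ := exists_sys hC (by omega) htk
  have e : zf ((List.range (t - 1)).map (fun r => (I (r + 1)).length)) = fun r => (I r).length := by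
    funext r
    rcases r with _ | r
    · simp [zf, hS.i0]
    · simp only [zf, List.getD_cons_succ]
      by_cases h : r < t - 1
      · rw [List.getD_eq_getElem _ _ (by simpa using h)]
        simp
      · rw [List.getD_eq_default _ _ (by simpa using h), hS.it _ (by omega)]
        rfl
  obtain ⟨c, hc⟩ := hall (k, t, (List.range (t - 1)).map (fun r => (I (r + 1)).length)) (by
    simp only [keys, List.mem_flatMap, List.mem_range'_1, List.mem_map, List.mem_filter]
    refine ⟨t, by omega, k, by omega, _, ⟨mem_comps _ _ _ (by simp) ?_, ?_⟩, rfl⟩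
    · have h1 := sum_range_succ' (fun r => (I r).length) (t - 1)
      rw [Nat.sub_add_cancel (by omega)] at h1
      have h2 : ((List.range (t - 1)).map (fun r => (I (r + 1)).length)).sum =
          ∑ r ∈ range (t - 1), (I (r + 1)).length := rfl
      omega
    · rw [e]
      simp only [List.all_eq_true, Bool.or_eq_true, decide_eq_true_eq]
      intro r _
      have := hz r
      omega)
  simp only [top, forceN_eq, e] at hc
  obtain ⟨nm, h1, h2, h3, -, -⟩ := ears_spec hC hS (by omega) (t - 1) (by omega)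
  exact check_sound hC hO c h1 h2 h3 (by intro x y i _ _ h; simp [fb, bit_eq] at h) hc

end Vale.Agent.P048
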