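import Vale.Agent.P048.Clique
import Vale.Agent.P048.Num
import Vale.Agent.P048.Sound
import Vale.Agent.P048.Certs

namespace Vale.Agent.P048
open Finset

theorem core (k : ℕ) (hk : 3 ≤ k) (W : Type) [Fintype W] (G : SimpleGraph W) (hne : Nonempty W)
    (hC : Core G k) : False := by
  classical
  obtain ⟨v0⟩ := hne
  obtain ⟨Q, hQ, hmax⟩ := exists_max_image (univ.filter (fun S : Finset W => Clq G S)) card
    ⟨∅, mem_filter.2 ⟨mem_univ _, by simp [Clq]⟩⟩
  have hcl : ∀ S : Finset W, Clq G S → S.card ≤ Q.card := fun S hS => hmax S (by simpa using hS)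
  have hQ' : Clq G Q := by simpa using hQ
  have hX : Ctx G k Q.card Q := ⟨hC.nocyc, hC.ind, hC.deg, hcl, hQ', rfl⟩
  have ht : k + 1 ≤ 2 * Q.card := by
    by_contra hlt
    rcases hk.eq_or_lt with rfl | hk4
    · obtain ⟨w, hw⟩ := card_pos.1 (lt_of_lt_of_le (by omega) (hC.deg v0))
      rw [mem_nb] at hw
      have := hcl {v0, w} (by
        intro u hu v hv huv
        simp only [mem_insert, mem_singleton] at hu hv
        rcases hu with rfl | rfl <;> rcases hv with rfl | rfl
        · exact absurd rfl huv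
        · exact hw
        · exact hw.symm
        · exact absurd rfl huv)
      rw [card_pair hw.ne] at this
      omega
    · exact clique_lb hk4 hC v0 (fun S hS => (hcl S hS).trans (by omega))
  have htk : Q.card ≤ k := by
    by_contra hlt
    obtain ⟨x, hx⟩ := card_pos.1 (show 0 < Q.card by omega)
    have := QPath.cycle hQ' k (P := [x])
      ⟨by simp, by simp, by simp, by simpa using hx, by simpa using hx⟩
      (by simp [inn_cons, hx]; omega) (by simp; omega)
    rw [List.length_singleton, Nat.add_comm] at this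
    exact hC.nocyc this
  by_cases h8 : 8 ≤ Q.card
  · exact big_case hX ht htk h8
  · exact small_case keys_ok hX hk ht htk (by omega)

theorem upper {m n : ℕ} (hm : 4 ≤ m) (hn : 1 ≤ n) (hnm : n ≤ m)
    (G : SimpleGraph (Fin ((m - 1) * (n - 1) + 1))) :
    SimpleGraph.IsContained (SimpleGraph.cycleGraph m) G ∨
      SimpleGraph.IsContained (SimpleGraph.completeGraph (Fin n)) Gᶜ := by
  classical
  by_contra hno
  rw [not_or, ← SimpleGraph.not_cliqueFree_iff_top_isContained, not_not] at hno
  have := reduction (m - 1) (core (m - 1) (by omega)) (n - 1) (by omega) _ G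
    (fun h => hno.1 (by rw [Nat.sub_add_cancel (by omega)] at h; exact contained_of_hasCycle h))
    (by
      intro I hI
      by_contra hlt
      obtain ⟨J, hJ, hc⟩ := exists_subset_card_eq (s := I) (n := n) (by omega)
      refine hno.2 J ⟨?_, hc⟩
      intro u hu v hv huv
      exact ⟨huv, hI u (hJ hu) v (hJ hv)⟩)
  simp at this

theorem lower {m n N : ℕ} (hm : 2 ≤ m) (hn : 1 ≤ n) (hN : N ≤ (m - 1) * (n - 1)) :
    ∃ G : SimpleGraph (Fin N), ¬ (SimpleGraph.IsContained (SimpleGraph.cycleGraph m) G ∨
      SimpleGraph.IsContained (SimpleGraph.completeGraph (Fin n)) Gᶜ) := by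
  refine ⟨⟨fun x y => x ≠ y ∧ x.val / (m - 1) = y.val / (m - 1),
    ⟨fun _ _ h => ⟨h.1.symm, h.2.symm⟩⟩, ⟨fun _ h => h.1 rfl⟩⟩, ?_⟩
  rintro (⟨⟨f⟩⟩ | ⟨⟨f⟩⟩)
  · have h1 : ∀ i (hi : i < m), (f ⟨i, hi⟩).val / (m - 1) = (f ⟨0, by omega⟩).val / (m - 1) := by
      intro i
      induction i with
      | zero => intro _; rfl
      | succ i ih =>
        intro hi
        rw [← ih (by omega)]
        refine (f.toHom.map_adj (v := ⟨i + 1, hi⟩) (w := ⟨i, by omega⟩) ?_).2
        rw [SimpleGraph.cycleGraph_adj']
        left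
        rw [Fin.sub_val_of_le (by simp [Fin.le_def])]
        simp
    have := Fintype.card_le_of_injective
      (fun i : Fin m => (⟨(f i).val % (m - 1), Nat.mod_lt _ (by omega)⟩ : Fin (m - 1))) (by
        intro i j e
        apply f.injective
        apply Fin.ext
        have e1 : (f i).val % (m - 1) = (f j).val % (m - 1) := congrArg Fin.val e
        have e2 : (f i).val / (m - 1) = (f j).val / (m - 1) := (h1 i.1 i.2).trans (h1 j.1 j.2).symm
        show (f i).val = (f j).val
        rw [← Nat.div_add_mod (f i).val (m - 1), ← Nat.div_add_mod (f j).val (m - 1), e1, e2])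
    simp only [Fintype.card_fin] at this
    omega
  · have := Fintype.card_le_of_injective
      (fun i : Fin n => (⟨(f i).val / (m - 1), by
        rw [Nat.div_lt_iff_lt_mul (by omega), Nat.mul_comm]
        exact lt_of_lt_of_le (f i).2 hN⟩ : Fin (n - 1))) (by
        intro i j e
        by_contra hne
        have h := f.toHom.map_adj (v := i) (w := j) hne
        exact h.2 ⟨h.1, congrArg Fin.val e⟩)
    simp only [Fintype.card_fin] at this
    omega

theorem five : ¬ (SimpleGraph.IsContained (SimpleGraph.cycleGraph 3) (SimpleGraph.cycleGraph 5) ∨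
    SimpleGraph.IsContained (SimpleGraph.completeGraph (Fin 3)) (SimpleGraph.cycleGraph 5)ᶜ) := by
  rw [SimpleGraph.cycleGraph_three_eq_top]
  rintro (⟨⟨f⟩⟩ | ⟨⟨f⟩⟩)
  · have h1 := f.toHom.map_adj (v := 0) (w := 1) (by decide)
    have h2 := f.toHom.map_adj (v := 0) (w := 2) (by decide)
    have h3 := f.toHom.map_adj (v := 1) (w := 2) (by decide)
    generalize f.toHom 0 = a, f.toHom 1 = b, f.toHom 2 = c at h1 h2 h3
    revert a b c
    decide
  · have h1 := f.toHom.map_adj (v := 0) (w := 1) (by decide)
    have h2 := f.toHom.map_adj (v := 0) (w := 2) (by decide)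
    have h3 := f.toHom.map_adj (v := 1) (w := 2) (by decide)
    generalize f.toHom 0 = a, f.toHom 1 = b, f.toHom 2 = c at h1 h2 h3
    revert a b c
    decide

end Vale.Agent.P048
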