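import Vale.Agent.P048.Sys

namespace Vale.Agent.P048
open Finset

variable {V : Type} [DecidableEq V] {G : SimpleGraph V} {Q : Finset V}

def rep (σ : ℕ → V) (I : ℕ → List V) (r : ℕ) : V := (I r).headD (σ r)

def uset (Q : Finset V) (I : ℕ → List V) (t : ℕ) : Finset V :=
  Q ∪ (range t).biUnion (fun r => (I r).toFinset)

def NP (G : SimpleGraph V) (U : Finset V) (a b : V) (j : ℕ) : Prop :=
  ∀ w : List V, w.length = j → w.Nodup → (∀ x ∈ w, x ∉ U) →
    ¬ List.IsChain G.Adj (a :: (w ++ [b]))

def Forb (k t L q : ℕ) (z : ℕ → ℕ) (p p' j : ℕ) : Prop :=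
  ∃ z' : ℕ → ℕ, (∀ r, z' r = z r ∨ z' r = 0) ∧ z' p = z p ∧ z' p' = z p' ∧
    ∑ r ∈ range t, z' r + j + ess2 t z' p p' ≤ k + 1 ∧
    (L < ∑ r ∈ range t, z' r + j ∨ (L = ∑ r ∈ range t, z' r + j ∧ ess2 t z' p p' < q))

omit [DecidableEq V] in
theorem head_rep (σ : ℕ → V) (I : ℕ → List V) (r : ℕ) :
    ∃ l, I r ++ [σ r] = rep σ I r :: l := by
  unfold rep
  cases I r <;> simp

omit [DecidableEq V] in
theorem chain_rev {l : List V} (h : List.IsChain G.Adj l) : List.IsChain G.Adj l.reverse := by
  rw [List.isChain_reverse]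
  exact h.imp (fun _ _ h => h.symm)

theorem NP.symm {U : Finset V} {a b : V} {j : ℕ} (h : NP G U a b j) : NP G U b a j := by
  intro w h1 h2 h3 h4
  refine h w.reverse (by simpa using h1) (by simpa using h2) (by simpa using h3) ?_
  simpa using chain_rev h4

theorem NP.mono {U U' : Finset V} {a b : V} {j : ℕ} (h : NP G U a b j) (hU : U ⊆ U') :
    NP G U' a b j :=
  fun w h1 h2 h3 => h w h1 h2 (fun x hx h => h3 x hx (hU h))

variable {t : ℕ} {σ : ℕ → V} {I : ℕ → List V}

theorem Sys.mem_uset (h : Sys G Q t σ I) {x : V} : x ∈ uset Q I t ↔ x ∈ Q ∨ ∃ r, x ∈ I r := by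
  simp only [uset, mem_union, mem_biUnion, mem_range, List.mem_toFinset]
  refine or_congr_right ⟨fun ⟨r, _, h⟩ => ⟨r, h⟩, fun ⟨r, hr⟩ => ⟨r, ?_, hr⟩⟩
  by_contra hlt
  rw [h.it r (by omega)] at hr
  simp at hr

theorem card_uset (Q : Finset V) (I : ℕ → List V) (t : ℕ) :
    (uset Q I t).card ≤ Q.card + ∑ r ∈ range t, (I r).length :=
  (card_union_le _ _).trans (Nat.add_le_add_left
    (card_biUnion_le.trans (sum_le_sum (fun _ _ => List.toFinset_card_le _))) _)

omit [DecidableEq V] in
theorem Sys.tail (h : Sys G Q t σ I) {r : ℕ} (hr : r < t) :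
    List.IsChain G.Adj (I r ++ [σ r]) := by
  rcases r with _ | r
  · simp [h.i0]
  · exact (h.ch r hr).tail

omit [DecidableEq V] in
theorem Sys.drop (hQ : Clq G Q) (h : Sys G Q t σ I) (z : ℕ → ℕ) :
    Sys G Q t σ (fun r => if z r = 0 then [] else I r) where
  sq := h.sq
  inj := h.inj
  i0 := by simp [h.i0]
  it r hr := by simp [h.it r hr]
  ou r x hx := by
    split_ifs at hx
    · simp at hx
    · exact h.ou r x hx
  nd r := by
    split_ifs
    · simp
    · exact h.nd r
  dis r r' x hx hx' := by
    split_ifs at hx hx'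
    · simp at hx
    · simp at hx
    · simp at hx'
    · exact h.dis r r' x hx hx'
  ch r hr := by
    split_ifs
    · simpa using hQ _ (h.sq r (by omega)) _ (h.sq _ hr)
        (fun e => by have := h.inj r (by omega) _ hr e; omega)
    · exact h.ch r hr

omit [DecidableEq V] in
theorem Sys.rev (h : Sys G Q t σ I) :
    Sys G Q t (fun r => σ (t - 1 - r)) (fun r => (I (t - r)).reverse) where
  sq r hr := h.sq _ (by omega)
  inj r hr r' hr' e := by have := h.inj _ (by omega) _ (by omega) e; omega
  i0 := by simp [h.it t le_rfl]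
  it r hr := by simp [Nat.sub_eq_zero_of_le hr, h.i0]
  ou r x hx := h.ou _ x (by simpa using hx)
  nd r := by simpa using h.nd _
  dis r r' x hx hx' := by
    rw [List.mem_reverse] at hx hx'
    have := h.dis _ _ x hx hx'
    have h0 : t - r ≠ 0 := by
      intro e
      rw [e, h.i0] at hx
      simp at hx
    omega
  ch r hr := by
    have := chain_rev (h.ch (t - 1 - (r + 1)) (by omega))
    rw [show t - 1 - (r + 1) + 1 = t - (r + 1) by omega] at this
    rw [show t - 1 - r = t - (r + 1) by omega]
    simpa using this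

omit [DecidableEq V] in
theorem Sys.rev_sum (h : Sys G Q t σ I) :
    ∑ r ∈ range t, ((I (t - r)).reverse).length = ∑ r ∈ range t, (I r).length := by
  have h1 := sum_range_reflect (fun r => (I r).length) (t + 1)
  rw [sum_range_succ, sum_range_succ] at h1
  simp only [Nat.add_sub_cancel, Nat.sub_self, h.i0, h.it t le_rfl, List.length_nil] at h1
  simpa using h1

theorem Sys.relink (hQ : Clq G Q) (h : Sys G Q t σ I) {p p' : ℕ} (hpp : p < p') (hp' : p' < t)
    {w : List V} (hw : w.Nodup) (hwU : ∀ x ∈ w, x ∉ uset Q I t)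
    (hch : List.IsChain G.Adj (rep σ I p :: (w ++ [rep σ I p']))) :
    ∃ σ' I', Sys G Q t σ' I' ∧
      ∑ r ∈ range t, (I' r).length = ∑ r ∈ range t, (I r).length + w.length ∧
      ess t (fun r => (I' r).length) ≤ ess2 t (fun r => (I r).length) p p' := by
  have hwQ : ∀ x ∈ w, x ∉ Q := fun x hx hq => hwU x hx (h.mem_uset.2 (Or.inl hq))
  have hwI : ∀ x ∈ w, ∀ r, x ∉ I r := fun x hx r hq => hwU x hx (h.mem_uset.2 (Or.inr ⟨r, hq⟩))
  let I' : ℕ → List V := fun r => if r < p then I r else if r = p then [] else
    if r < p' then (I (p + p' - r)).reverse else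
    if r = p' then (I p).reverse ++ (w ++ I p') else I r
  have hmem : ∀ r, ∀ x ∈ I' r, (x ∈ w ∧ r = p') ∨ ∃ s, x ∈ I s ∧
      r = if s < p then s else if s = p then p' else if s < p' then p + p' - s else s := by
    intro r x hx
    simp only [I'] at hx
    split_ifs at hx with c1 c2 c3 c4
    · exact Or.inr ⟨r, hx, by rw [if_pos c1]⟩
    · simp at hx
    · exact Or.inr ⟨_, List.mem_reverse.1 hx, by split_ifs <;> omega⟩
    · simp only [List.mem_append, List.mem_reverse] at hx
      rcases hx with hx | hx | hx
      · exact Or.inr ⟨_, hx, by split_ifs <;> omega⟩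
      · exact Or.inl ⟨hx, c4⟩
      · exact Or.inr ⟨_, hx, by split_ifs <;> omega⟩
    · exact Or.inr ⟨_, hx, by split_ifs <;> omega⟩
  refine ⟨fun r => σ (if p ≤ r ∧ r < p' then p + p' - 1 - r else r), I',
    ⟨?_, ?_, ?_, ?_, ?_, ?_, ?_, ?_⟩, ?_, ?_⟩
  · intro r hr
    exact h.sq _ (by split_ifs <;> omega)
  · intro r hr r' hr' e
    have := h.inj _ (by split_ifs <;> omega) _ (by split_ifs <;> omega) e
    split_ifs at this <;> omega
  · simp only [I']
    split_ifs <;> first | rfl | exact h.i0 | omega
  · intro r hr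
    simp only [I']
    rw [if_neg (by omega), if_neg (by omega), if_neg (by omega), if_neg (by omega)]
    exact h.it r hr
  · intro r x hx
    rcases hmem r x hx with ⟨h1, -⟩ | ⟨s, h1, -⟩
    · exact hwQ x h1
    · exact h.ou s x h1
  · intro r
    simp only [I']
    split_ifs
    · exact h.nd r
    · simp
    · simpa using h.nd _
    · rw [List.nodup_append, List.nodup_append]
      refine ⟨by simpa using h.nd _, ⟨hw, h.nd _, ?_⟩, ?_⟩
      · rintro a ha b hb rfl
        exact hwI a ha _ hb
      · rintro a ha b hb rfl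
        rw [List.mem_reverse] at ha
        rcases List.mem_append.1 hb with hb | hb
        · exact hwI a hb _ ha
        · have := h.dis _ _ a ha hb; omega
    · exact h.nd r
  · intro r r' x hx hx'
    rcases hmem r x hx with ⟨h1, h2⟩ | ⟨s, h1, h2⟩ <;>
      rcases hmem r' x hx' with ⟨h3, h4⟩ | ⟨s', h3, h4⟩
    · omega
    · exact absurd h3 (hwI x h1 _)
    · exact absurd h1 (hwI x h3 _)
    · rw [h2, h4, h.dis _ _ x h1 h3]
  · intro r hr
    have tr : ∀ a b l, (if p ≤ r ∧ r < p' then p + p' - 1 - r else r) = a →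
        (if p ≤ r + 1 ∧ r + 1 < p' then p + p' - 1 - (r + 1) else r + 1) = b → I' (r + 1) = l →
        List.IsChain G.Adj (σ a :: (l ++ [σ b])) →
        List.IsChain G.Adj (σ (if p ≤ r ∧ r < p' then p + p' - 1 - r else r) :: (I' (r + 1) ++
          [σ (if p ≤ r + 1 ∧ r + 1 < p' then p + p' - 1 - (r + 1) else r + 1)])) := by
      intro a b l e1 e2 e3 h
      rw [e1, e2, e3]; exact h
    by_cases c1 : r + 1 < p
    · exact tr r (r + 1) (I (r + 1)) (by split_ifs <;> omega) (by split_ifs <;> omega)
        (by simp only [I']; rw [if_pos c1]) (h.ch r hr)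
    by_cases c2 : r + 1 = p
    · refine tr r (p' - 1) [] (by split_ifs <;> omega) (by split_ifs <;> omega)
        (by simp only [I']; rw [if_neg c1, if_pos c2]) ?_
      simpa using hQ _ (h.sq r (by omega)) _ (h.sq (p' - 1) (by omega))
        (fun e => by have := h.inj r (by omega) _ (by omega) e; omega)
    by_cases c3 : r + 1 < p'
    · refine tr (p + p' - (r + 1)) (p + p' - 1 - (r + 1)) (I (p + p' - (r + 1))).reverse
        (by split_ifs <;> omega) (by split_ifs <;> omega)
        (by simp only [I']; rw [if_neg c1, if_neg c2, if_pos c3]) ?_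
      have := chain_rev (h.ch (p + p' - 1 - (r + 1)) (by omega))
      rw [show p + p' - 1 - (r + 1) + 1 = p + p' - (r + 1) by omega] at this
      simpa using this
    by_cases c4 : r + 1 = p'
    · refine tr p p' ((I p).reverse ++ (w ++ I p')) (by split_ifs <;> omega) (by split_ifs <;> omega)
        (by simp only [I']; rw [if_neg c1, if_neg c2, if_neg c3, if_pos c4]) ?_
      obtain ⟨l1, e1⟩ := head_rep σ I p
      obtain ⟨l2, e2⟩ := head_rep σ I p'
      have a1 := chain_rev (h.tail (r := p) (by omega))
      have a2 := h.tail hp'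
      have e3 : σ p :: (I p).reverse = l1.reverse ++ [rep σ I p] := by
        have := congrArg List.reverse e1
        simpa using this
      have e4 : σ p :: ((I p).reverse ++ (w ++ I p') ++ [σ p']) =
          l1.reverse ++ rep σ I p :: (w ++ rep σ I p' :: l2) := by
        rw [← e2, List.append_cons l1.reverse, ← e3]
        simp
      rw [e4, List.isChain_split, List.isChain_cons_split]
      rw [e2] at a2
      refine ⟨?_, hch, a2⟩
      rw [← e3]
      simpa using a1
    · exact tr r (r + 1) (I (r + 1)) (by split_ifs <;> omega) (by split_ifs <;> omega)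
        (by simp only [I']; rw [if_neg c1, if_neg c2, if_neg c3, if_neg c4]) (h.ch r hr)
  · have e1 : ∑ r ∈ range t, (I (if p < r ∧ r < p' then p + p' - r else r)).length =
        ∑ r ∈ range t, (I r).length := by
      refine sum_nbij' (fun r => if p < r ∧ r < p' then p + p' - r else r)
        (fun r => if p < r ∧ r < p' then p + p' - r else r) ?_ ?_ ?_ ?_ (fun _ _ => rfl)
      · intro r hr
        simp only [mem_range] at hr ⊢
        split_ifs <;> omega
      · intro r hr
        simp only [mem_range] at hr ⊢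
        split_ifs <;> omega
      · intro r _
        split_ifs <;> omega
      · intro r _
        split_ifs <;> omega
    have e2 : ∑ r ∈ range t, ((I' r).length + if r = p then (I p).length else 0) =
        ∑ r ∈ range t, ((I (if p < r ∧ r < p' then p + p' - r else r)).length +
          if r = p' then (I p).length + w.length else 0) := by
      refine sum_congr rfl (fun r _ => ?_)
      simp only [I']
      split_ifs <;> first | omega | (subst_vars; simp; done) | (subst_vars; simp; omega)
    rw [sum_add_distrib, sum_add_distrib, e1, sum_ite_eq', sum_ite_eq',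
      if_pos (mem_range.2 (by omega)), if_pos (mem_range.2 hp')] at e2
    omega
  · refine card_le_card_of_injOn (fun r => if p ≤ r ∧ r < p' then p + p' - 1 - r else r) ?_ ?_
    · intro r hr
      simp only [coe_filter, mem_range, Set.mem_setOf_eq, I'] at hr ⊢
      refine ⟨by split_ifs <;> omega, ?_⟩
      by_cases c1 : r < p
      · rw [if_neg (by omega)]
        rw [if_pos c1] at hr
        by_cases c2 : r + 1 < p
        · rw [if_pos c2] at hr
          omega
        · rw [if_neg c2, if_pos (by omega)] at hr
          simp only [List.length_nil] at hr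
          omega
      by_cases c2 : r < p'
      · rw [if_pos (by omega)]
        by_cases c3 : r + 1 = p'
        · omega
        rw [if_neg c1, if_neg (show ¬ r + 1 < p by omega), if_neg (show ¬ r + 1 = p by omega),
          if_pos (show r + 1 < p' by omega), if_pos c2] at hr
        rw [show p + p' - 1 - r + 1 = p + p' - r by omega,
          show p + p' - 1 - r = p + p' - (r + 1) by omega]
        split_ifs at hr
        · simp only [List.length_nil, List.length_reverse] at hr
          omega
        · simp only [List.length_reverse] at hr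
          omega
      · rw [if_neg (by omega)]
        by_cases c3 : r = p'
        · omega
        rw [if_neg c1, if_neg (by omega), if_neg c2, if_neg c3, if_neg (by omega),
          if_neg (by omega), if_neg (by omega), if_neg (by omega)] at hr
        omega
    · intro r hr r' hr' e
      beta_reduce at e
      split_ifs at e <;> omega

theorem Sys.np_of_forb (hQ : Clq G Q) (h : Sys G Q t σ I) {k L q p p' j : ℕ} (hO : Opt G Q k L q)
    (hpp : p < p') (hp' : p' < t) (hj : 1 ≤ j) (hF : Forb k t L q (fun r => (I r).length) p p' j) :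
    NP G (uset Q I t) (rep σ I p) (rep σ I p') j := by
  intro w h1 h2 h3 h4
  obtain ⟨z, z1, z2, z3, z4, z5⟩ := hF
  have hS := h.drop hQ z
  have hz : (fun r => (if z r = 0 then [] else I r).length) = z := by
    funext r
    split_ifs with c
    · simp [c]
    · rcases z1 r with e | e
      · exact e.symm
      · exact absurd e c
  have hrep : ∀ r, z r = (I r).length → rep σ (fun r => if z r = 0 then [] else I r) r = rep σ I r := by
    intro r hr
    simp only [rep]
    split_ifs with c
    · rw [List.length_eq_zero_iff.1 (hr.symm.trans c)]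
    · rfl
  obtain ⟨σ', I', hS', e1, e2⟩ := hS.relink hQ hpp hp' h2 (by
    intro x hx hU
    apply h3 x hx
    rw [hS.mem_uset] at hU
    rw [h.mem_uset]
    refine hU.imp id (fun ⟨r, hr⟩ => ⟨r, ?_⟩)
    split_ifs at hr
    · simp at hr
    · exact hr) (by rw [hrep p z2, hrep p' z3]; exact h4)
  have hz' : ∑ r ∈ range t, (if z r = 0 then [] else I r).length = ∑ r ∈ range t, z r :=
    sum_congr rfl (fun r _ => congrFun hz r)
  rw [hz] at e2
  rw [hz'] at e1
  obtain ⟨P, hP, p1, p2⟩ := hS'.qpath hQ (by omega)
  have hio := inn_add_out Q P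
  have := hO P hP (by omega)
  omega

theorem ess2_le (t : ℕ) (z : ℕ → ℕ) (p p' : ℕ) : ess2 t z p p' ≤ t :=
  (card_filter_le _ _).trans (by simp)

theorem forb_one {k t q : ℕ} {z : ℕ → ℕ} (h : ∑ r ∈ range t, z r + t ≤ k) (p p' : ℕ) :
    Forb k t (∑ r ∈ range t, z r) q z p p' 1 :=
  ⟨z, fun _ => Or.inl rfl, rfl, rfl, by have := ess2_le t z p p'; omega, Or.inl (by omega)⟩

end Vale.Agent.P048
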