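import Vale.Agent.P048.Basic

namespace Vale.Agent.P048
open Finset

variable {V : Type} [DecidableEq V]

structure Ctx [Fintype V] (G : SimpleGraph V) (k t : ℕ) (Q : Finset V) : Prop where
  nocyc : ¬ HasCycle G (k + 1)
  ind : ∀ I : Finset V, Ind G I → I.card ≤ k
  deg : ∀ v, k ≤ (nb G v).card
  cl : ∀ S : Finset V, Clq G S → S.card ≤ t
  qcl : Clq G Q
  qcard : Q.card = t

structure QPath (G : SimpleGraph V) (Q : Finset V) (P : List V) : Prop where
  ne : P ≠ []
  nd : P.Nodup
  ch : List.IsChain G.Adj P
  hd : ∀ x ∈ P.head?, x ∈ Q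
  la : ∀ x ∈ P.getLast?, x ∈ Q

def inn (Q : Finset V) (P : List V) : ℕ := P.countP (fun x => x ∈ Q)

def out (Q : Finset V) (P : List V) : ℕ := P.countP (fun x => x ∉ Q)

theorem inn_add_out (Q : Finset V) (P : List V) : inn Q P + out Q P = P.length := by
  rw [List.length_eq_countP_add_countP (fun x => decide (x ∈ Q))]
  simp [inn, out]

@[simp] theorem inn_nil (Q : Finset V) : inn Q [] = 0 := rfl
@[simp] theorem out_nil (Q : Finset V) : out Q [] = 0 := rfl
@[simp] theorem inn_append (Q : Finset V) (P R : List V) : inn Q (P ++ R) = inn Q P + inn Q R := by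
  simp [inn]
@[simp] theorem out_append (Q : Finset V) (P R : List V) : out Q (P ++ R) = out Q P + out Q R := by
  simp [out]
theorem inn_cons (Q : Finset V) (x : V) (P : List V) :
    inn Q (x :: P) = inn Q P + if x ∈ Q then 1 else 0 := by
  simp [inn, List.countP_cons]
theorem out_cons (Q : Finset V) (x : V) (P : List V) :
    out Q (x :: P) = out Q P + if x ∈ Q then 0 else 1 := by
  simp only [out, List.countP_cons]
  by_cases h : x ∈ Q <;> simp [h]
theorem inn_eq_zero {Q : Finset V} {P : List V} (h : ∀ x ∈ P, x ∉ Q) : inn Q P = 0 := by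
  simpa [inn] using h
theorem out_eq_length {Q : Finset V} {P : List V} (h : ∀ x ∈ P, x ∉ Q) : out Q P = P.length := by
  have := inn_add_out Q P
  rw [inn_eq_zero h] at this
  omega

variable {G : SimpleGraph V} {Q : Finset V}

theorem exists_fresh {P : List V} (h : inn Q P < Q.card) : ∃ x ∈ Q, x ∉ P := by
  by_contra hno
  push Not at hno
  have : Q ⊆ (P.filter (fun x => x ∈ Q)).toFinset := by
    intro x hx
    simp [hx, hno x hx]
  have h2 := (card_le_card this).trans (List.toFinset_card_le _)
  rw [← List.countP_eq_length_filter] at h2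
  exact absurd h (not_lt.2 h2)

theorem QPath.cycle (hQ : Clq G Q) : ∀ (n : ℕ) {P : List V}, QPath G Q P → inn Q P + n ≤ Q.card →
    2 ≤ P.length + n → HasCycle G (P.length + n) := by
  intro n
  induction n with
  | zero =>
    intro P hP _ h2
    match P, hP, h2 with
    | x :: y :: l, hP, _ =>
      refine hasCycle_of_list (l := y :: l) hP.nd ?_
      rw [← List.cons_append, List.isChain_append]
      refine ⟨hP.ch, by simp, ?_⟩
      intro z hz w hw
      simp only [List.head?_cons, Option.mem_def, Option.some.injEq] at hw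
      subst hw
      refine hQ _ (hP.la z hz) _ (hP.hd _ (by simp)) ?_
      rintro rfl
      rw [List.getLast?_cons_cons] at hz
      exact (List.nodup_cons.1 hP.nd).1 (List.mem_of_mem_getLast? hz)
  | succ n ih =>
    intro P hP h1 h2
    obtain ⟨x, hx, hxP⟩ := exists_fresh (Q := Q) (P := P) (by omega)
    have := ih (P := x :: P) ⟨by simp, List.nodup_cons.2 ⟨hxP, hP.nd⟩, ?_, by simpa using hx, ?_⟩
      (by rw [inn_cons, if_pos hx]; omega) (by simp; omega)
    · rwa [List.length_cons, Nat.add_right_comm, Nat.add_assoc] at this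
    · refine hP.ch.cons (fun y hy => hQ _ hx _ (hP.hd y hy) ?_)
      rintro rfl
      exact hxP (List.mem_of_mem_head? hy)
    · intro y hy
      obtain ⟨a, l, rfl⟩ := List.exists_cons_of_ne_nil hP.ne
      rw [List.getLast?_cons_cons] at hy
      exact hP.la y hy

structure Sys (G : SimpleGraph V) (Q : Finset V) (n : ℕ) (σ : ℕ → V) (I : ℕ → List V) : Prop where
  sq : ∀ r < n, σ r ∈ Q
  inj : ∀ r < n, ∀ r' < n, σ r = σ r' → r = r'
  i0 : I 0 = []
  it : ∀ r, n ≤ r → I r = []
  ou : ∀ r, ∀ x ∈ I r, x ∉ Q
  nd : ∀ r, (I r).Nodup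
  dis : ∀ r r', ∀ x ∈ I r, x ∈ I r' → r = r'
  ch : ∀ r, r + 1 < n → List.IsChain G.Adj (σ r :: (I (r + 1) ++ [σ (r + 1)]))

def ess (t : ℕ) (z : ℕ → ℕ) : ℕ := ((range t).filter (fun r => 0 < z r ∨ 0 < z (r + 1))).card

def ess2 (t : ℕ) (z : ℕ → ℕ) (p p' : ℕ) : ℕ :=
  ((range t).filter (fun r => r = p ∨ r = p' ∨ 0 < z r ∨
    (0 < z (r + 1) ∧ r + 1 ≠ p ∧ r + 1 ≠ p'))).card

def Opt (G : SimpleGraph V) (Q : Finset V) (k L q : ℕ) : Prop :=
  ∀ P, QPath G Q P → P.length ≤ k + 1 → out Q P ≤ L ∧ (out Q P = L → q ≤ inn Q P)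

theorem sys_of_list : ∀ (P : List V), P ≠ [] → P.Nodup → List.IsChain G.Adj P →
    (∀ x ∈ P.getLast?, x ∈ Q) → ∃ (σ : ℕ → V) (I : ℕ → List V), 0 < inn Q P ∧
      (∀ r < inn Q P, σ r ∈ Q ∧ σ r ∈ P) ∧
      (∀ r < inn Q P, ∀ r' < inn Q P, σ r = σ r' → r = r') ∧ (∀ r, inn Q P ≤ r → I r = []) ∧
      (∀ r, ∀ x ∈ I r, x ∉ Q ∧ x ∈ P) ∧ (∀ r, (I r).Nodup) ∧
      (∀ r r', ∀ x ∈ I r, x ∈ I r' → r = r') ∧
      (∀ r, r + 1 < inn Q P → List.IsChain G.Adj (σ r :: (I (r + 1) ++ [σ (r + 1)]))) ∧
      List.IsChain G.Adj (I 0 ++ [σ 0]) ∧ (I 0 ++ [σ 0]).head? = P.head? ∧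
      ∑ r ∈ range (inn Q P), (I r).length = out Q P
  | [], h, _, _, _ => absurd rfl h
  | [x], _, _, _, hl => by
    have hx : x ∈ Q := hl x (by simp)
    refine ⟨fun _ => x, fun _ => [], ?_⟩
    simp [inn_cons, out_cons, hx]
  | x :: y :: l, _, hn, hc, hl => by
    obtain ⟨σ, I, h0, h1, h2, h3, h4, h5, h6, h7, h8, h9, h10⟩ := sys_of_list (y :: l) (by simp)
      (List.nodup_cons.1 hn).2 hc.tail (by simpa [List.getLast?_cons_cons] using hl)
    have hx := (List.nodup_cons.1 hn).1
    have hch : List.IsChain G.Adj (x :: (I 0 ++ [σ 0])) := by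
      refine h8.cons (fun z hz => ?_)
      rw [h9] at hz
      exact hc.rel_head? hz
    generalize y :: l = P at *
    rw [inn_cons, out_cons]
    by_cases hxQ : x ∈ Q
    · rw [if_pos hxQ, if_pos hxQ]
      refine ⟨fun r => Nat.casesOn r x σ, fun r => Nat.casesOn r [] I, by omega, ?_, ?_, ?_, ?_, ?_,
        ?_, ?_, by simp, by simp, ?_⟩
      · rintro (_ | r) hr
        · simp [hxQ]
        · have := h1 r (by omega)
          simp [this]
      · rintro (_ | r) hr (_ | r') hr' e
        · rfl
        · exact absurd ((show x = σ r' from e) ▸ (h1 r' (by omega)).2) hx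
        · exact absurd ((show σ r = x from e) ▸ (h1 r (by omega)).2) hx
        · rw [h2 r (by omega) r' (by omega) e]
      · rintro (_ | r) hr
        · rfl
        · exact h3 r (by omega)
      · rintro (_ | r) z hz
        · simp at hz
        · have := h4 r z hz
          simp [this]
      · rintro (_ | r)
        · simp
        · exact h5 r
      · rintro (_ | r) (_ | r') z hz hz'
        · rfl
        · simp at hz
        · simp at hz'
        · rw [h6 r r' z hz hz']
      · rintro (_ | r) hr
        · exact hch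
        · exact h7 r (by omega)
      · rw [sum_range_succ']
        simpa using h10
    · rw [if_neg hxQ, if_neg hxQ, Nat.add_zero]
      refine ⟨σ, fun r => Nat.casesOn r (x :: I 0) (fun r => I (r + 1)), h0, ?_, h2, ?_, ?_, ?_,
        ?_, h7, (by simpa using hch), by simp, ?_⟩
      · intro r hr
        have := h1 r hr
        simp [this]
      · rintro (_ | r) hr
        · omega
        · exact h3 _ hr
      · rintro (_ | r) z hz
        · rcases List.mem_cons.1 hz with rfl | hz
          · simp [hxQ]
          · have := h4 _ z hz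
            simp [this]
        · have := h4 _ z hz
          simp [this]
      · rintro (_ | r)
        · exact List.nodup_cons.2 ⟨fun h => hx (h4 _ _ h).2, h5 0⟩
        · exact h5 _
      · rintro (_ | r) (_ | r') z hz hz'
        · rfl
        · rcases List.mem_cons.1 hz with rfl | hz
          · exact absurd (h4 _ _ hz').2 hx
          · exact h6 _ _ z hz hz'
        · rcases List.mem_cons.1 hz' with rfl | hz'
          · exact absurd (h4 _ _ hz).2 hx
          · exact h6 _ _ z hz hz'
        · exact h6 _ _ z hz hz'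
      · obtain ⟨n, hn⟩ : ∃ n, inn Q P = n + 1 := ⟨inn Q P - 1, by omega⟩
        rw [hn] at h10 ⊢
        rw [sum_range_succ'] at h10 ⊢
        show _ + (x :: I 0).length = _
        simp only [List.length_cons]
        omega

theorem Sys.extend (hQ : Clq G Q) {n : ℕ} {σ : ℕ → V} {I : ℕ → List V} (h : Sys G Q n σ I)
    (hn : n < Q.card) : ∃ σ', Sys G Q (n + 1) σ' I := by
  have : ∃ x ∈ Q, x ∉ (range n).image σ := by
    apply exists_mem_notMem_of_card_lt_card
    exact lt_of_le_of_lt (card_image_le.trans (by simp)) hn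
  obtain ⟨x, hx, hx'⟩ := this
  have hne : ∀ r < n, σ r ≠ x := fun r hr e => hx' (mem_image.2 ⟨r, mem_range.2 hr, e⟩)
  refine ⟨fun r => if r < n then σ r else x, ?_, ?_, h.i0, fun r hr => h.it r (by omega), h.ou, h.nd,
    h.dis, ?_⟩
  · intro r _
    split_ifs with h1
    · exact h.sq r h1
    · exact hx
  · intro r hr r' hr' e
    split_ifs at e with h1 h2 h2
    · exact h.inj r h1 r' h2 e
    · exact absurd e (hne r h1)
    · exact absurd e.symm (hne r' h2)
    · omega
  · intro r hr
    rw [if_pos (by omega)]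
    split_ifs with h1
    · exact h.ch r h1
    · rw [h.it _ (by omega)]
      simpa using hQ _ (h.sq r (by omega)) _ hx (hne r (by omega))

theorem Sys.qpath (hQ : Clq G Q) {t : ℕ} {σ : ℕ → V} {I : ℕ → List V} (h : Sys G Q t σ I)
    (hpos : 0 < ∑ r ∈ range t, (I r).length) : ∃ P, QPath G Q P ∧
      out Q P = ∑ r ∈ range t, (I r).length ∧ inn Q P = ess t (fun r => (I r).length) := by
  have key : ∀ n ≤ t, ∃ P : List V, P.Nodup ∧ List.IsChain G.Adj P ∧ (∀ x ∈ P.head?, x ∈ Q) ∧
      (∀ x ∈ P.getLast?, ∃ r < n, x = σ r) ∧ (I n ≠ [] → P.getLast? = some (σ (n - 1))) ∧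
      (∀ x ∈ P, ∃ r < n, x ∈ I r ∨ x = σ r) ∧ out Q P = ∑ r ∈ range n, (I r).length ∧
      inn Q P = ess n (fun r => (I r).length) := by
    intro n
    induction n with
    | zero => intro _; exact ⟨[], by simp [h.i0, ess]⟩
    | succ n ih =>
      intro hn
      obtain ⟨P, h1, h2, h3, h4, h5, h6, h7, h8⟩ := ih (by omega)
      have hs := h.sq n (by omega)
      by_cases hk : 0 < (I n).length ∨ 0 < (I (n + 1)).length
      · have hch : List.IsChain G.Adj (I n ++ [σ n]) ∧
            ∀ x ∈ P.getLast?, ∀ y ∈ (I n ++ [σ n]).head?, G.Adj x y := by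
          by_cases hI : I n = []
          · rw [hI]
            refine ⟨by simp, fun x hx y hy => ?_⟩
            obtain ⟨r, hr, rfl⟩ := h4 x hx
            simp only [List.nil_append, List.head?_cons, Option.mem_def, Option.some.injEq] at hy
            subst hy
            exact hQ _ (h.sq r (by omega)) _ hs
              (fun e => by have := h.inj r (by omega) n (by omega) e; omega)
          · have hn0 : n ≠ 0 := by rintro rfl; exact hI h.i0
            have := h.ch (n - 1) (by omega)
            rw [Nat.sub_add_cancel (by omega), List.isChain_cons] at this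
            refine ⟨this.2, fun x hx y hy => ?_⟩
            rw [h5 hI] at hx
            simp only [Option.mem_def, Option.some.injEq] at hx
            subst hx
            exact this.1 y hy
        refine ⟨P ++ (I n ++ [σ n]), ?_, h2.append hch.1 hch.2, ?_, ?_, ?_, ?_, ?_, ?_⟩
        · rw [List.nodup_append]
          refine ⟨h1, ?_, ?_⟩
          · rw [List.nodup_append]
            refine ⟨h.nd n, by simp, fun a ha b hb => ?_⟩
            rw [List.mem_singleton.1 hb]
            rintro rfl
            exact h.ou n _ ha hs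
          · intro a ha b hb
            rintro rfl
            obtain ⟨r, hr, h'⟩ := h6 a ha
            rcases List.mem_append.1 hb with hb | hb <;> rcases h' with h' | h'
            · have := h.dis _ _ _ h' hb; omega
            · exact h.ou n _ hb (h' ▸ h.sq r (by omega))
            · exact h.ou r _ h' (List.mem_singleton.1 hb ▸ hs)
            · have := h.inj r (by omega) n (by omega) (h'.symm.trans (List.mem_singleton.1 hb))
              omega
        · intro x hx
          by_cases hP : P = []
          · have hI : I n = [] := by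
              by_contra hI
              have := h5 hI
              simp [hP] at this
            simp only [hP, hI, List.nil_append, List.head?_cons, Option.mem_def,
              Option.some.injEq] at hx
            exact hx ▸ hs
          · obtain ⟨a, l, rfl⟩ := List.exists_cons_of_ne_nil hP
            exact h3 x (by simpa using hx)
        · intro x hx
          rw [← List.append_assoc, List.getLast?_concat] at hx
          exact ⟨n, by omega, by simpa using hx.symm⟩
        · intro _
          rw [← List.append_assoc, List.getLast?_concat]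
          simp
        · intro x hx
          rcases List.mem_append.1 hx with hx | hx
          · obtain ⟨r, hr, h'⟩ := h6 x hx
            exact ⟨r, by omega, h'⟩
          · exact ⟨n, by omega, by simpa using hx⟩
        · rw [sum_range_succ, out_append, out_append, h7, out_eq_length (h.ou n), out_cons, if_pos hs]
          simp
        · rw [inn_append, inn_append, h8, inn_eq_zero (h.ou n), inn_cons, if_pos hs]
          simp only [ess]
          rw [range_add_one, filter_insert, if_pos hk, card_insert_of_notMem (by simp)]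
          simp
      · refine ⟨P, h1, h2, h3, ?_, ?_, ?_, ?_, ?_⟩
        · intro x hx
          obtain ⟨r, hr, h'⟩ := h4 x hx
          exact ⟨r, by omega, h'⟩
        · intro hI
          exact absurd (Or.inr (List.length_pos_iff.2 hI)) hk
        · intro x hx
          obtain ⟨r, hr, h'⟩ := h6 x hx
          exact ⟨r, by omega, h'⟩
        · rw [sum_range_succ, h7]; omega
        · rw [h8]
          simp only [ess]
          rw [range_add_one, filter_insert, if_neg hk]
  obtain ⟨P, h1, h2, h3, h4, -, -, h7, h8⟩ := key t le_rfl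
  refine ⟨P, ⟨?_, h1, h2, h3, fun x hx => ?_⟩, h7, h8⟩
  · rintro rfl
    rw [← h7] at hpos
    simp at hpos
  · obtain ⟨r, hr, rfl⟩ := h4 x hx
    exact h.sq r hr

theorem exists_sys [Fintype V] {k t : ℕ} (hC : Ctx G k t Q) (ht : 1 ≤ t) (htk : t ≤ k) :
    ∃ σ I, Sys G Q t σ I ∧
      Opt G Q k (∑ r ∈ range t, (I r).length) (ess t (fun r => (I r).length)) ∧
      ∑ r ∈ range t, (I r).length + t ≤ k ∧
      ∀ r, ess t (fun r => (I r).length) ≤ r → (I r).length = 0 := by
  classical
  obtain ⟨x, hx⟩ := card_pos.1 (show 0 < Q.card by rw [hC.qcard]; omega)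
  obtain ⟨L, hL, hmax⟩ := exists_max_image ((range (k + 2)).filter
    (fun L => ∃ P, QPath G Q P ∧ P.length ≤ k + 1 ∧ out Q P = L)) id
    ⟨0, mem_filter.2 ⟨by simp, [x], ⟨by simp, by simp, by simp, by simpa using hx, by simpa using hx⟩,
      by simp, by simp [out_cons, hx]⟩⟩
  have hex : ∃ q, ∃ P, QPath G Q P ∧ P.length ≤ k + 1 ∧ out Q P = L ∧ inn Q P = q := by
    obtain ⟨P, h1, h2, h3⟩ := (mem_filter.1 hL).2
    exact ⟨_, P, h1, h2, h3, rfl⟩
  obtain ⟨P, hP, hlen, hout, hinn⟩ := Nat.find_spec hex
  obtain ⟨σ, I, h0, h1, h2, h3, h4, h5, h6, h7, h8, h9, h10⟩ := sys_of_list P hP.ne hP.nd hP.ch hP.la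
  have hi0 : I 0 = [] := by
    by_contra hne
    obtain ⟨a, l, e⟩ := List.exists_cons_of_ne_nil hne
    have := hP.hd a (by rw [← h9, e]; simp)
    exact (h4 0 a (by rw [e]; simp)).1 this
  have hS : Sys G Q (inn Q P) σ I :=
    ⟨fun r hr => (h1 r hr).1, h2, hi0, h3, fun r x hx => (h4 r x hx).1, h5, h6, h7⟩
  have hle : inn Q P ≤ t := by
    rw [← hC.qcard]
    have := card_le_card_of_injOn (s := range (inn Q P)) (t := Q) σ
      (fun i hi => hS.sq i (by simpa using hi))
      (fun i hi j hj e => hS.inj i (by simpa using hi) j (by simpa using hj) e)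
    simpa using this
  have hext : ∀ n, inn Q P ≤ n → n ≤ t → ∃ σ', Sys G Q n σ' I := by
    intro n hn
    induction hn with
    | refl => exact fun _ => ⟨σ, hS⟩
    | step _ ih =>
      intro h
      obtain ⟨σ', h'⟩ := ih (by omega)
      exact h'.extend hC.qcl (by rw [hC.qcard]; omega)
  obtain ⟨σ', hS'⟩ := hext t hle le_rfl
  have hsum : ∑ r ∈ range t, (I r).length = L := by
    rw [← hout, ← h10]
    symm
    refine sum_subset (range_subset_range.2 hle) (fun r _ hr => ?_)
    rw [h3 r (by simpa using hr)]; rfl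
  have hess : ess t (fun r => (I r).length) ≤ inn Q P := by
    refine le_trans (card_le_card (t := range (inn Q P)) ?_) (by simp)
    intro r hr
    rw [mem_range]
    by_contra hlt
    have := (mem_filter.1 hr).2
    beta_reduce at this
    rw [h3 r (by omega), h3 (r + 1) (by omega)] at this
    simp at this
  refine ⟨σ', I, hS', ?_, ?_, ?_⟩
  · rw [hsum]
    intro P' hP' hl'
    have hio := inn_add_out Q P'
    refine ⟨hmax (out Q P') (mem_filter.2 ⟨mem_range.2 (by omega), P', hP', hl', rfl⟩), fun e => ?_⟩
    have := Nat.find_min' hex ⟨P', hP', hl', e, rfl⟩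
    omega
  · rw [hsum]
    by_contra hlt
    apply hC.nocyc
    have hio := inn_add_out Q P
    have := QPath.cycle hC.qcl (k + 1 - P.length) hP (by rw [hC.qcard]; omega) (by omega)
    rwa [show P.length + (k + 1 - P.length) = k + 1 by omega] at this
  · intro r hr
    rcases Nat.eq_zero_or_pos (∑ r ∈ range t, (I r).length) with c | c
    · by_cases hrt : r < t
      · exact sum_eq_zero_iff.1 c r (mem_range.2 hrt)
      · rw [hS'.it r (by omega)]; rfl
    · obtain ⟨P', hP', p1, p2⟩ := hS'.qpath hC.qcl c
      have hio := inn_add_out Q P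
      have hio' := inn_add_out Q P'
      have := Nat.find_min' hex ⟨P', hP', by omega, by omega, rfl⟩
      rw [h3 r (by omega)]; rfl

end Vale.Agent.P048
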